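import Vale.Agent.P223.MathlibUsed
import Mathlib.Analysis.InnerProductSpace.Adjoint

/-! Kernel bound, abstract part: families of symmetric contractions with the resolvent identity. -/

namespace Vale.Agent.P223.H440

open scoped InnerProductSpace

/-- logarithmically convex sequences -/
theorem seq_ratio {d : ℕ → ℝ} (hd : ∀ k, 0 ≤ d k) (hc : ∀ k, d (k + 1) ^ 2 ≤ d k * d (k + 2))
    {r : ℝ} (hr : 0 < r) {N : ℕ} (hN : 1 ≤ N) (h : r ^ N * d 0 ≤ d N) :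
    r * d N ≤ d (N + 1) := by
  by_contra h'
  push Not at h'
  have hpos : 0 < d N := by
    rcases (hd N).lt_or_eq with h1 | h1
    · exact h1
    · rw [← h1, mul_zero] at h'
      exact absurd (hd (N + 1)) (not_le.2 h')
  have key : ∀ j, j ≤ N → 0 < d (N - j) ∧ d (N - j + 1) < r * d (N - j) := by
    intro j
    induction j with
    | zero => exact fun _ => ⟨hpos, h'⟩
    | succ j ih =>
      intro hj
      obtain ⟨h1, h2⟩ := ih (by omega)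
      obtain ⟨k, hk⟩ : ∃ k, N - j = k + 1 := ⟨N - j - 1, by omega⟩
      have hk' : N - (j + 1) = k := by omega
      rw [hk] at h1 h2
      rw [hk']
      have h3 := hc k
      have h4 : 0 < d k := by
        rcases (hd k).lt_or_eq with h5 | h5
        · exact h5
        · rw [← h5, zero_mul] at h3
          exact absurd h3 (not_le.2 (by positivity))
      refine ⟨h4, ?_⟩
      have h5 : d (k + 1) ^ 2 < d k * (r * d (k + 1)) :=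
        lt_of_le_of_lt h3 (mul_lt_mul_of_pos_left h2 h4)
      have h6 : d (k + 1) * d (k + 1) < (r * d k) * d (k + 1) := by nlinarith
      exact lt_of_mul_lt_mul_right h6 h1.le
  have key2 : ∀ k, k ≤ N → d (k + 1) < r * d k := by
    intro k hk
    have := (key (N - k) (by omega)).2
    rwa [show N - (N - k) = k by omega] at this
  have key3 : ∀ k, k ≤ N → d k ≤ r ^ k * d 0 := by
    intro k
    induction k with
    | zero => intro _; simp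
    | succ k ih =>
      intro hk
      calc d (k + 1) ≤ r * d k := (key2 k (by omega)).le
        _ ≤ r * (r ^ k * d 0) := mul_le_mul_of_nonneg_left (ih (by omega)) hr.le
        _ = r ^ (k + 1) * d 0 := by ring
  obtain ⟨k, rfl⟩ : ∃ k, N = k + 1 := ⟨N - 1, by omega⟩
  have h1 := key2 k (by omega)
  have h2 := mul_le_mul_of_nonneg_left (key3 k (by omega)) hr.le
  have h3 : r * (r ^ k * d 0) = r ^ (k + 1) * d 0 := by ring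
  linarith

variable {H : Type} [NormedAddCommGroup H] [InnerProductSpace ℂ H]

theorem pow_symm {T : H →L[ℂ] H} (hT : ∀ x y, ⟪T x, y⟫_ℂ = ⟪x, T y⟫_ℂ) (k : ℕ) (x y : H) :
    ⟪(T ^ k) x, y⟫_ℂ = ⟪x, (T ^ k) y⟫_ℂ := by
  induction k generalizing x y with
  | zero => simp
  | succ k ih =>
    have h1 : (T ^ (k + 1)) x = (T ^ k) (T x) := by rw [pow_succ]; rfl
    have h2 : (T ^ (k + 1)) y = T ((T ^ k) y) := by rw [pow_succ']; rfl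
    rw [h1, h2, ih, hT]

theorem pow_logconv {T : H →L[ℂ] H} (hT : ∀ x y, ⟪T x, y⟫_ℂ = ⟪x, T y⟫_ℂ) (ψ : H) (k : ℕ) :
    ‖(T ^ (k + 1)) ψ‖ ^ 2 ≤ ‖(T ^ k) ψ‖ * ‖(T ^ (k + 2)) ψ‖ := by
  have h1 : (T ^ (k + 1)) ψ = T ((T ^ k) ψ) := by rw [pow_succ']; rfl
  have h2 : (T ^ (k + 2)) ψ = T ((T ^ (k + 1)) ψ) := by rw [pow_succ']; rfl
  have h3 : ⟪(T ^ (k + 1)) ψ, (T ^ (k + 1)) ψ⟫_ℂ = ⟪(T ^ k) ψ, (T ^ (k + 2)) ψ⟫_ℂ := by
    rw [h2, ← hT, ← h1]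
  have h4 : ‖(T ^ (k + 1)) ψ‖ ^ 2 = ‖⟪(T ^ (k + 1)) ψ, (T ^ (k + 1)) ψ⟫_ℂ‖ := by
    rw [inner_self_eq_norm_sq_to_K, norm_pow]
    simp
  rw [h4, h3]
  exact norm_inner_le_norm _ _

/-- the comparison of two scales -/
theorem step {A A' : H →L[ℂ] H} (hs : ∀ x y, ⟪A x, y⟫_ℂ = ⟪x, A y⟫_ℂ)
    (hT : A = ((1 / 4 : ℂ) • (1 + (3 : ℂ) • A)) * A') (hc : A * A' = A' * A) {φ : H} {N : ℕ}
    (hN : 1 ≤ N) (h : (1 / 2 : ℝ) ^ N * ‖(A' ^ N) φ‖ ≤ ‖(A ^ N) φ‖) :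
    ‖(A ^ N) φ‖ ≤ 3 * ‖(A ^ (N + 1)) φ‖ := by
  set T : H →L[ℂ] H := (1 / 4 : ℂ) • (1 + (3 : ℂ) • A) with hTdef
  have hTs : ∀ x y, ⟪T x, y⟫_ℂ = ⟪x, T y⟫_ℂ := by
    intro x y
    simp only [hTdef, smul_apply, add_apply,
      one_apply_eq_self, inner_smul_left, inner_smul_right, inner_add_left,
      inner_add_right, hs]
    have h3 : (starRingEnd ℂ) (3 : ℂ) = 3 := Complex.conj_ofReal 3
    have h4 : (starRingEnd ℂ) (1 / 4 : ℂ) = 1 / 4 := by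
      rw [map_div₀, map_one]
      congr 1
      exact Complex.conj_ofReal 4
    rw [h3, h4]
  have hTA : Commute T A' := by
    have : Commute A A' := hc
    exact ((Commute.one_left A').add_left (this.smul_left 3)).smul_left (1 / 4 : ℂ)
  have h1 : ∀ k, (A ^ k) φ = (T ^ k) ((A' ^ k) φ) := by
    intro k
    have : A ^ k = T ^ k * A' ^ k := by
      rw [← hTA.mul_pow, ← hT]
    rw [this]; rfl
  set ψ := (A' ^ N) φ with hψ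
  have h2 := seq_ratio (d := fun k => ‖(T ^ k) ψ‖) (fun k => norm_nonneg _)
    (fun k => pow_logconv hTs ψ k) (r := 1 / 2) (by norm_num) hN (by
      simp only [pow_zero, one_apply_eq_self]
      rw [← h1 N]; exact h)
  rw [← h1 N] at h2
  have h3 : (T ^ (N + 1)) ψ = T ((A ^ N) φ) := by
    rw [h1 N, pow_succ']; rfl
  rw [h3] at h2
  have h4 : ‖T ((A ^ N) φ)‖ ≤ 1 / 4 * ‖(A ^ N) φ‖ + 3 / 4 * ‖(A ^ (N + 1)) φ‖ := by
    have h5 : T ((A ^ N) φ) = (1 / 4 : ℂ) • (A ^ N) φ + (3 / 4 : ℂ) • (A ^ (N + 1)) φ := by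
      have h6 : (A ^ (N + 1)) φ = A ((A ^ N) φ) := by rw [pow_succ']; rfl
      rw [h6]
      simp only [hTdef, smul_apply, add_apply,
        one_apply_eq_self]
      module
    rw [h5]
    refine (norm_add_le _ _).trans (le_of_eq ?_)
    rw [norm_smul, norm_smul]
    norm_num
  linarith

/-- the main argument -/
theorem abs_key {A : ℝ → H →L[ℂ] H} {φ : H} {μ₀ a B : ℝ} {N : ℕ} (hμ : 0 < μ₀)
    (hN1 : 1 ≤ N) (hN : (2 : ℝ) ^ a * 2 ≤ 2 ^ N) (hB0 : 0 ≤ B)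
    (hs : ∀ μ, μ₀ ≤ μ → ∀ x y, ⟪A μ x, y⟫_ℂ = ⟪x, A μ y⟫_ℂ) {R : ℝ}
    (hn : ∀ μ, μ₀ ≤ μ → ‖(A μ ^ N) φ‖ ≤ R)
    (hT : ∀ μ, μ₀ ≤ μ → A μ = ((1 / 4 : ℂ) • (1 + (3 : ℂ) • A μ)) * A (2 * μ))
    (hc : ∀ μ, μ₀ ≤ μ → A μ * A (2 * μ) = A (2 * μ) * A μ) (ha : 0 ≤ a)
    (hB : ∀ μ, μ₀ ≤ μ → ‖(A μ ^ N) φ‖ ≤ 3 * ‖(A μ ^ (N + 1)) φ‖ →
      ‖(A μ ^ (N + 1)) φ‖ ≤ B * μ ^ a) :
    ‖(A μ₀ ^ N) φ‖ ≤ 6 * B * μ₀ ^ a := by
  -- the supremum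
  set F : Set.Ici μ₀ → ℝ := fun μ => ‖(A μ ^ N) φ‖ / (μ : ℝ) ^ a with hF
  have hp : ∀ μ : Set.Ici μ₀, 0 < (μ : ℝ) := fun μ => hμ.trans_le μ.2
  have hpa : ∀ μ : Set.Ici μ₀, 0 < (μ : ℝ) ^ a := fun μ => Real.rpow_pos_of_pos (hp μ) a
  have hF0 : ∀ μ, 0 ≤ F μ := fun μ => div_nonneg (norm_nonneg _) (hpa μ).le
  have hbdd : BddAbove (Set.range F) := by
    refine ⟨R / μ₀ ^ a, ?_⟩
    rintro _ ⟨μ, rfl⟩
    have hR : 0 ≤ R := (norm_nonneg _).trans (hn _ μ.2)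
    exact div_le_div₀ hR (hn _ μ.2) (Real.rpow_pos_of_pos hμ a)
      (Real.rpow_le_rpow hμ.le μ.2 ha)
  haveI : Nonempty (Set.Ici μ₀) := ⟨⟨μ₀, le_refl μ₀⟩⟩
  set S := ⨆ μ, F μ with hS
  have hFS : ∀ μ, F μ ≤ S := fun μ => le_ciSup hbdd μ
  have hS6 : S ≤ 6 * B := by
    by_contra hcon
    push Not at hcon
    have hSpos : 0 < S := lt_of_le_of_lt (by positivity) hcon
    obtain ⟨μ, h1⟩ := exists_lt_of_lt_ciSup (show S / 2 < ⨆ μ, F μ by rw [← hS]; linarith)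
    have hμμ : μ₀ ≤ (μ : ℝ) := μ.2
    have h2 : μ₀ ≤ 2 * (μ : ℝ) := by linarith [hp μ]
    have h3 := hFS ⟨2 * (μ : ℝ), h2⟩
    have h4 : ‖(A (2 * (μ : ℝ)) ^ N) φ‖ ≤ S * (2 * (μ : ℝ)) ^ a := by
      have := (div_le_iff₀ (hpa ⟨2 * (μ : ℝ), h2⟩)).1 h3
      exact this
    have h5 : S / 2 * (μ : ℝ) ^ a < ‖(A (μ : ℝ) ^ N) φ‖ := (lt_div_iff₀ (hpa μ)).1 h1
    rw [Real.mul_rpow (by norm_num) (hp μ).le] at h4
    have h6 : (1 / 2 : ℝ) ^ N * ‖(A (2 * (μ : ℝ)) ^ N) φ‖ ≤ ‖(A (μ : ℝ) ^ N) φ‖ := by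
      have h7 : (1 / 2 : ℝ) ^ N * ((2 : ℝ) ^ a * 2) ≤ 1 := by
        calc (1 / 2 : ℝ) ^ N * ((2 : ℝ) ^ a * 2) ≤ (1 / 2 : ℝ) ^ N * 2 ^ N :=
              mul_le_mul_of_nonneg_left hN (by positivity)
          _ = 1 := by rw [← mul_pow]; norm_num
      calc (1 / 2 : ℝ) ^ N * ‖(A (2 * (μ : ℝ)) ^ N) φ‖
          ≤ (1 / 2 : ℝ) ^ N * (S * ((2 : ℝ) ^ a * (μ : ℝ) ^ a)) :=
            mul_le_mul_of_nonneg_left h4 (by positivity)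
        _ = ((1 / 2 : ℝ) ^ N * ((2 : ℝ) ^ a * 2)) * (S / 2 * (μ : ℝ) ^ a) := by ring
        _ ≤ 1 * (S / 2 * (μ : ℝ) ^ a) :=
            mul_le_mul_of_nonneg_right h7 (mul_nonneg (by linarith) (hpa μ).le)
        _ ≤ _ := by rw [one_mul]; exact h5.le
    have h8 := step (hs _ hμμ) (hT _ hμμ) (hc _ hμμ) hN1 h6
    have h9 := hB _ hμμ h8
    have h10 : S / 2 * (μ : ℝ) ^ a < 3 * B * (μ : ℝ) ^ a := by
      calc S / 2 * (μ : ℝ) ^ a < ‖(A (μ : ℝ) ^ N) φ‖ := h5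
        _ ≤ 3 * ‖(A (μ : ℝ) ^ (N + 1)) φ‖ := h8
        _ ≤ 3 * (B * (μ : ℝ) ^ a) := by linarith
        _ = _ := by ring
    have h11 := lt_of_mul_lt_mul_right h10 (hpa μ).le
    linarith
  have h1 := (hFS ⟨μ₀, le_refl μ₀⟩).trans hS6
  exact (div_le_iff₀ (hpa ⟨μ₀, le_refl μ₀⟩)).1 h1

end Vale.Agent.P223.H440
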