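import Vale.Agent.P223.H566.Alg2
import Vale.Agent.P223.H440.Abs

/-! Resolvents for different parameters. -/

namespace Vale.Agent.P223.H440

open scoped ContDiff InnerProductSpace Topology
open MeasureTheory Vale.Agent.P223.H Vale.Agent.P223.X Vale.Agent.P223.H566

section gr
variable {n : ℕ} {M X Γ I : Type} [TopologicalSpace M] [TopologicalSpace X] [Group Γ]
    [MulAction Γ X] {V : Type} [NormedAddCommGroup V] [InnerProductSpace ℂ V]
    {C : Cov n M X Γ I} {G : I → E n → Matrix (Fin n) (Fin n) ℝ} {K : Cliff n V}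
    [MeasurableSpace X] {S : SpX C G K} {μ : Measure X} {H : Type} [NormedAddCommGroup H]
    [InnerProductSpace ℂ H] [T2Space X] {E : Emb S μ H}

theorem gr_add {v w v' w' : H} (h : Gr E v w) (h' : Gr E v' w') : Gr E (v + v') (w + w') := by
  have hc : Continuous fun q : (H × H) × (H × H) => (q.1.1 + q.2.1, q.1.2 + q.2.2) := by
    fun_prop
  have h1 : ((v, w), (v', w')) ∈ closure ((Set.range fun φ : Core S => (E.e φ, E.e (S.DC φ))) ×ˢ
      (Set.range fun φ : Core S => (E.e φ, E.e (S.DC φ)))) := by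
    rw [closure_prod_eq]
    exact ⟨h, h'⟩
  refine closure_minimal (t := {q : (H × H) × (H × H) | (q.1.1 + q.2.1, q.1.2 + q.2.2) ∈
    closure (Set.range fun φ : Core S => (E.e φ, E.e (S.DC φ)))}) ?_
    (isClosed_closure.preimage hc) h1
  rintro ⟨_, _⟩ ⟨⟨φ, rfl⟩, ⟨ψ, rfl⟩⟩
  have := Gr.core E (φ + ψ)
  rw [map_add, map_add, map_add] at this
  exact this

theorem gr_smul {v w : H} (h : Gr E v w) (r : ℂ) : Gr E (r • v) (r • w) := by
  have hc : Continuous fun q : H × H => (r • q.1, r • q.2) := by fun_prop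
  refine h.ind (P := {q | (r • q.1, r • q.2) ∈
    closure (Set.range fun φ : Core S => (E.e φ, E.e (S.DC φ)))})
    (isClosed_closure.preimage hc) fun φ => ?_
  have := Gr.core E (r • φ)
  rw [map_smul, map_smul, map_smul] at this
  exact this

theorem gr_sub {v w v' w' : H} (h : Gr E v w) (h' : Gr E v' w') : Gr E (v - v') (w - w') := by
  have := gr_add h (gr_smul h' (-1))
  rwa [neg_one_smul, neg_one_smul, ← sub_eq_add_neg, ← sub_eq_add_neg] at this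

theorem gr_skew [BorelSpace X] [Fintype I] [FiniteDimensional ℂ V] (hL : SpecLocal)
    (hV : VolX C G μ) {v w v' w' : H} (h : Gr E v w) (h' : Gr E v' w') :
    ⟪w, v'⟫_ℂ = -⟪v, w'⟫_ℂ := by
  refine h.ind (P := {q | ⟪q.2, v'⟫_ℂ = -⟪q.1, w'⟫_ℂ}) ?_ fun φ => ?_
  · exact isClosed_eq (continuous_snd.inner continuous_const)
      (continuous_fst.inner continuous_const).neg
  · refine h'.ind (P := {q | ⟪E.e (S.DC φ), q.1⟫_ℂ = -⟪E.e φ, q.2⟫_ℂ}) ?_ fun ψ => ?_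
    · exact isClosed_eq (continuous_const.inner continuous_fst)
        (continuous_const.inner continuous_snd).neg
    · exact e_skew E hL hV φ ψ

end gr

section res
variable {n : ℕ} {M X Γ I V H : Type}
    [TopologicalSpace M] [TopologicalSpace X]
    [Group Γ] [MulAction Γ X] [Fintype I] [T2Space X] [ConnectedSpace X] [T2Space M]
    [MeasurableSpace X] [BorelSpace X] [NormedAddCommGroup V] [InnerProductSpace ℂ V]
    [FiniteDimensional ℂ V] [NormedAddCommGroup H] [InnerProductSpace ℂ H] [CompleteSpace H]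
    {c : Ctx n M X Γ I V H} {m m' : ℝ} {g p g' p' : H →L[ℂ] H}

/-- `D g = p`, `D p = m² g - 1` -/
theorem gr_g (hD : SpecDense) (hm : m ≠ 0) (h : Rsv c.E m g p) (u : H) :
    Gr c.E (g u) (p u) ∧ Gr c.E (p u) (((m : ℂ) ^ 2) • g u - u) := by
  obtain ⟨sp, sm, h1, h2, -, -, hg, hp⟩ := h.ex
  have a1 := gr_sp h1 (dense_p c hD hm) u
  have a2 := gr_sm h2 (dense_m c hD hm) u
  have hm' : (m : ℂ) ≠ 0 := by exact_mod_cast hm
  have eg : g u = ((1 / (2 * m) : ℝ) : ℂ) • (sp u + sm u) := by rw [hg]; rfl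
  have ep : p u = (1 / 2 : ℂ) • (sm u - sp u) := by rw [hp]; rfl
  have e0 : ((1 / (2 * m) : ℝ) : ℂ) = 1 / (2 * (m : ℂ)) := by push_cast; ring
  constructor
  · have := gr_smul (gr_add a1 a2) ((1 / (2 * m) : ℝ) : ℂ)
    rw [← eg] at this
    convert this using 1
    rw [ep, e0]
    have e1 : u - (m : ℂ) • sp u + ((m : ℂ) • sm u - u) = (m : ℂ) • (sm u - sp u) := by module
    rw [e1, smul_smul]
    congr 1
    field_simp
  · have := gr_smul (gr_sub a2 a1) (1 / 2 : ℂ)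
    rw [← ep] at this
    convert this using 1
    rw [eg, e0, smul_smul]
    have e2 : (m : ℂ) ^ 2 * (1 / (2 * (m : ℂ))) = (m : ℂ) / 2 := by field_simp
    rw [e2]
    module

/-- uniqueness -/
theorem g_unique (hD : SpecDense) (hm : m ≠ 0) (h : Rsv c.E m g p) {v w z : H}
    (h1 : Gr c.E v w) (h2 : Gr c.E w z) : g (((m : ℂ) ^ 2) • v - z) = v := by
  obtain ⟨sp, sm, a1, a2, -, -, hg, hp⟩ := h.ex
  have hm' : (m : ℂ) ≠ 0 := by exact_mod_cast hm
  have b1 := h1.sp a1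
  have b2 : Gr c.E ((m : ℂ) • v + w) ((m : ℂ) • w + z) := gr_add (gr_smul h1 (m : ℂ)) h2
  have b3 := b2.sm a2
  have e1 : (m : ℂ) • ((m : ℂ) • v + w) - ((m : ℂ) • w + z) = ((m : ℂ) ^ 2) • v - z := by
    rw [pow_two]; module
  rw [e1] at b3
  obtain ⟨s1, s2⟩ := res_sum (c := c) hD hm a1 a2
  have hg' : g = (1 / (2 * (m : ℂ))) • (sp + sm) := by
    rw [hg]; congr 1; push_cast; ring
  have s3 := (alg1 hm' hg' hp s1 s2).2.2.1
  rw [s3, mul_apply_eq_comp, b3, b1]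

/-- the resolvent identity -/
theorem res_id (hD : SpecDense) (hm : m ≠ 0) (hm' : m' ≠ 0) (h : Rsv c.E m g p)
    (h' : Rsv c.E m' g' p') : g' = g + ((m : ℂ) ^ 2 - (m' : ℂ) ^ 2) • (g * g') := by
  ext u
  have h1 := gr_g hD hm' h' u
  have h2 := g_unique hD hm h h1.1 h1.2
  have e : ((m : ℂ) ^ 2) • g' u - (((m' : ℂ) ^ 2) • g' u - u) =
      ((m : ℂ) ^ 2 - (m' : ℂ) ^ 2) • g' u + u := by module
  rw [e, map_add, map_smul] at h2
  rw [add_apply, smul_apply, mul_apply_eq_comp, add_comm]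
  exact h2.symm

theorem g_eq (hD : SpecDense) (hm : m ≠ 0) (h : Rsv c.E m g p) (h' : Rsv c.E m g' p') :
    g' = g := by
  have := res_id hD hm hm h h'
  rwa [sub_self, zero_smul, add_zero] at this

omit [Fintype I] [ConnectedSpace X] [T2Space M] [BorelSpace X] [FiniteDimensional ℂ V]
  [CompleteSpace H] in
theorem p_unique (h : Rsv c.E m g p) {v w z : H}
    (h1 : Gr c.E v w) (h2 : Gr c.E w z) : p (((m : ℂ) ^ 2) • v - z) = w := by
  obtain ⟨sp, sm, a1, a2, -, -, hg, hp⟩ := h.ex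
  have b2 : Gr c.E ((m : ℂ) • v + w) ((m : ℂ) • w + z) := gr_add (gr_smul h1 (m : ℂ)) h2
  have b3 := b2.sm a2
  have b4 : Gr c.E ((m : ℂ) • v - w) ((m : ℂ) • w - z) := gr_sub (gr_smul h1 (m : ℂ)) h2
  have b5 := b4.sp a1
  have e1 : (m : ℂ) • ((m : ℂ) • v + w) - ((m : ℂ) • w + z) = ((m : ℂ) ^ 2) • v - z := by
    rw [pow_two]; module
  have e2 : (m : ℂ) • ((m : ℂ) • v - w) + ((m : ℂ) • w - z) = ((m : ℂ) ^ 2) • v - z := by
    rw [pow_two]; module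
  rw [e1] at b3
  rw [e2] at b5
  rw [hp, smul_apply, sub_apply, b3, b5]
  module

theorem p_eq (hD : SpecDense) (hm : m ≠ 0) (h : Rsv c.E m g p) (h' : Rsv c.E m g' p') :
    p' = p := by
  ext u
  have h1 := gr_g hD hm h' u
  have h2 := p_unique h h1.1 h1.2
  rw [sub_sub_cancel] at h2
  exact h2.symm

/-- the resolvent identity for `p` -/
theorem res_id_p (hD : SpecDense) (hm : m ≠ 0) (hm' : m' ≠ 0) (h : Rsv c.E m g p)
    (h' : Rsv c.E m' g' p') : p' = p + ((m : ℂ) ^ 2 - (m' : ℂ) ^ 2) • (p * g') := by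
  ext u
  have h1 := gr_g hD hm' h' u
  have h2 := p_unique h h1.1 h1.2
  have e : ((m : ℂ) ^ 2) • g' u - (((m' : ℂ) ^ 2) • g' u - u) =
      ((m : ℂ) ^ 2 - (m' : ℂ) ^ 2) • g' u + u := by module
  rw [e, map_add, map_smul] at h2
  rw [add_apply, smul_apply, mul_apply_eq_comp, add_comm]
  exact h2.symm

theorem g_comm (hD : SpecDense) (hm : m ≠ 0) (hm' : m' ≠ 0) (h : Rsv c.E m g p)
    (h' : Rsv c.E m' g' p') : g * g' = g' * g := by
  by_cases hne : m ^ 2 = m' ^ 2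
  · have h1 := res_id hD hm hm' h h'
    have e : ((m : ℂ) ^ 2 - (m' : ℂ) ^ 2) = 0 := by
      rw [sub_eq_zero]; exact_mod_cast hne
    rw [e, zero_smul, add_zero] at h1
    rw [h1]
  · have h1 := res_id hD hm hm' h h'
    have h2 := res_id hD hm' hm h' h
    have e : ((m : ℂ) ^ 2 - (m' : ℂ) ^ 2) ≠ 0 := by
      rw [sub_ne_zero]; exact_mod_cast hne
    have h3 : ((m : ℂ) ^ 2 - (m' : ℂ) ^ 2) • (g * g') =
        ((m : ℂ) ^ 2 - (m' : ℂ) ^ 2) • (g' * g) := by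
      have e1 : ((m : ℂ) ^ 2 - (m' : ℂ) ^ 2) • (g * g') = g' - g := by
        rw [eq_sub_iff_add_eq, add_comm]; exact h1.symm
      have e2 : ((m' : ℂ) ^ 2 - (m : ℂ) ^ 2) • (g' * g) = g - g' := by
        rw [eq_sub_iff_add_eq, add_comm]; exact h2.symm
      rw [e1]
      have e3 : ((m : ℂ) ^ 2 - (m' : ℂ) ^ 2) • (g' * g) =
          -(((m' : ℂ) ^ 2 - (m : ℂ) ^ 2) • (g' * g)) := by
        rw [← neg_smul]; congr 1; ring
      rw [e3, e2, neg_sub]
    have := congrArg (fun T => ((m : ℂ) ^ 2 - (m' : ℂ) ^ 2)⁻¹ • T) h3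
    simpa only [smul_smul, inv_mul_cancel₀ e, one_smul] using this

/-- `⟨g x, y⟩ = m² ⟨g x, g y⟩ + ⟨p x, p y⟩` -/
theorem g_form (hL : SpecLocal) (hD : SpecDense) (hm : m ≠ 0) (h : Rsv c.E m g p) (x y : H) :
    ⟪g x, y⟫_ℂ = (m : ℂ) ^ 2 * ⟪g x, g y⟫_ℂ + ⟪p x, p y⟫_ℂ := by
  have h1 := (gr_g hD hm h x).1
  have h2 := (gr_g hD hm h y).2
  have h3 := gr_skew hL c.vol h1 h2
  rw [inner_sub_right, inner_smul_right] at h3
  rw [h3]; ring

theorem g_symm (hL : SpecLocal) (hD : SpecDense) (hm : m ≠ 0) (h : Rsv c.E m g p) (x y : H) :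
    ⟪g x, y⟫_ℂ = ⟪x, g y⟫_ℂ := by
  have h1 := g_form hL hD hm h x y
  have h2 := g_form hL hD hm h y x
  have h3 := congrArg (starRingEnd ℂ) h2
  rw [inner_conj_symm, map_add, map_mul, inner_conj_symm, inner_conj_symm, map_pow,
    Complex.conj_ofReal] at h3
  rw [h1, h3]

theorem g_norm (h : Rsv c.E m g p) (hm : 0 < m) (hD : SpecDense) (u : H) :
    m ^ 2 * ‖g u‖ ≤ ‖u‖ := by
  obtain ⟨sp, sm, a1, a2, n1, n2, hg, hp⟩ := h.ex
  have hm' : (m : ℂ) ≠ 0 := by exact_mod_cast hm.ne'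
  obtain ⟨s1, s2⟩ := res_sum (c := c) hD hm.ne' a1 a2
  have hg' : g = (1 / (2 * (m : ℂ))) • (sp + sm) := by
    rw [hg]; congr 1; push_cast; ring
  have s3 := (alg1 hm' hg' hp s1 s2).2.2.1
  rw [s3, mul_apply_eq_comp]
  calc m ^ 2 * ‖sp (sm u)‖ = m * (m * ‖sp (sm u)‖) := by ring
    _ ≤ m * ‖sm u‖ := mul_le_mul_of_nonneg_left (n1 _) hm.le
    _ ≤ ‖u‖ := n2 u

/-- energy identity -/
theorem g_energy (hL : SpecLocal) (hD : SpecDense) (hm : m ≠ 0) (h : Rsv c.E m g p) (v : H) :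
    ‖p v‖ ^ 2 + m ^ 2 * ‖g v‖ ^ 2 = (⟪g v, v⟫_ℂ).re := by
  have h1 := g_form hL hD hm h v v
  rw [inner_self_eq_norm_sq_to_K, inner_self_eq_norm_sq_to_K] at h1
  rw [h1]
  have e : (m : ℂ) ^ 2 * ((‖g v‖ : ℂ)) ^ 2 + ((‖p v‖ : ℂ)) ^ 2 =
      ((m ^ 2 * ‖g v‖ ^ 2 + ‖p v‖ ^ 2 : ℝ) : ℂ) := by push_cast; ring
  have e' : ((m : ℂ) ^ 2 * ((RCLike.ofReal ‖g v‖ : ℂ)) ^ 2 + ((RCLike.ofReal ‖p v‖ : ℂ)) ^ 2) =
      ((m ^ 2 * ‖g v‖ ^ 2 + ‖p v‖ ^ 2 : ℝ) : ℂ) := e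
  rw [e', Complex.ofReal_re]
  ring

end res

end Vale.Agent.P223.H440
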