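import Vale.Agent.P223.H440.Ker
import Vale.Agent.P223.H66.S3

/-! The kernel bound with the hypothesis `SobX`. -/

namespace Vale.Agent.P223.H440

open scoped ContDiff InnerProductSpace Topology
open MeasureTheory Vale.Agent.P223.H Vale.Agent.P223.X Vale.Agent.P223.H566
open Vale.Agent.P223.H66 (scX YamX ScGe Cc SobX)

section
variable {n : ℕ} {M X Γ I : Type} [TopologicalSpace M] [TopologicalSpace X]
  [Group Γ] [MulAction Γ X] [MeasurableSpace X] {C : Cov n M X Γ I}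
  {G : I → E n → Matrix (Fin n) (Fin n) ℝ} {μ : Measure X}

theorem sob_of_sobX {y b : ℝ} (h : SobX C G μ (1 / 4) b y) : Sob C G μ y b := by
  intro u hu hc
  have h1 := h u ⟨hu, hc⟩
  refine h1.trans (le_of_eq ?_)
  congr 1
  funext x
  ring

theorem sobX_of_sob {y b : ℝ} (h : Sob C G μ y b) : SobX C G μ (1 / 4) b y := by
  intro u hu
  refine (h u hu.1 hu.2).trans (le_of_eq ?_)
  congr 1
  funext x
  ring

end

/-- BLOCK (E) with the hypothesis `SobX`. -/
def SpecKerX : Prop := ∀ n : ℕ, 3 ≤ n → ∃ K : ℝ, 0 < K ∧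
  ∀ (M X Γ I V H : Type) [TopologicalSpace M] [TopologicalSpace X]
  [Group Γ] [MulAction Γ X] [Fintype I] [T2Space X] [ConnectedSpace X] [T2Space M]
  [MeasurableSpace X] [BorelSpace X] [NormedAddCommGroup V] [InnerProductSpace ℂ V]
  [FiniteDimensional ℂ V] [NormedAddCommGroup H] [InnerProductSpace ℂ H] [CompleteSpace H]
  (c : Ctx n M X Γ I V H) (y κ m : ℝ) (g p : H →L[ℂ] H), 0 < y → 0 ≤ κ → 0 < m → κ / 4 < m ^ 2 →
  ScGe c.G κ → SobX c.C c.G c.μ (1 / 4) (κ / 4) y → Rsv c.E m g p →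
  ∀ φ ψ : Core c.S, ‖⟪c.E.e φ, (g ^ (2 * n + 2)) (c.E.e ψ)⟫_ℂ‖ ≤
    K * y ^ (-((n : ℝ) / 2)) * (m ^ 2 - κ / 4) ^ ((n : ℝ) / 2 - (2 * n + 2)) *
      (∫ x, nm c.C (φ : Raw Γ I n V) x ∂c.μ) * ∫ x, nm c.C (ψ : Raw Γ I n V) x ∂c.μ

theorem specKerX (hL : SpecLocal) (hD : SpecDense) (hSup : SpecSup) : SpecKerX := by
  intro n hn
  obtain ⟨K, hK, h⟩ := specKerS hL hD hSup n hn
  refine ⟨K, hK, ?_⟩
  intro M X Γ I V H _ _ _ _ _ _ _ _ _ _ _ _ _ _ _ _ c y κ m g p hy hκ hm hmκ hSc hS hR φ ψ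
  exact h M X Γ I V H c y κ m g p hy hκ hm hmκ hSc (sob_of_sobX hS) hR φ ψ

/-- the Yamabe inequality implies `SobX` -/
theorem sobX_of_yam {n : ℕ} {M X Γ I : Type} [TopologicalSpace M] [TopologicalSpace X]
    [Group Γ] [MulAction Γ X] [Fintype I] [T2Space X] [ConnectedSpace X] [T2Space M]
    [MeasurableSpace X] [BorelSpace X] {C : Cov n M X Γ I}
    {G : I → E n → Matrix (Fin n) (Fin n) ℝ} {μ : Measure X} (hG : MetX C G) (hV : VolX C G μ)
    (hn : 3 ≤ n) {y κ : ℝ} (hκ : 0 ≤ κ) (hs : ScGe G κ) (hY : YamX C G μ y) :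
    SobX C G μ (1 / 4) (κ / 4) y := by
  intro u hu'
  obtain ⟨hu, hc⟩ := hu'
  refine (hY u ⟨hu, hc⟩).trans ?_
  have hn3 : (3 : ℝ) ≤ n := by exact_mod_cast hn
  have hfin := finComp hG hV
  obtain ⟨g1, g2⟩ := gsX_supp' hG hu hc
  have uc : Continuous u := Ck_continuous C fun γ j => (hu γ j).of_le (by simp)
  have sc := scX_cont hG
  have i1 : Integrable (gsX C G u) μ := g1.integrable_of_hasCompactSupport g2
  have hu2 : HasCompactSupport (fun x => u x ^ 2) :=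
    hc.comp_left (g := fun t : ℝ => t ^ 2) (by norm_num)
  have i2 : ∀ f : X → ℝ, Continuous f → Integrable (fun x => f x * u x ^ 2) μ := fun f hf =>
    (hf.mul (uc.pow 2)).integrable_of_hasCompactSupport hu2.mul_left
  refine integral_mono ?_ ?_ fun x => ?_
  · exact i1.add (i2 (fun x => ((n : ℝ) - 2) / (4 * (n - 1)) * scX C G x)
      (continuous_const.mul sc))
  · exact i1.add (i2 (fun x => 1 / 4 * scX C G x + κ / 4)
      ((continuous_const.mul sc).add continuous_const))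
  · simp only
    refine add_le_add le_rfl (mul_le_mul_of_nonneg_right ?_ (sq_nonneg _))
    have h1 := scX_ge (C := C) hs x
    have ha : ((n : ℝ) - 2) / (4 * (n - 1)) ≤ 1 / 4 := by
      rw [div_le_div_iff₀ (by linarith) (by norm_num)]; linarith
    have ha0 : 0 ≤ ((n : ℝ) - 2) / (4 * (n - 1)) := div_nonneg (by linarith) (by linarith)
    nlinarith [mul_nonneg (sub_nonneg.2 ha) (by linarith : 0 ≤ scX C G x + κ),
      mul_nonneg ha0 hκ]

end Vale.Agent.P223.H440
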