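import Vale.Agent.P223.H440.GA2
import Mathlib.Analysis.SpecialFunctions.SmoothTransition

/-! Stage 5: BLOCK V3b, the distance and the exponential map. -/

namespace Vale.Agent.P223.H440.NL

open scoped ContDiff Topology Matrix ENNReal
open Vale.Agent.P223 Vale.Agent.P223.X Filter Set
open Vale.Agent.P223.H440.NC (fi pmet)
open Vale.Agent.P223.H566.NV (Exp nrm dst bal pul grd)

section cs
variable {n : ℕ}

/-- Cauchy-Schwarz -/
theorem bil_cs {A : Matrix (Fin n) (Fin n) ℝ} (hA : A.PosDef) (v w : J.E n) :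
    J.bil A v w ^ 2 ≤ J.bil A v v * J.bil A w w := by
  have hAs : ∀ p q, A p q = A q p := fun p q => by
    have := hA.isHermitian.apply p q
    simpa using this.symm
  have hc : J.bil A w v = J.bil A v w := MetU.bil_comm hAs w v
  rcases eq_or_ne w 0 with rfl | hw
  · have h1 : J.bil A v 0 = 0 := by rw [bil_dot]; simp
    have h2 : J.bil A (0 : J.E n) 0 = 0 := by rw [bil_dot]; simp
    rw [h1, h2]; simp
  · have hp := bil_pos hA hw
    have h1 : ∀ s : ℝ, J.bil A (v - s • w) (v - s • w) =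
        J.bil A v v - 2 * s * J.bil A v w + s ^ 2 * J.bil A w w := by
      intro s
      rw [bil_dot, bil_dot, bil_dot, bil_dot] at *
      simp only [Matrix.mulVec_sub, Matrix.mulVec_smul, sub_dotProduct, dotProduct_sub,
        smul_dotProduct, dotProduct_smul, smul_eq_mul]
      rw [hc]
      ring
    have h2 := bil_nonneg hA (v - (J.bil A v w / J.bil A w w) • w)
    rw [h1] at h2
    have h3 : J.bil A v v - 2 * (J.bil A v w / J.bil A w w) * J.bil A v w +
        (J.bil A v w / J.bil A w w) ^ 2 * J.bil A w w =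
        (J.bil A v v * J.bil A w w - J.bil A v w ^ 2) / J.bil A w w := by
      field_simp
      ring
    rw [h3] at h2
    have h4 := (div_nonneg_iff.1 h2).resolve_right (by
      rintro ⟨-, h5⟩
      linarith)
    linarith [h4.1]

/-- Cauchy-Schwarz for covectors -/
theorem cov_cs {A : Matrix (Fin n) (Fin n) ℝ} (hA : A.PosDef) (ξ w : J.E n) :
    (∑ a, ξ a * w a) ^ 2 ≤ (∑ i, ∑ j, A⁻¹ i j * ξ i * ξ j) * J.bil A w w := by
  have hAs : ∀ p q, A p q = A q p := fun p q => by
    have := hA.isHermitian.apply p q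
    simpa using this.symm
  have h1 := bil_cs hA (A⁻¹ *ᵥ ξ) w
  have h2 : A *ᵥ (A⁻¹ *ᵥ ξ) = ξ := by
    rw [Matrix.mulVec_mulVec, Matrix.mul_nonsing_inv _ hA.det_pos.ne'.isUnit,
      Matrix.one_mulVec]
  have h3 : J.bil A (A⁻¹ *ᵥ ξ) w = ∑ a, ξ a * w a := by
    rw [MetU.bil_comm hAs, bil_dot, h2]
    simp only [dotProduct]
    exact Finset.sum_congr rfl fun a _ => mul_comm _ _
  have h4 : J.bil A (A⁻¹ *ᵥ ξ) (A⁻¹ *ᵥ ξ) = ∑ i, ∑ j, A⁻¹ i j * ξ i * ξ j := by
    rw [bil_dot, h2]
    simp only [dotProduct, Matrix.mulVec, Finset.sum_mul]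
    refine Finset.sum_congr rfl fun i _ => Finset.sum_congr rfl fun j _ => ?_
    ring
  rwa [h3, h4] at h1

end cs

/-- one variable cut-off -/
theorem exists_k {ε ρ r : ℝ} (hε : 0 < ε) (hρ : ρ < r) : ∃ (k : ℝ → ℝ) (β : ℝ),
    ContDiff ℝ ∞ k ∧ (∀ s, s ≤ ε / 2 → k s = 0) ∧ (∀ s, r ≤ s → k s = β) ∧
      (∀ s, |deriv k s| ≤ 1) ∧ ∀ s, min s ρ - ε ≤ k s := by
  set χ : ℝ → ℝ := fun s => Real.smoothTransition ((s - ε / 2) / (ε / 2)) *
    Real.smoothTransition ((r - s) / (r - ρ)) with hχ
  have hχs : ContDiff ℝ ∞ χ := by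
    refine ContDiff.mul (Real.smoothTransition.contDiff.comp ?_)
      (Real.smoothTransition.contDiff.comp ?_)
    · exact (contDiff_id.sub contDiff_const).div_const _
    · exact (contDiff_const.sub contDiff_id).div_const _
  have hχ0 : ∀ s, 0 ≤ χ s := fun s => mul_nonneg (Real.smoothTransition.nonneg _)
    (Real.smoothTransition.nonneg _)
  have hχ1 : ∀ s, χ s ≤ 1 := fun s => mul_le_one₀ (Real.smoothTransition.le_one _)
    (Real.smoothTransition.nonneg _) (Real.smoothTransition.le_one _)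
  have ha : ∀ s, s ≤ ε / 2 → χ s = 0 := by
    intro s hs
    simp only [hχ]
    rw [Real.smoothTransition.zero_of_nonpos (div_nonpos_of_nonpos_of_nonneg (by linarith)
      (by linarith)), zero_mul]
  have hb : ∀ s, r ≤ s → χ s = 0 := by
    intro s hs
    simp only [hχ]
    rw [Real.smoothTransition.zero_of_nonpos (x := (r - s) / (r - ρ))
      (div_nonpos_of_nonpos_of_nonneg (by linarith) (by linarith)), mul_zero]
  have hm : ∀ s, ε ≤ s → s ≤ ρ → χ s = 1 := by
    intro s hs hs'
    simp only [hχ]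
    rw [Real.smoothTransition.one_of_one_le ((one_le_div (by linarith)).2 (by linarith)),
      Real.smoothTransition.one_of_one_le ((one_le_div (by linarith)).2 (by linarith)), one_mul]
  set k : ℝ → ℝ := fun s => ∫ t in (0 : ℝ)..s, χ t with hk
  have hkd : ∀ s, HasDerivAt k (χ s) s := fun s =>
    (hχs.continuous.integral_hasStrictDerivAt 0 s).hasDerivAt
  have hkd' : deriv k = χ := funext fun s => (hkd s).deriv
  have hks : ContDiff ℝ ∞ k := by
    rw [contDiff_infty_iff_deriv]
    refine ⟨fun s => (hkd s).differentiableAt, ?_⟩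
    rw [hkd']
    exact hχs
  have hk0 : k 0 = 0 := by simp [hk]
  have hmono : Monotone k := monotone_of_deriv_nonneg (fun s => (hkd s).differentiableAt)
    fun s => by rw [hkd']; exact hχ0 s
  have hconst : ∀ a b, a ≤ b → (∀ s ∈ Icc a b, χ s = 0) → k b = k a := by
    intro a b hab h
    exact constant_of_has_deriv_right_zero
      (fun t _ => (hkd t).continuousAt.continuousWithinAt)
      (fun t ht => by
        have := (hkd t).hasDerivWithinAt (s := Ici t)
        rwa [h t ⟨ht.1, ht.2.le⟩] at this) b ⟨hab, le_rfl⟩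
  have hzero : ∀ s, s ≤ ε / 2 → k s = 0 := by
    intro s hs
    rcases le_total 0 s with h | h
    · rw [hconst 0 s h fun t ht => ha t (ht.2.trans hs), hk0]
    · rw [← hk0]
      exact (hconst s 0 h fun t ht => ha t (ht.2.trans (by linarith))).symm
  refine ⟨k, k r, hks, hzero, fun s hs => hconst r s hs fun t ht => hb t ht.1, fun s => ?_,
    fun s => ?_⟩
  · rw [hkd', abs_of_nonneg (hχ0 s)]
    exact hχ1 s
  · rcases le_total (min s ρ) ε with h | h
    · have h1 : 0 ≤ k s := by
        rcases le_total 0 s with h2 | h2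
        · rw [← hk0]; exact hmono h2
        · rw [hzero s (by linarith)]
      linarith
    · set t := min s ρ with ht
      have h1 : k t - t = k ε - ε := by
        refine constant_of_has_deriv_right_zero (f := fun s => k s - s) (a := ε) (b := t)
          (fun u _ => ((hkd u).continuousAt.sub continuousAt_id).continuousWithinAt)
          (fun u hu => ?_) t ⟨h, le_rfl⟩
        have h3 := ((hkd u).sub (hasDerivAt_id u)).hasDerivWithinAt (s := Ici u)
        rw [hm u hu.1 (hu.2.le.trans (min_le_right _ _)), sub_self] at h3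
        exact h3
      have h2 : 0 ≤ k ε := by rw [← hk0]; exact hmono hε.le
      have h3 : k t ≤ k s := hmono (min_le_left _ _)
      linarith

variable {n : ℕ} {X : Type} [TopologicalSpace X] {c : X → J.Ch n X} {g : X → J.Mtx n}

/-- the distance from the centre is at most the radius -/
theorem lip_le [T2Space X] (hn : 1 ≤ n) (hc : J.Atl c) (hg : J.Met c g) {x : X} {r : ℝ}
    {e : J.E n → X} (hr : 0 < r) (he : Exp c g x r e) {u : X → ℝ} (hu : J.Lip1 c g u)
    {w : J.E n} (hw : nrm c g x w < r) : |u (e w) - u x| ≤ nrm c g x w := by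
  set U : Set (J.E n) := {w | J.bil (g x (c x x)) w w < r ^ 2} with hU
  have hLc : Lc c e U := lc_of_exp he
  have hpx : (g x (c x x)).PosDef := (hg x x (hc x).1).2.1
  have hUt : ∀ t ∈ Icc (0 : ℝ) 1, t • w ∈ U := by
    intro t ht
    refine (nrm_lt_iff hr).1 (lt_of_le_of_lt ?_ hw)
    rw [nrm_smul, abs_of_nonneg ht.1]
    exact mul_le_of_le_one_left (nrm_nonneg _ _) ht.2
  set F : J.E n → ℝ := fun w => u (e w) with hF
  have hFs : ∀ w ∈ U, DifferentiableAt ℝ F w := by
    intro v hv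
    have h1 : e v ∈ (c (e v)).source := (hc _).1
    have h2 : ContDiffAt ℝ ∞ (fun x => u ((c (e v)).symm x)) (fi c e (e v) v) :=
      (hu.1 (e v)).contDiffAt ((c (e v)).open_target.mem_nhds ((c (e v)).map_source h1))
    have h3 : F =ᶠ[𝓝 v] fun w => (fun x => u ((c (e v)).symm x)) (fi c e (e v) w) := by
      filter_upwards [hLc.near hv h1] with w hw
      simp only [hF]
      unfold fi
      rw [(c (e v)).left_inv hw.2]
    have h4 : ContDiffAt ℝ ∞ (fun w => (fun x => u ((c (e v)).symm x)) (fi c e (e v) w)) v :=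
      ContDiffAt.comp (g := fun x => u ((c (e v)).symm x)) (f := fi c e (e v)) v h2
        (hLc.smA hc hv h1)
    exact (h4.congr_of_eventuallyEq h3).differentiableAt (by simp)
  have hb : ∀ t ∈ Icc (0 : ℝ) 1, J.bil (pul c g e (t • w)) w w = J.bil (g x (c x x)) w w := by
    intro t ht
    rcases eq_or_ne t 0 with rfl | h0
    · rw [zero_smul, pul_zero he]
    · have h1 := specGauss n X c g x r e hn hc hg hr he (t • w) (hUt t ht) (t • w)
      rw [bil_smul', bil_smul'] at h1
      exact mul_left_cancel₀ (by positivity) h1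
  have h1 := norm_image_sub_le_of_norm_deriv_le_segment_01'
    (f := fun t : ℝ => F (t • w)) (f' := fun t => ∑ a, pd a F (t • w) * w a)
    (C := nrm c g x w) (fun t ht => (deriv_ray (hFs _ (hUt t ht))).hasDerivWithinAt)
    (fun t ht => ?_)
  · simp only [one_smul, zero_smul] at h1
    rw [hF] at h1
    simp only [he.zero] at h1
    exact h1
  · have ht' : t ∈ Icc (0 : ℝ) 1 := ⟨ht.1, ht.2.le⟩
    have htU := hUt t ht'
    have hG : (pul c g e (t • w)).PosDef := by
      rw [pul_eq hc hLc htU]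
      exact hLc.pmet_pos hc hg htU
    have h2 := cov_cs hG (fun a => pd a F (t • w)) w
    have h3 : ∑ i, ∑ j, (pul c g e (t • w))⁻¹ i j * pd i F (t • w) * pd j F (t • w) ≤ 1 := by
      have h4 := gsq_lc hc hg hLc hu.1 htU
      have h5 := hu.2 (e (t • w))
      rw [h4] at h5
      exact h5
    rw [hb t ht'] at h2
    rw [Real.norm_eq_abs]
    refine Real.abs_le_sqrt (h2.trans ?_)
    exact mul_le_of_le_one_left (bil_nonneg hpx w) h3

theorem exists_lip [T2Space X] (hn : 1 ≤ n) (hc : J.Atl c) (hg : J.Met c g) {x : X} {r : ℝ}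
    {e : J.E n → X} (hr : 0 < r) (he : Exp c g x r e) {ε ρ : ℝ} (hε : 0 < ε) (hρ : ρ < r) :
    ∃ u : X → ℝ, J.Lip1 c g u ∧
      (∀ w, nrm c g x w < r → min (nrm c g x w) ρ - ε ≤ u (e w) - u x) ∧
      ∀ z, z ∉ e '' {w | nrm c g x w < r} → ρ - ε ≤ u z - u x := by
  obtain ⟨k, β, hk, hka, hkb, hkL, hkm⟩ := exists_k (r := (ρ + r) / 2) hε (by linarith : ρ < _)
  obtain ⟨u, hus, hu1, hu2, hu3, -, -⟩ := rad hn hc hg hr he hk (half_pos hε) hka
    (by linarith : (ρ + r) / 2 < r) hkb hkL
  have hn0 : nrm c g x (0 : J.E n) = 0 := by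
    have := nrm_smul (c := c) (g := g) x 0 (0 : J.E n)
    rwa [smul_zero, abs_zero, zero_mul] at this
  have hux : u x = 0 := by
    have := hu1 0 (by rw [hn0]; exact hr)
    rw [he.zero, hn0, hka 0 (by linarith)] at this
    exact this
  refine ⟨u, ⟨hus, fun q => (hu3 q).trans (by norm_num)⟩, fun w hw => ?_, fun z hz => ?_⟩
  · rw [hux, hu1 w hw, sub_zero]
    exact hkm _
  · rw [hux, sub_zero, hu2 z fun ⟨w, hw, h⟩ =>
        hz ⟨w, lt_of_le_of_lt hw (by linarith : (ρ + r) / 2 < r), h⟩,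
      ← hkb _ le_rfl]
    have := hkm ((ρ + r) / 2)
    rwa [min_eq_right (by linarith)] at this

/-- BLOCK V3b -/
theorem specDst : H566.NV.SpecDst := by
  intro n X _ _ c g x r e hn hc hg hr he
  -- lower bounds
  have hlow : ∀ (z : X) (R : ℝ), R ≤ r → (∀ ε ρ : ℝ, 0 < ε → ρ < r → ∃ u : X → ℝ, J.Lip1 c g u ∧
      min R ρ - ε ≤ u z - u x) → ENNReal.ofReal R ≤ dst c g x z := by
    intro z R hRr h
    by_contra hcon
    rw [not_le, ENNReal.lt_iff_exists_real_btwn] at hcon
    obtain ⟨d, hd0, hd1, hd2⟩ := hcon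
    have hdR : d < R := (ENNReal.ofReal_lt_ofReal_iff_of_nonneg hd0).1 hd2
    obtain ⟨u, hu, h1⟩ := h ((R - d) / 2) ((d + R) / 2) (by linarith) (by linarith)
    rw [min_eq_right (by linarith)] at h1
    have h2 : d ≤ |u x - u z| := by
      rw [abs_sub_comm]
      exact (by linarith : d ≤ u z - u x).trans (le_abs_self _)
    have h3 := (ENNReal.ofReal_le_ofReal h2).trans (lip_dst hu x z)
    exact absurd hd1 (not_lt.2 h3)
  have h1 : ∀ w, nrm c g x w < r → dst c g x (e w) = ENNReal.ofReal (nrm c g x w) := by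
    intro w hw
    refine le_antisymm ?_ ?_
    · unfold dst
      refine iSup_le fun u => iSup_le fun hu => ENNReal.ofReal_le_ofReal ?_
      rw [abs_sub_comm]
      exact lip_le hn hc hg hr he hu hw
    · refine hlow _ _ hw.le fun ε ρ hε hρ => ?_
      obtain ⟨u, hu, hu1, -⟩ := exists_lip hn hc hg hr he hε hρ
      exact ⟨u, hu, hu1 w hw⟩
  refine ⟨h1, fun s hs hsr => Subset.antisymm (fun z hz => ?_) ?_⟩
  · change dst c g x z < ENNReal.ofReal s at hz
    by_cases hzr : z ∈ e '' {w | nrm c g x w < r}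
    · obtain ⟨w, hw, rfl⟩ := hzr
      rw [h1 w hw] at hz
      exact ⟨w, (ENNReal.ofReal_lt_ofReal_iff hs).1 hz, rfl⟩
    · exfalso
      have h2 : ENNReal.ofReal r ≤ dst c g x z := hlow z r le_rfl fun ε ρ hε hρ => by
        obtain ⟨u, hu, -, hu2⟩ := exists_lip hn hc hg hr he hε hρ
        refine ⟨u, hu, ?_⟩
        rw [min_eq_right hρ.le]
        exact hu2 z hzr
      exact absurd hz (not_lt.2 ((ENNReal.ofReal_le_ofReal hsr).trans h2))
  · rintro _ ⟨w, hw, rfl⟩
    change dst c g x (e w) < ENNReal.ofReal s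
    rw [h1 w (lt_of_lt_of_le hw hsr)]
    exact (ENNReal.ofReal_lt_ofReal_iff hs).2 hw

end Vale.Agent.P223.H440.NL
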