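import Vale.Agent.P223.H566.All
import Vale.Agent.P223.H316.Vp
import Vale.Agent.P223.H391.SupP
import Vale.Agent.P223.H691.TrD
import Vale.Agent.P223.H440.KerX
import Vale.Agent.P223.H66.EndB
import Vale.Agent.P223.H191.Scl

/-! The volume form of the bound (block `SpecVx`). -/

namespace Vale.Agent.P223.H440

open Vale.Agent.P223.H566

theorem blk : H316.Blk where
  hI := specIntS
  hL := specLocal
  hDe := specDense
  hS := specSup
  hAlg := specAlg
  hDecA := specDecA
  hDec := specDec
  hPW := specPW

/-- BLOCK V -/
theorem specV : H316.SpecVx :=
  H316.specVx blk specEmb specOps (H691.specTrB specIntS) (H391.supP specLocal specDense) (specKerX specLocal specDense specSup)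

end Vale.Agent.P223.H440
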