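import Vale.Agent.P223.H440.NL6

/-! Stage 5: BLOCK V3a, the Gauss lemma. -/

namespace Vale.Agent.P223.H440.NL

open scoped ContDiff Topology Matrix ENNReal
open Vale.Agent.P223 Vale.Agent.P223.X Filter Set
open Vale.Agent.P223.H440.NC (fi pmet)
open Vale.Agent.P223.H566.NV (Exp nrm dst bal pul)

section gauss
variable {n : ℕ} {B : Set (J.E n)} {G : J.Mtx n}

theorem deriv_ray {f : J.E n → ℝ} {w : J.E n} {t : ℝ} (hf : DifferentiableAt ℝ f (t • w)) :
    HasDerivAt (fun s : ℝ => f (s • w)) (∑ a, pd a f (t • w) * w a) t := by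
  have h1 : HasDerivAt (fun s : ℝ => s • w) w t := by
    simpa using (hasDerivAt_id t).smul_const w
  refine (hf.hasFDerivAt.comp_hasDerivAt t h1).congr_deriv ?_
  have h2 : ∀ L : J.E n →L[ℝ] ℝ, L w = ∑ a, L (Pi.single a 1) * w a := by
    intro L
    conv_lhs => rw [pi_eq_sum_univ' w]
    rw [map_sum]
    refine Finset.sum_congr rfl fun a _ => ?_
    rw [map_smul, smul_eq_mul, mul_comm]
  exact h2 _

theorem const_of_deriv {f : ℝ → ℝ} (h : ∀ t ∈ Icc (0 : ℝ) 1, HasDerivAt f 0 t) : f 1 = f 0 :=
  constant_of_has_deriv_right_zero (fun t ht => (h t ht).continuousAt.continuousWithinAt)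
    (fun t ht => (h t ⟨ht.1, ht.2.le⟩).hasDerivWithinAt) 1 ⟨zero_le_one, le_rfl⟩

variable (hB : IsOpen B) (hM : IsMetricOn B G)
  (hst : ∀ w ∈ B, ∀ t ∈ Icc (0 : ℝ) 1, t • w ∈ B)
  (hge : ∀ (w : J.E n) (t : ℝ), t • w ∈ B → ∀ k,
    ∑ i, ∑ j, christoffel G (t • w) k i j * w i * w j = 0)

omit hB in
include hM hge in
theorem gauss1 {w : J.E n} {t : ℝ} (ht : t • w ∈ B) (l : Fin n) :
    ∑ i, ∑ j, pd l (fun y => G y i j) (t • w) * w i * w j =
      2 * ∑ i, ∑ j, pd j (fun y => G y i l) (t • w) * w i * w j := by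
  set S : Fin n → ℝ := fun d => ∑ i, ∑ j, (pd i (fun y => G y j d) (t • w) +
    pd j (fun y => G y i d) (t • w) - pd d (fun y => G y i j) (t • w)) * w i * w j with hS
  have h1 : (G (t • w))⁻¹ *ᵥ S = 0 := by
    funext k
    have h2 := hge w t ht k
    unfold christoffel at h2
    have h3 : ∑ i, ∑ j, (1 / 2 * ∑ d, (G (t • w))⁻¹ k d * (pd i (fun y => G y j d) (t • w) +
        pd j (fun y => G y i d) (t • w) - pd d (fun y => G y i j) (t • w))) * w i * w j =
        1 / 2 * ∑ d, (G (t • w))⁻¹ k d * S d := by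
      simp only [hS, Finset.mul_sum, Finset.sum_mul]
      conv_rhs => rw [Finset.sum_comm]
      refine Finset.sum_congr rfl fun i _ => ?_
      conv_rhs => rw [Finset.sum_comm]
      refine Finset.sum_congr rfl fun j _ => Finset.sum_congr rfl fun d _ => ?_
      ring
    rw [h3] at h2
    simp only [Matrix.mulVec, dotProduct, Pi.zero_apply]
    linarith
  have h2 : S = 0 := by
    have h3 : G (t • w) *ᵥ ((G (t • w))⁻¹ *ᵥ S) = S := by
      rw [Matrix.mulVec_mulVec, Matrix.mul_nonsing_inv _ (hM.posDef _ ht).det_pos.ne'.isUnit,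
        Matrix.one_mulVec]
    rw [← h3, h1, Matrix.mulVec_zero]
  have h3 := congrFun h2 l
  simp only [hS, Pi.zero_apply, sub_mul, add_mul, Finset.sum_sub_distrib,
    Finset.sum_add_distrib] at h3
  have h4 : ∑ i, ∑ j, pd i (fun y => G y j l) (t • w) * w i * w j =
      ∑ i, ∑ j, pd j (fun y => G y i l) (t • w) * w i * w j := by
    rw [Finset.sum_comm]
    refine Finset.sum_congr rfl fun i _ => Finset.sum_congr rfl fun j _ => ?_
    ring
  rw [h4] at h3
  linarith

include hB hM in
theorem diffG {x : J.E n} (hx : x ∈ B) (i j : Fin n) : DifferentiableAt ℝ (fun y => G y i j) x :=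
  (((hM.smooth i j).contDiffAt (hB.mem_nhds hx)).differentiableAt (by simp))

include hB hM hst hge in
theorem gauss2 {y : J.E n} (hy : y ∈ B) :
    ∑ i, ∑ j, G y i j * y i * y j = ∑ i, ∑ j, G 0 i j * y i * y j := by
  have h1 : ∀ t ∈ Icc (0 : ℝ) 1,
      HasDerivAt (fun s : ℝ => ∑ i, ∑ j, G (s • y) i j * y i * y j) 0 t := by
    intro t ht
    have hty := hst y hy t ht
    have h2 : HasDerivAt (fun s : ℝ => ∑ i, ∑ j, G (s • y) i j * y i * y j)
        (∑ i, ∑ j, (∑ a, pd a (fun z => G z i j) (t • y) * y a) * y i * y j) t := by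
      refine HasDerivAt.fun_sum fun i _ => HasDerivAt.fun_sum fun j _ => ?_
      exact ((deriv_ray (diffG hB hM hty i j)).mul_const _).mul_const _
    refine h2.congr_deriv ?_
    set F := ∑ i, ∑ j, (∑ a, pd a (fun z => G z i j) (t • y) * y a) * y i * y j with hF
    have h3 : F = ∑ a, y a * ∑ i, ∑ j, pd a (fun z => G z i j) (t • y) * y i * y j := by
      rw [hF]
      simp only [Finset.sum_mul, Finset.mul_sum]
      conv_rhs => rw [Finset.sum_comm]
      refine Finset.sum_congr rfl fun i _ => ?_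
      conv_rhs => rw [Finset.sum_comm]
      refine Finset.sum_congr rfl fun j _ => Finset.sum_congr rfl fun a _ => ?_
      ring
    have h4 : F = 2 * F := by
      conv_lhs => rw [h3]
      have h5 : ∀ a, ∑ i, ∑ j, pd a (fun z => G z i j) (t • y) * y i * y j =
          2 * ∑ i, ∑ j, pd j (fun z => G z i a) (t • y) * y i * y j := fun a =>
        gauss1 hM hge hty a
      simp only [h5]
      rw [hF]
      simp only [Finset.sum_mul, Finset.mul_sum]
      rw [Finset.sum_comm]
      refine Finset.sum_congr rfl fun i _ => Finset.sum_congr rfl fun j _ =>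
        Finset.sum_congr rfl fun a _ => ?_
      ring
    linarith
  have h2 := const_of_deriv h1
  simpa using h2

include hB hM hst hge in
/-- the Gauss lemma in `ℝ^n` -/
theorem gauss {w : J.E n} (hw : w ∈ B) (l : Fin n) :
    ∑ i, G w i l * w i = ∑ i, G 0 i l * w i := by
  have h0B : (0 : J.E n) ∈ B := by
    have := hst w hw 0 ⟨le_rfl, zero_le_one⟩
    rwa [zero_smul] at this
  -- differentiate `gauss2`
  have key : ∀ y ∈ B, (∑ i, ∑ j, pd l (fun z => G z i j) y * y i * y j) + 2 * ∑ i, G y i l * y i =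
      2 * ∑ i, G 0 i l * y i := by
    intro y hy
    set ε : J.E n := Pi.single l 1 with hε
    have hc : ∀ i, HasDerivAt (fun s : ℝ => (y + s • ε) i) (ε i) 0 := by
      intro i
      have := ((hasDerivAt_id (0 : ℝ)).mul_const (ε i)).const_add (y i)
      simpa using this
    have hG : ∀ i j, HasDerivAt (fun s : ℝ => G (y + s • ε) i j) (pd l (fun z => G z i j) y) 0 := by
      intro i j
      have h1 : HasDerivAt (fun s : ℝ => y + s • ε) ε 0 := by
        have := ((hasDerivAt_id (0 : ℝ)).smul_const ε).const_add y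
        simpa using this
      have h2 : HasFDerivAt (fun z => G z i j) (fderiv ℝ (fun z => G z i j) y)
          (y + (0 : ℝ) • ε) := by
        rw [zero_smul, add_zero]
        exact (diffG hB hM hy i j).hasFDerivAt
      exact h2.comp_hasDerivAt (0 : ℝ) h1
    have h1 : HasDerivAt (fun s : ℝ => ∑ i, ∑ j, G (y + s • ε) i j * (y + s • ε) i *
        (y + s • ε) j) (∑ i, ∑ j, ((pd l (fun z => G z i j) y * y i + G y i j * ε i) * y j +
          G y i j * y i * ε j)) 0 := by
      refine HasDerivAt.fun_sum fun i _ => HasDerivAt.fun_sum fun j _ => ?_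
      refine (((hG i j).fun_mul (hc i)).fun_mul (hc j)).congr_deriv ?_
      simp only [zero_smul, add_zero]
    have h2 : HasDerivAt (fun s : ℝ => ∑ i, ∑ j, G 0 i j * (y + s • ε) i *
        (y + s • ε) j) (∑ i, ∑ j, (G 0 i j * ε i * y j + G 0 i j * y i * ε j)) 0 := by
      refine HasDerivAt.fun_sum fun i _ => HasDerivAt.fun_sum fun j _ => ?_
      refine ((((hc i).const_mul (G 0 i j))).fun_mul (hc j)).congr_deriv ?_
      simp only [zero_smul, add_zero]
    have h3 : (fun s : ℝ => ∑ i, ∑ j, G (y + s • ε) i j * (y + s • ε) i *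
        (y + s • ε) j) =ᶠ[𝓝 0] fun s : ℝ => ∑ i, ∑ j, G 0 i j * (y + s • ε) i *
        (y + s • ε) j := by
      have h4 : Continuous fun s : ℝ => y + s • ε := by fun_prop
      have h5 : ∀ᶠ s in 𝓝 (0 : ℝ), y + s • ε ∈ B := by
        refine h4.continuousAt.eventually_mem ?_
        rw [zero_smul, add_zero]
        exact hB.mem_nhds hy
      filter_upwards [h5] with s hs
      exact gauss2 hB hM hst hge hs
    have h4 := (h2.congr_of_eventuallyEq h3).unique h1
    have hs : ∀ {x : J.E n}, x ∈ B → ∀ i j, G x i j = G x j i := fun hx i j => hM.symm hx i j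
    have e1 : ∀ {x : J.E n}, x ∈ B → ∑ i, ∑ j, G x i j * ε i * y j = ∑ i, G x i l * y i := by
      intro x hx
      rw [Finset.sum_comm]
      refine Finset.sum_congr rfl fun i _ => ?_
      rw [Finset.sum_eq_single l]
      · rw [hε, Pi.single_eq_same, hs hx i l]; ring
      · intro b _ hb
        rw [hε, Pi.single_eq_of_ne hb]; ring
      · simp
    have e2 : ∀ {x : J.E n}, ∑ i, ∑ j, G x i j * y i * ε j = ∑ i, G x i l * y i := by
      intro x
      refine Finset.sum_congr rfl fun i _ => ?_
      rw [Finset.sum_eq_single l]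
      · rw [hε, Pi.single_eq_same]; ring
      · intro b _ hb
        rw [hε, Pi.single_eq_of_ne hb]; ring
      · simp
    simp only [add_mul, Finset.sum_add_distrib] at h4
    rw [e1 h0B, e2, e1 hy, e2] at h4
    linarith
  set a : ℝ → ℝ := fun s => ∑ i, G (s • w) i l * w i with ha
  have h1 : ∀ t ∈ Icc (0 : ℝ) 1, HasDerivAt (fun s => s * (a s - a 0)) 0 t := by
    intro t ht
    have htw := hst w hw t ht
    have h2 : HasDerivAt a (∑ i, (∑ b, pd b (fun y => G y i l) (t • w) * w b) * w i) t := by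
      refine HasDerivAt.fun_sum fun i _ => ?_
      exact (deriv_ray (diffG hB hM htw i l)).mul_const _
    have h3 := (hasDerivAt_id t).mul (h2.sub_const (a 0))
    refine h3.congr_deriv ?_
    simp only [id, one_mul]
    rcases eq_or_ne t 0 with rfl | ht0
    · simp
    · have h4 := key _ htw
      have h5 := gauss1 hM hge htw l
      have h6 : ∑ i, ∑ j, pd l (fun z => G z i j) (t • w) * (t • w) i * (t • w) j =
          t ^ 2 * ∑ i, ∑ j, pd l (fun z => G z i j) (t • w) * w i * w j := by
        simp only [Finset.mul_sum, Pi.smul_apply, smul_eq_mul]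
        refine Finset.sum_congr rfl fun i _ => Finset.sum_congr rfl fun j _ => ?_
        ring
      have h7 : ∀ x : J.E n, ∑ i, G x i l * (t • w) i = t * ∑ i, G x i l * w i := by
        intro x
        simp only [Finset.mul_sum, Pi.smul_apply, smul_eq_mul]
        refine Finset.sum_congr rfl fun i _ => ?_
        ring
      have h8 : ∑ i, (∑ b, pd b (fun y => G y i l) (t • w) * w b) * w i =
          ∑ i, ∑ j, pd j (fun y => G y i l) (t • w) * w i * w j := by
        simp only [Finset.sum_mul]
        refine Finset.sum_congr rfl fun i _ => Finset.sum_congr rfl fun j _ => ?_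
        ring
      rw [h6, h5, h7, h7, ← h8] at h4
      have ha0 : a 0 = ∑ i, G 0 i l * w i := by simp only [ha, zero_smul]
      have hat : a t = ∑ i, G (t • w) i l * w i := rfl
      rw [← ha0, ← hat] at h4
      have h9 : 2 * t * ((a t - a 0) +
          t * ∑ i, (∑ b, pd b (fun y => G y i l) (t • w) * w b) * w i) = 0 := by
        linarith
      rcases mul_eq_zero.1 h9 with h10 | h10
      · exact absurd h10 (by positivity)
      · exact h10
  have h2 := const_of_deriv h1
  simp only [one_mul, zero_mul, sub_eq_zero] at h2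
  simp only [ha, one_smul, zero_smul] at h2
  exact h2

end gauss

variable {n : ℕ} {X : Type} [TopologicalSpace X] {c : X → J.Ch n X} {g : X → J.Mtx n}

theorem pul_zero {x : X} {R : ℝ} {e : J.E n → X} (he : Exp c g x R e) (v w : J.E n) :
    J.bil (pul c g e 0) v w = J.bil (g x (c x x)) v w := by
  rw [pul_bil, he.zero, he.fderiv_zero]
  rfl

/-- BLOCK V3a -/
theorem specGauss : H566.NV.SpecGauss := by
  intro n X _ _ c g x r e hn hc hg hr he w hw v
  set U : Set (J.E n) := {w | J.bil (g x (c x x)) w w < r ^ 2} with hU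
  have hLc : Lc c e U := lc_of_exp he
  have hpx : (g x (c x x)).PosDef := (hg x x (hc x).1).2.1
  have hst : ∀ w ∈ U, ∀ t ∈ Icc (0 : ℝ) 1, t • w ∈ U := by
    intro w hw t ht
    change J.bil _ (t • w) (t • w) < r ^ 2
    rw [bil_smul']
    have h1 : t ^ 2 ≤ 1 := by nlinarith [ht.1, ht.2]
    have h2 := bil_nonneg hpx w
    have h3 : J.bil (g x (c x x)) w w < r ^ 2 := hw
    nlinarith
  have hge : ∀ (w : J.E n) (t : ℝ), t • w ∈ U → ∀ k,
      ∑ i, ∑ j, christoffel (pmet c g e) (t • w) k i j * w i * w j = 0 := by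
    intro w t ht k
    have h2 := he.geo w t ht
    have h3 : ContinuousAt (fun s : ℝ => e (s • w)) t := by
      have h4 : ContinuousAt e (t • w) := hLc.contAt ht
      exact ContinuousAt.comp (g := e) (f := fun s : ℝ => s • w) h4
        (continuous_id.smul continuous_const).continuousAt
    have h5 := ge_of_geo hc hg hLc h3 ⟨_, ht, rfl⟩ h2.1 h2.2 k
    have h6 : ∀ᶠ s in 𝓝 t, iv e U (e (s • w)) = s • w := by
      have h7 : ∀ᶠ s in 𝓝 t, s • w ∈ U :=
        (continuous_id.smul continuous_const).continuousAt.eventually_mem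
          (hLc.isOpen.mem_nhds ht)
      filter_upwards [h7] with s hs
      exact hLc.iv_e hs
    have h7 : ∀ k, (fun s => iv e U (e (s • w)) k) =ᶠ[𝓝 t] fun s => s * w k := fun k => by
      filter_upwards [h6] with s hs
      rw [hs]; rfl
    have h8 : ∀ (k : Fin n) (s : ℝ), deriv (fun s : ℝ => s * w k) s = w k := fun k s => by
      have := (hasDerivAt_id s).mul_const (w k)
      simpa using this.deriv
    have h9 : ∀ k, deriv (fun s => iv e U (e (s • w)) k) t = w k := fun k => by
      rw [(h7 k).deriv_eq, h8]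
    have h10 : deriv (deriv fun s => iv e U (e (s • w)) k) t = 0 := by
      have h11 : deriv (fun s => iv e U (e (s • w)) k) =ᶠ[𝓝 t] fun _ => w k := by
        filter_upwards [(h7 k).eventuallyEq_nhds] with s hs
        rw [hs.deriv_eq, h8]
      rw [h11.deriv_eq]
      exact deriv_const _ _
    have h12 : iv e U (e (t • w)) = t • w := h6.self_of_nhds
    simp only [h9] at h5
    rw [h10, h12] at h5
    linarith
  have h1 := gauss hLc.isOpen (hLc.metOn hc hg) hst hge hw
  have h0U : (0 : J.E n) ∈ U := by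
    have := hst w hw 0 ⟨le_rfl, zero_le_one⟩
    rwa [zero_smul] at this
  rw [← pul_zero he, pul_eq hc hLc hw, pul_eq hc hLc h0U]
  unfold J.bil
  rw [Finset.sum_comm]
  conv_rhs => rw [Finset.sum_comm]
  refine Finset.sum_congr rfl fun l _ => ?_
  have h2 : ∀ A : Matrix (Fin n) (Fin n) ℝ, ∑ i, w i * v l * A i l = v l * ∑ i, A i l * w i := by
    intro A
    rw [Finset.mul_sum]
    refine Finset.sum_congr rfl fun i _ => ?_
    ring
  rw [h2, h2, h1 l]

end Vale.Agent.P223.H440.NL
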