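import Vale.Agent.P223.H440.GA1

/-! Stage 5: radial functions. -/

namespace Vale.Agent.P223.H440.NL

open scoped ContDiff Topology Matrix ENNReal
open Vale.Agent.P223 Vale.Agent.P223.X Filter Set
open Vale.Agent.P223.H440.NC (fi pmet)
open Vale.Agent.P223.H566.NV (Exp nrm dst bal pul grd)
open Vale.Agent.P223.H (gradSq)

section rn
variable {n : ℕ} {A : Matrix (Fin n) (Fin n) ℝ} {k : ℝ → ℝ} {a α : ℝ}

theorem sm_bil (A : Matrix (Fin n) (Fin n) ℝ) : ContDiff ℝ ∞ fun w : J.E n => J.bil A w w := by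
  unfold J.bil
  fun_prop

theorem rad_near (ha : 0 < a) (hka : ∀ s, s ≤ a → k s = α) :
    (fun w : J.E n => k (√(J.bil A w w))) =ᶠ[𝓝 0] fun _ => α := by
  have h1 : ContinuousAt (fun w : J.E n => √(J.bil A w w)) 0 :=
    ((continuous_bil A).sqrt).continuousAt
  have h2 : √(J.bil A (0 : J.E n) 0) < a := by
    have : J.bil A (0 : J.E n) 0 = 0 := by rw [bil_dot]; simp
    rw [this, Real.sqrt_zero]
    exact ha
  filter_upwards [h1.eventually_lt continuousAt_const h2] with w hw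
  exact hka _ hw.le

theorem sm_rad (hA : A.PosDef) (hk : ContDiff ℝ ∞ k) (ha : 0 < a) (hka : ∀ s, s ≤ a → k s = α) :
    ContDiff ℝ ∞ fun w : J.E n => k (√(J.bil A w w)) := by
  rw [contDiff_iff_contDiffAt]
  intro w
  rcases eq_or_ne w 0 with rfl | hw
  · exact contDiffAt_const.congr_of_eventuallyEq (rad_near ha hka)
  · exact hk.contDiffAt.comp w ((sm_bil A).contDiffAt.sqrt (bil_pos hA hw).ne')

theorem pd_rad (hA : A.PosDef) (hk : ContDiff ℝ ∞ k) (ha : 0 < a) (hka : ∀ s, s ≤ a → k s = α)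
    {w : J.E n} (hw : w ≠ 0) (i : Fin n) : J.pd i (fun w : J.E n => k (√(J.bil A w w))) w =
      deriv k (√(J.bil A w w)) / √(J.bil A w w) * (A *ᵥ w) i := by
  set ε : J.E n := Pi.single i 1 with hε
  have hb := bil_pos hA hw
  have hAs : ∀ p q, A p q = A q p := fun p q => by
    have := hA.isHermitian.apply p q
    simpa using this.symm
  have h1 : HasDerivAt (fun s : ℝ => w + s • ε) ε 0 := by
    have := ((hasDerivAt_id (0 : ℝ)).smul_const ε).const_add w
    simpa using this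
  obtain ⟨F, hF⟩ : ∃ F, F = fun w : J.E n => k (√(J.bil A w w)) := ⟨_, rfl⟩
  have h2 : HasFDerivAt F (fderiv ℝ F w) (w + (0 : ℝ) • ε) := by
    rw [zero_smul, add_zero, hF]
    exact (((sm_rad hA hk ha hka).differentiable (by simp)) w).hasFDerivAt
  have h3 : HasDerivAt (fun s : ℝ => k (√(J.bil A (w + s • ε) (w + s • ε))))
      (J.pd i (fun w : J.E n => k (√(J.bil A w w))) w) 0 := by
    have := h2.comp_hasDerivAt (0 : ℝ) h1
    rw [hF] at this
    exact this
  have hc : ∀ j, HasDerivAt (fun s : ℝ => (w + s • ε) j) (ε j) 0 := by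
    intro j
    have := ((hasDerivAt_id (0 : ℝ)).mul_const (ε j)).const_add (w j)
    simpa using this
  have h4 : HasDerivAt (fun s : ℝ => J.bil A (w + s • ε) (w + s • ε))
      (∑ p, ∑ q, (ε p * w q + w p * ε q) * A p q) 0 := by
    unfold J.bil
    refine HasDerivAt.fun_sum fun p _ => HasDerivAt.fun_sum fun q _ => ?_
    refine (((hc p).fun_mul (hc q)).mul_const (A p q)).congr_deriv ?_
    simp only [zero_smul, add_zero]
  have h5 : ∑ p, ∑ q, (ε p * w q + w p * ε q) * A p q = 2 * (A *ᵥ w) i := by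
    simp only [add_mul, Finset.sum_add_distrib]
    have e1 : ∑ p, ∑ q, ε p * w q * A p q = (A *ᵥ w) i := by
      rw [Finset.sum_eq_single i]
      · simp only [hε, Pi.single_eq_same, Matrix.mulVec, dotProduct]
        exact Finset.sum_congr rfl fun q _ => by ring
      · intro b _ hb
        simp [hε, Pi.single_eq_of_ne hb]
      · simp
    have e2 : ∑ p, ∑ q, w p * ε q * A p q = (A *ᵥ w) i := by
      rw [Finset.sum_comm, Finset.sum_eq_single i]
      · simp only [hε, Pi.single_eq_same, Matrix.mulVec, dotProduct]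
        exact Finset.sum_congr rfl fun q _ => by rw [hAs i q]; ring
      · intro b _ hb
        simp [hε, Pi.single_eq_of_ne hb]
      · simp
    rw [e1, e2]; ring
  have h0 : J.bil A (w + (0 : ℝ) • ε) (w + (0 : ℝ) • ε) = J.bil A w w := by
    rw [zero_smul, add_zero]
  have h6 : HasDerivAt (fun s : ℝ => √(J.bil A (w + s • ε) (w + s • ε)))
      ((2 * (A *ᵥ w) i) / (2 * √(J.bil A w w))) 0 := by
    rw [h5] at h4
    have := h4.sqrt (by rw [h0]; exact hb.ne')
    rw [h0] at this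
    exact this
  have h7 : HasDerivAt k (deriv k (√(J.bil A w w)))
      (√(J.bil A (w + (0 : ℝ) • ε) (w + (0 : ℝ) • ε))) := by
    rw [h0]
    exact ((hk.differentiable (by simp)) _).hasDerivAt
  have h8 := h7.comp (0 : ℝ) h6
  rw [h3.unique h8]
  have hs : √(J.bil A w w) ≠ 0 := (Real.sqrt_pos.2 hb).ne'
  field_simp

theorem gsq_rad (hA : A.PosDef) (hk : ContDiff ℝ ∞ k) (ha : 0 < a) (hka : ∀ s, s ≤ a → k s = α)
    {G : J.Mtx n} {w : J.E n} (hG : (G w).PosDef) (hw : w ≠ 0)
    (h : ∀ v, J.bil (G w) w v = J.bil A w v) :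
    J.gsq G (fun w : J.E n => k (√(J.bil A w w))) w = deriv k (√(J.bil A w w)) ^ 2 := by
  have hb := bil_pos hA hw
  have hGs : ∀ {B : Matrix (Fin n) (Fin n) ℝ}, B.PosDef → ∀ p q, B p q = B q p := fun hB p q => by
    have := hB.isHermitian.apply p q
    simpa using this.symm
  have h1 : A *ᵥ w = G w *ᵥ w := by
    funext i
    have h2 := h (Pi.single i 1)
    have h3 : ∀ {B : Matrix (Fin n) (Fin n) ℝ}, B.PosDef →
        J.bil B w (Pi.single i 1) = (B *ᵥ w) i := by
      intro B hB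
      unfold J.bil
      rw [Finset.sum_comm, Finset.sum_eq_single i]
      · simp only [Pi.single_eq_same, Matrix.mulVec, dotProduct]
        exact Finset.sum_congr rfl fun q _ => by rw [hGs hB i q]; ring
      · intro b _ hb
        simp [Pi.single_eq_of_ne hb]
      · simp
    rw [h3 hG, h3 hA] at h2
    exact h2.symm
  unfold J.gsq
  simp only [pd_rad hA hk ha hka hw]
  set ρ := √(J.bil A w w) with hρ
  set κ := deriv k ρ / ρ with hκ
  have hρ0 : 0 < ρ := Real.sqrt_pos.2 hb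
  have h2 : ∑ i, ∑ j, (G w)⁻¹ i j * (κ * (A *ᵥ w) i) * (κ * (A *ᵥ w) j) =
      κ ^ 2 * ((A *ᵥ w) ⬝ᵥ ((G w)⁻¹ *ᵥ (A *ᵥ w))) := by
    generalize A *ᵥ w = b
    simp only [dotProduct, Matrix.mulVec, Finset.mul_sum]
    refine Finset.sum_congr rfl fun i _ => Finset.sum_congr rfl fun j _ => ?_
    ring
  rw [h2]
  have h3 : (A *ᵥ w) ⬝ᵥ ((G w)⁻¹ *ᵥ (A *ᵥ w)) = ρ ^ 2 := by
    conv_lhs => rw [show (G w)⁻¹ *ᵥ (A *ᵥ w) = w by
      rw [h1, Matrix.mulVec_mulVec, Matrix.nonsing_inv_mul _ hG.det_pos.ne'.isUnit,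
        Matrix.one_mulVec]]
    rw [dotProduct_comm, ← bil_dot, hρ, Real.sq_sqrt hb.le]
  rw [h3, hκ]
  field_simp

end rn

variable {n : ℕ} {X : Type} [TopologicalSpace X] {c : X → J.Ch n X} {g : X → J.Mtx n}

theorem gsq_congr' {G : J.Mtx n} {f h : J.E n → ℝ} {x : J.E n} (e : f =ᶠ[𝓝 x] h) :
    J.gsq G f x = J.gsq G h x := by
  unfold J.gsq J.pd
  rw [e.fderiv_eq]

theorem gsq_const {G : J.Mtx n} {f : J.E n → ℝ} {x : J.E n} {β : ℝ} (e : f =ᶠ[𝓝 x] fun _ => β) :
    J.gsq G f x = 0 := by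
  rw [gsq_congr' e]
  unfold J.gsq J.pd
  simp

/-- `|du|²` in a local chart -/
theorem gsq_lc (hc : J.Atl c) (hg : J.Met c g) {e : J.E n → X} {U : Set (J.E n)} (he : Lc c e U)
    {u : X → ℝ} (hu : J.Sm c u) {v : J.E n} (hv : v ∈ U) :
    J.gsq (g (e v)) (fun x => u ((c (e v)).symm x)) (c (e v) (e v)) =
      J.gsq (pul c g e) (fun w => u (e w)) v := by
  have h1 : e v ∈ (c (e v)).source := (hc _).1
  have h2 : ContDiffAt ℝ ∞ (fun x => u ((c (e v)).symm x)) (fi c e (e v) v) :=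
    (hu (e v)).contDiffAt ((c (e v)).open_target.mem_nhds ((c (e v)).map_source h1))
  have h3 : (fun w => u (e w)) =ᶠ[𝓝 v]
      fun w => (fun x => u ((c (e v)).symm x)) (fi c e (e v) w) := by
    filter_upwards [he.near hv h1] with w hw
    unfold fi
    rw [(c (e v)).left_inv hw.2]
  have h5 : J.gsq (pul c g e) (fun v => u (e v)) v = gradSq (pul c g e) (fun v => u (e v)) v := rfl
  have h6 : J.gsq (g (e v)) (fun x => u ((c (e v)).symm x)) (c (e v) (e v)) =
    gradSq (g (e v)) (fun x => u ((c (e v)).symm x)) (c (e v) (e v)) := rfl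
  have h8 := Bas2.gradSq_comp (G := pul c g e) (G' := g (e v))
    (he.smA hc hv h1) (he.det_jac hc hv h1) (by
      rw [pul_eq hc he hv, he.pmet_eq hc hg hv h1]) (h2.differentiableAt (by simp))
  rw [h5, h6, Bas2.gradSq_congr h3, h8]
  rfl

/-- radial functions: `u = k (|e⁻¹|)` in the ball, `u = β` outside -/
theorem rad [T2Space X] (hn : 1 ≤ n) (hc : J.Atl c) (hg : J.Met c g) {x : X} {r : ℝ}
    {e : J.E n → X} (hr : 0 < r) (he : Exp c g x r e) {k : ℝ → ℝ} (hk : ContDiff ℝ ∞ k)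
    {a α r' β L : ℝ} (ha : 0 < a) (hka : ∀ s, s ≤ a → k s = α) (hr' : r' < r)
    (hkb : ∀ s, r' ≤ s → k s = β) (hL : ∀ s, |deriv k s| ≤ L) :
    ∃ u : X → ℝ, J.Sm c u ∧ (∀ w, nrm c g x w < r → u (e w) = k (nrm c g x w)) ∧
      (∀ z, z ∉ e '' {w | nrm c g x w ≤ r'} → u z = β) ∧
      (∀ z, J.gsq (g z) (fun y => u ((c z).symm y)) (c z z) ≤ L ^ 2) ∧ (∀ z, grd c g u z ≤ L) ∧
      IsClosed (e '' {w | nrm c g x w ≤ r'}) := by
  classical
  set U : Set (J.E n) := {w | J.bil (g x (c x x)) w w < r ^ 2} with hU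
  have hLc : Lc c e U := lc_of_exp he
  have hpx : (g x (c x x)).PosDef := (hg x x (hc x).1).2.1
  have hUr : ∀ w, w ∈ U ↔ nrm c g x w < r := fun w => (nrm_lt_iff hr).symm
  have hKU : {w : J.E n | nrm c g x w ≤ r'} ⊆ U := fun w hw =>
    (hUr w).2 (lt_of_le_of_lt hw hr')
  have hK : IsCompact {w : J.E n | nrm c g x w ≤ r'} :=
    Metric.isCompact_of_isClosed_isBounded (isClosed_le (continuous_nrm x) continuous_const)
      (bdd_ball hpx _)
  have hKX : IsClosed (e '' {w | nrm c g x w ≤ r'}) :=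
    (hK.image_of_continuousOn (hLc.cont.mono hKU)).isClosed
  have hL0 : 0 ≤ L := (abs_nonneg _).trans (hL 0)
  set F : J.E n → ℝ := fun w => k (√(J.bil (g x (c x x)) w w)) with hF
  have hFs : ContDiff ℝ ∞ F := sm_rad hpx hk ha hka
  let u : X → ℝ := fun z => if z ∈ e '' U then F (iv e U z) else β
  have hu1 : ∀ w ∈ U, u (e w) = F w := by
    intro w hw
    simp only [u]
    rw [if_pos ⟨w, hw, rfl⟩, hLc.iv_e hw]
  have hu2 : ∀ z, z ∉ e '' {w | nrm c g x w ≤ r'} → u z = β := by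
    intro z hz
    by_cases hzU : z ∈ e '' U
    · obtain ⟨w, hw, rfl⟩ := hzU
      rw [hu1 w hw]
      refine hkb _ (le_of_lt ?_)
      by_contra h
      exact hz ⟨w, not_lt.1 h, rfl⟩
    · simp only [u]
      rw [if_neg hzU]
  have hus : J.Sm c u := by
    intro p y hy
    refine ContDiffAt.contDiffWithinAt ?_
    set z := (c p).symm y with hz
    have hzs : z ∈ (c p).source := (c p).map_target hy
    have hyz : c p z = y := (c p).right_inv hy
    by_cases hzU : z ∈ e '' U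
    · have h1 := hLc.sm_iv hc hzU hzs
      rw [hyz] at h1
      have h2 : ContDiffAt ℝ ∞ (fun y => F (iv e U ((c p).symm y))) y := hFs.contDiffAt.comp y h1
      refine h2.congr_of_eventuallyEq ?_
      have h3 : ∀ᶠ y' in 𝓝 y, (c p).symm y' ∈ e '' U :=
        ((c p).continuousAt_symm hy).eventually_mem
          ((hLc.isOpen_image hc hLc.isOpen subset_rfl).mem_nhds hzU)
      filter_upwards [h3] with y' hy'
      simp only [u]
      rw [if_pos hy']
    · have hzK : z ∉ e '' {w | nrm c g x w ≤ r'} := fun h => hzU (Set.image_mono hKU h)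
      have h3 : ∀ᶠ y' in 𝓝 y, (c p).symm y' ∈ (e '' {w | nrm c g x w ≤ r'})ᶜ :=
        ((c p).continuousAt_symm hy).eventually_mem (hKX.isOpen_compl.mem_nhds hzK)
      refine (contDiffAt_const (c := β)).congr_of_eventuallyEq ?_
      filter_upwards [h3] with y' hy' using hu2 _ hy'
  have hgs : ∀ z, J.gsq (g z) (fun y => u ((c z).symm y)) (c z z) ≤ L ^ 2 := by
    intro z
    have hzs : z ∈ (c z).source := (hc z).1
    by_cases hzK : z ∈ e '' {w | nrm c g x w ≤ r'}
    · obtain ⟨w, hw, rfl⟩ := hzK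
      have hwU := hKU hw
      rw [gsq_lc hc hg hLc hus hwU]
      have h1 : (fun w => u (e w)) =ᶠ[𝓝 w] F := by
        filter_upwards [hLc.isOpen.mem_nhds hwU] with w' hw' using hu1 w' hw'
      rw [gsq_congr' h1]
      rcases eq_or_ne w 0 with rfl | hw0
      · rw [gsq_const (rad_near ha hka)]
        positivity
      · have hG : (pul c g e w).PosDef := by
          rw [pul_eq hc hLc hwU]
          exact hLc.pmet_pos hc hg hwU
        rw [gsq_rad hpx hk ha hka hG hw0
          (fun v => specGauss n X c g x r e hn hc hg hr he w hwU v)]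
        exact sq_le_sq' (by linarith [(abs_le.1 (hL (√(J.bil (g x (c x x)) w w)))).1])
          (abs_le.1 (hL (√(J.bil (g x (c x x)) w w)))).2
    · have h3 : (fun y => u ((c z).symm y)) =ᶠ[𝓝 (c z z)] fun _ => β := by
        have h4 : ∀ᶠ y' in 𝓝 (c z z), (c z).symm y' ∈ (e '' {w | nrm c g x w ≤ r'})ᶜ := by
          refine ((c z).continuousAt_symm ((c z).map_source hzs)).eventually_mem ?_
          rw [(c z).left_inv hzs]
          exact hKX.isOpen_compl.mem_nhds hzK
        filter_upwards [h4] with y' hy' using hu2 _ hy'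
      rw [gsq_const h3]
      positivity
  refine ⟨u, hus, fun w hw => hu1 w ((hUr w).2 hw), hu2, hgs, fun z => ?_, hKX⟩
  unfold grd
  exact Real.sqrt_le_iff.2 ⟨hL0, hgs z⟩

end Vale.Agent.P223.H440.NL
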