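import Vale.Agent.P223.H440.Nash

/-! The kernel bound for powers of the resolvent. -/

namespace Vale.Agent.P223.H440

open scoped ContDiff InnerProductSpace Topology
open MeasureTheory Vale.Agent.P223.H Vale.Agent.P223.X Vale.Agent.P223.H566
open Vale.Agent.P223.H66 (scX YamX ScGe Cc)

/-- BLOCK (E) : bound `L¹ → L^∞` for powers of the resolvent. -/
def SpecKer : Prop := ∀ n : ℕ, 3 ≤ n → ∃ K : ℝ, 0 < K ∧
  ∀ (M X Γ I V H : Type) [TopologicalSpace M] [TopologicalSpace X]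
  [Group Γ] [MulAction Γ X] [Fintype I] [T2Space X] [ConnectedSpace X] [T2Space M]
  [MeasurableSpace X] [BorelSpace X] [NormedAddCommGroup V] [InnerProductSpace ℂ V]
  [FiniteDimensional ℂ V] [NormedAddCommGroup H] [InnerProductSpace ℂ H] [CompleteSpace H]
  (c : Ctx n M X Γ I V H) (y κ m : ℝ) (g p : H →L[ℂ] H), 0 < y → 0 ≤ κ → 0 < m → κ / 4 < m ^ 2 →
  ScGe c.G κ → YamX c.C c.G c.μ y → Rsv c.E m g p →
  ∀ φ ψ : Core c.S, ‖⟪c.E.e φ, (g ^ (2 * n + 2)) (c.E.e ψ)⟫_ℂ‖ ≤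
    K * y ^ (-((n : ℝ) / 2)) * (m ^ 2 - κ / 4) ^ ((n : ℝ) / 2 - (2 * n + 2)) *
      (∫ x, nm c.C (φ : Raw Γ I n V) x ∂c.μ) * ∫ x, nm c.C (ψ : Raw Γ I n V) x ∂c.μ

/-- BLOCK (E) with the Sobolev inequality as hypothesis. -/
def SpecKerS : Prop := ∀ n : ℕ, 3 ≤ n → ∃ K : ℝ, 0 < K ∧
  ∀ (M X Γ I V H : Type) [TopologicalSpace M] [TopologicalSpace X]
  [Group Γ] [MulAction Γ X] [Fintype I] [T2Space X] [ConnectedSpace X] [T2Space M]
  [MeasurableSpace X] [BorelSpace X] [NormedAddCommGroup V] [InnerProductSpace ℂ V]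
  [FiniteDimensional ℂ V] [NormedAddCommGroup H] [InnerProductSpace ℂ H] [CompleteSpace H]
  (c : Ctx n M X Γ I V H) (y κ m : ℝ) (g p : H →L[ℂ] H), 0 < y → 0 ≤ κ → 0 < m → κ / 4 < m ^ 2 →
  ScGe c.G κ → Sob c.C c.G c.μ y (κ / 4) → Rsv c.E m g p →
  ∀ φ ψ : Core c.S, ‖⟪c.E.e φ, (g ^ (2 * n + 2)) (c.E.e ψ)⟫_ℂ‖ ≤
    K * y ^ (-((n : ℝ) / 2)) * (m ^ 2 - κ / 4) ^ ((n : ℝ) / 2 - (2 * n + 2)) *
      (∫ x, nm c.C (φ : Raw Γ I n V) x ∂c.μ) * ∫ x, nm c.C (ψ : Raw Γ I n V) x ∂c.μ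

section
variable {n : ℕ} {M X Γ I V H : Type} [TopologicalSpace M] [TopologicalSpace X]
  [Group Γ] [MulAction Γ X] [Fintype I] [T2Space X] [ConnectedSpace X] [T2Space M]
  [MeasurableSpace X] [BorelSpace X] [NormedAddCommGroup V] [InnerProductSpace ℂ V]
  [FiniteDimensional ℂ V] [NormedAddCommGroup H] [InnerProductSpace ℂ H] [CompleteSpace H]

omit [MeasurableSpace X] [BorelSpace X] [Fintype I] [ConnectedSpace X] [T2Space M] [T2Space X] in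
theorem scX_ge {C : Cov n M X Γ I} {G : I → E n → Matrix (Fin n) (Fin n) ℝ} {κ : ℝ}
    (h : ScGe G κ) (x : X) : -κ ≤ scX C G x := h _ _

theorem gsX_supp' {C : Cov n M X Γ I} {G : I → E n → Matrix (Fin n) (Fin n) ℝ} (hG : MetX C G)
    {u : X → ℝ} (hu : C.Ck ∞ u) (hs : HasCompactSupport u) :
    Continuous (gsX C G u) ∧ HasCompactSupport (gsX C G u) := by
  constructor
  · have := Ck_gsX hG (f := u) fun γ j => (hu γ j).of_le (WithTop.coe_le_coe.2 le_top)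
    exact Ck_continuous C fun γ j => (this γ j).of_le (by simp)
  · exact HasCompactSupport.intro hs fun x hx => NormX.gsX_supp hG hx

theorem scX_cont {C : Cov n M X Γ I} {G : I → E n → Matrix (Fin n) (Fin n) ℝ} (hG : MetX C G) :
    Continuous (scX C G) := by
  have h : scX C G = C.gl fun _ i y => Vale.Agent.P223.H.scal (G i) y := rfl
  refine (Ck_zero_iff C).1 fun γ i => ?_
  have e : C.rep (scX C G) γ i = fun y => Vale.Agent.P223.H.scal (G i) y := by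
    funext y
    rw [h]
    exact gl_eq C (a := fun _ i y => Vale.Agent.P223.H.scal (G i) y)
      (fun _ _ _ _ _ _ h => scal_chart hG h) γ i y
  rw [e]
  exact contDiff_zero.2 (Cor.continuous_scal (hG.smooth i) (hG.pos i))

/-- the Yamabe inequality implies the Sobolev inequality -/
theorem sob_of_yam (c : Ctx n M X Γ I V H) (hn : 3 ≤ n) {y κ : ℝ} (hκ : 0 ≤ κ)
    (hs : ScGe c.G κ) (hY : YamX c.C c.G c.μ y) : Sob c.C c.G c.μ y (κ / 4) := by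
  intro u hu hc
  refine (hY u ⟨hu, hc⟩).trans ?_
  have hn3 : (3 : ℝ) ≤ n := by exact_mod_cast hn
  have hfin := finComp c.S.met c.vol
  obtain ⟨g1, g2⟩ := gsX_supp' c.S.met hu hc
  have uc : Continuous u := Ck_continuous c.C fun γ j => (hu γ j).of_le (by simp)
  have sc := scX_cont c.S.met
  have i1 : Integrable (gsX c.C c.G u) c.μ := g1.integrable_of_hasCompactSupport g2
  have hu2 : HasCompactSupport (fun x => u x ^ 2) :=
    hc.comp_left (g := fun t : ℝ => t ^ 2) (by norm_num)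
  have i2 : ∀ f : X → ℝ, Continuous f → Integrable (fun x => f x * u x ^ 2) c.μ := fun f hf =>
    (hf.mul (uc.pow 2)).integrable_of_hasCompactSupport hu2.mul_left
  refine integral_mono ?_ ?_ fun x => ?_
  · exact i1.add (i2 (fun x => ((n : ℝ) - 2) / (4 * (n - 1)) * scX c.C c.G x)
      (continuous_const.mul sc))
  · exact i1.add (i2 (fun x => scX c.C c.G x / 4 + κ / 4) ((sc.div_const _).add continuous_const))
  · simp only
    refine add_le_add le_rfl (mul_le_mul_of_nonneg_right ?_ (sq_nonneg _))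
    have h1 := scX_ge (C := c.C) hs x
    have ha : ((n : ℝ) - 2) / (4 * (n - 1)) ≤ 1 / 4 := by
      rw [div_le_div_iff₀ (by linarith) (by norm_num)]; linarith
    have ha0 : 0 ≤ ((n : ℝ) - 2) / (4 * (n - 1)) := div_nonneg (by linarith) (by linarith)
    nlinarith [mul_nonneg (sub_nonneg.2 ha) (by linarith : 0 ≤ scX c.C c.G x + κ),
      mul_nonneg ha0 hκ]

omit [MeasurableSpace X] [BorelSpace X] [Fintype I] [ConnectedSpace X] [T2Space M] [T2Space X] in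
theorem gst_one (C : Cov n M X Γ I) {G : I → E n → Matrix (Fin n) (Fin n) ℝ} {κ : ℝ}
    (h : ScGe G κ) : Gst C G (-(κ / 4)) (fun _ => 1) where
  smooth γ i := contDiff_const
  pos x := one_pos
  grad := by
    refine ⟨0, fun x => ?_⟩
    have e : gsX C G (fun _ => (1 : ℝ)) x = 0 := by
      unfold gsX Cov.gl gradSq gradIp
      have : ∀ γ i, C.rep (fun _ : X => (1 : ℝ)) γ i = fun _ => 1 := fun γ i => rfl
      simp [this, Vale.Agent.P223.H.pd]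
    rw [e]; norm_num
  ineq γ i y := by
    have e : lap (G i) (C.rep (fun _ : X => (1 : ℝ)) γ i) y = 0 := by
      unfold lap
      have : ∀ γ i, C.rep (fun _ : X => (1 : ℝ)) γ i = fun _ => 1 := fun γ i => rfl
      simp [this, Vale.Agent.P223.H.pd]
    rw [e]
    have := h i y
    simp only [mul_one, neg_zero, zero_add]
    linarith

theorem op_smul {S : H391.Sup H} {T : H →L[ℂ] H} {q r : ℝ} (hr : 0 < r)
    (hS : ∀ c u (z : ℂ), 0 ≤ c → S.SB c u → S.SB (‖z‖ * c) (z • u)) (h : S.Op T q) (hq : 0 ≤ q) :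
    S.Op ((r : ℂ) • T) (r * q) := by
  intro c u hc hu
  have h1 := hS (q * c) (T u) (r : ℂ) (mul_nonneg hq hc) (h c u hc hu)
  rw [Complex.norm_real, Real.norm_of_nonneg hr.le] at h1
  rw [mul_assoc]
  exact h1

omit [Fintype I] [T2Space X] [ConnectedSpace X] [T2Space M] [BorelSpace X]
  [FiniteDimensional ℂ V] [CompleteSpace H] in
theorem wb_smul (c : Ctx n M X Γ I V H) (w : X → ℝ) (hw : ∀ x, 0 < w x) :
    ∀ b u (z : ℂ), 0 ≤ b → (H391.supW c.E w hw).SB b u →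
      (H391.supW c.E w hw).SB (‖z‖ * b) (z • u) := by
  intro b u z _ hu φ
  rw [inner_smul_left, norm_mul, RCLike.norm_conj, mul_assoc]
  exact mul_le_mul_of_nonneg_left (hu φ) (norm_nonneg z)

/-- elements of `Core` with a sup bound -/
theorem wb_core (c : Ctx n M X Γ I V H) (ψ : Core c.S) {t : ℝ} (ht : 0 ≤ t)
    (h : ∀ x, nm c.C (ψ : Raw Γ I n V) x ≤ t) : WB c.E (fun _ => 1) t (c.E.e ψ) := by
  intro φ
  have hfin := finComp c.S.met c.vol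
  rw [c.E.ip]
  unfold ipr
  have i1 : Integrable (nm c.C (φ : Raw Γ I n V)) c.μ :=
    φ.2.continuous_nm.integrable_of_hasCompactSupport φ.2.nm_supp
  refine (norm_integral_le_integral_norm _).trans ?_
  rw [← integral_const_mul]
  refine integral_mono (IsCore.integrable_hp ψ.2 φ.2 c.vol).norm ?_ fun x => ?_
  · simp only [one_mul]
    exact i1.const_mul t
  · simp only [one_mul]
    refine (norm_inner_le_norm _ _).trans ?_
    exact mul_le_mul_of_nonneg_right (h x) (norm_nonneg _)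

end

/-- (E) -/
theorem specKerS (hL : SpecLocal) (hD : SpecDense) (hSup : SpecSup) : SpecKerS := by
  intro n hn
  have hn3 : (3 : ℝ) ≤ n := by exact_mod_cast hn
  refine ⟨36 * (2 : ℝ) ^ (n : ℝ) * (3 : ℝ) ^ ((n : ℝ) / 2), by positivity, ?_⟩
  intro M X Γ I V H _ _ _ _ _ _ _ _ _ _ _ _ _ _ _ _ c y κ m g p hy hκ hm hmκ hSc hsob hR φ ψ
  set s₀ : ℝ := κ / 4 with hs₀
  have hs₀0 : 0 ≤ s₀ := by positivity
  have hn1 : 1 ≤ n := by omega
  have hpos : ∀ x, 0 ≤ scX c.C c.G x / 4 + s₀ := fun x => by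
    have := scX_ge (C := c.C) hSc x
    rw [hs₀]; linarith
  have hS := sob_core hL c hn hsob hpos
  -- the resolvents
  have hex : ∀ μ : ℝ, 0 < μ → ∃ gp : (H →L[ℂ] H) × (H →L[ℂ] H),
      Rsv c.E (√(μ ^ 2 + s₀)) gp.1 gp.2 := fun μ hμ => by
    obtain ⟨g', p', h'⟩ := exists_Rsv hL hD c (m := √(μ ^ 2 + s₀)) (Real.sqrt_pos.2 (by positivity))
    exact ⟨(g', p'), h'⟩
  choose! gp hgp using hex
  set A : ℝ → H →L[ℂ] H := fun μ => ((μ ^ 2 : ℝ) : ℂ) • (gp μ).1 with hA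
  have hmm : ∀ μ : ℝ, 0 < μ → 0 < √(μ ^ 2 + s₀) := fun μ hμ => Real.sqrt_pos.2 (by positivity)
  have hsq : ∀ μ : ℝ, √(μ ^ 2 + s₀) ^ 2 = μ ^ 2 + s₀ := fun μ => Real.sq_sqrt (by positivity)
  have hsqC : ∀ μ : ℝ, ((√(μ ^ 2 + s₀) : ℝ) : ℂ) ^ 2 = ((μ ^ 2 + s₀ : ℝ) : ℂ) := fun μ => by
    rw [← Complex.ofReal_pow, hsq μ]
  have hAs : ∀ μ : ℝ, 0 < μ → ∀ x z, ⟪A μ x, z⟫_ℂ = ⟪x, A μ z⟫_ℂ := by
    intro μ hμ x z
    rw [hA]
    simp only [smul_apply, inner_smul_left, inner_smul_right, Complex.conj_ofReal]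
    rw [g_symm hL hD (hmm μ hμ).ne' (hgp μ hμ)]
  have hAn : ∀ μ : ℝ, 0 < μ → ∀ x, ‖A μ x‖ ≤ ‖x‖ := by
    intro μ hμ x
    have h1 := g_norm (hgp μ hμ) (hmm μ hμ) hD x
    rw [hsq] at h1
    rw [hA]
    simp only [smul_apply]
    rw [norm_smul, Complex.norm_real, Real.norm_of_nonneg (sq_nonneg μ)]
    refine le_trans (mul_le_mul_of_nonneg_right ?_ (norm_nonneg _)) h1
    linarith
  have hAN : ∀ μ : ℝ, 0 < μ → ∀ (k : ℕ) x, ‖(A μ ^ k) x‖ ≤ ‖x‖ := by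
    intro μ hμ k
    induction k with
    | zero => intro x; simp
    | succ k ih =>
      intro x
      have e : (A μ ^ (k + 1)) x = A μ ((A μ ^ k) x) := by rw [pow_succ']; rfl
      rw [e]
      exact (hAn μ hμ _).trans (ih x)
  -- sup bounds
  have hw1 : ∀ x : X, (0 : ℝ) < (fun _ : X => (1 : ℝ)) x := fun _ => one_pos
  have hG1 := gst_one c.C (G := c.G) hSc
  have hAop : ∀ μ : ℝ, 0 < μ → (H391.supW c.E (fun _ => 1) hG1.pos).Op (A μ) 1 := by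
    intro μ hμ
    have h0 : 0 < √(μ ^ 2 + s₀) ^ 2 + -(κ / 4) := by
      rw [hsq, ← hs₀]
      have : 0 < μ ^ 2 := by positivity
      linarith
    have h1 := H391.op_g hSup c hn1 hG1 (hmm μ hμ) h0 (hgp μ hμ)
    have h2 := op_smul (r := μ ^ 2) (by positivity) (wb_smul c _ _) h1 (inv_nonneg.2 h0.le)
    have e : μ ^ 2 * (√(μ ^ 2 + s₀) ^ 2 + -(κ / 4))⁻¹ = 1 := by
      rw [hsq, ← hs₀, add_neg_cancel_right, mul_inv_cancel₀ (by positivity)]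
    rw [e] at h2
    exact h2
  -- the parameters
  set μ₀ : ℝ := √(m ^ 2 - s₀) with hμ₀
  have hd0 : 0 < m ^ 2 - s₀ := by linarith
  have hμ₀0 : 0 < μ₀ := Real.sqrt_pos.2 hd0
  have hμ₀2 : μ₀ ^ 2 = m ^ 2 - s₀ := Real.sq_sqrt hd0.le
  have hm0 : √(μ₀ ^ 2 + s₀) = m := by
    rw [hμ₀2, sub_add_cancel, Real.sqrt_sq hm.le]
  have hg0 : (gp μ₀).1 = g := by
    have h1 := hgp μ₀ hμ₀0
    rw [hm0] at h1
    exact g_eq hD hm.ne' hR h1
  -- the bound `L¹ → L²`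
  have key : ∀ φ : Core c.S, ‖(A μ₀ ^ (n + 1)) (c.E.e φ)‖ ≤
      6 * ((2 : ℝ) ^ ((n : ℝ) / 2) * (3 / y) ^ ((n : ℝ) / 4) *
        ∫ x, nm c.C (φ : Raw Γ I n V) x ∂c.μ) * μ₀ ^ ((n : ℝ) / 2) := by
    intro φ
    have hφ0 : 0 ≤ ∫ x, nm c.C (φ : Raw Γ I n V) x ∂c.μ := integral_nonneg fun x => norm_nonneg _
    refine abs_key (A := A) (φ := c.E.e φ) (R := ‖c.E.e φ‖) hμ₀0 (by omega) ?_ (by positivity)
      (fun μ hμ => hAs μ (hμ₀0.trans_le hμ)) (fun μ hμ => hAN μ (hμ₀0.trans_le hμ) _ _)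
      (fun μ hμ => ?_) (fun μ hμ => ?_) (by positivity) (fun μ hμ h3 => ?_)
    · have h1 : (2 : ℝ) ^ ((n : ℝ) / 2) * 2 = (2 : ℝ) ^ ((n : ℝ) / 2 + 1) := by
        rw [Real.rpow_add two_pos, Real.rpow_one]
      rw [h1, ← Real.rpow_natCast]
      refine Real.rpow_le_rpow_of_exponent_le one_le_two ?_
      push_cast
      linarith
    · -- `A μ = T A (2 μ)`
      have hμ0 := hμ₀0.trans_le hμ
      have h2μ : 0 < 2 * μ := by linarith
      have h1 := res_id hD (hmm _ h2μ).ne' (hmm μ hμ0).ne' (hgp _ h2μ) (hgp μ hμ0)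
      have h2 := g_comm hD (hmm _ h2μ).ne' (hmm μ hμ0).ne' (hgp _ h2μ) (hgp μ hμ0)
      rw [hsqC, hsqC] at h1
      rw [hA]
      simp only
      rw [smul_mul_assoc, mul_smul_comm, add_mul, one_mul, smul_mul_assoc, smul_mul_assoc, ← h2,
        smul_smul]
      conv_lhs => rw [h1]
      push_cast
      module
    · have hμ0 := hμ₀0.trans_le hμ
      have h2μ : 0 < 2 * μ := by linarith
      have h2 := g_comm hD (hmm _ h2μ).ne' (hmm μ hμ0).ne' (hgp _ h2μ) (hgp μ hμ0)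
      rw [hA]
      simp only
      rw [smul_mul_smul_comm, smul_mul_smul_comm, h2, mul_comm]
    · have hμ0 := hμ₀0.trans_le hμ
      set v := (A μ ^ (n + 1)) (c.E.e φ) with hv
      have eu : (A μ ^ (n + 1 + 1)) (c.E.e φ) = ((μ ^ 2 : ℝ) : ℂ) • (gp μ).1 v := by
        rw [pow_succ', mul_apply_eq_comp]; rfl
      set u := (A μ ^ (n + 1 + 1)) (c.E.e φ) with hu
      have hGr : Gr c.E u (((μ ^ 2 : ℝ) : ℂ) • (gp μ).2 v) := by
        rw [eu]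
        exact gr_smul (gr_g hD (hmm μ hμ0).ne' (hgp μ hμ0) v).1 _
      have hen := g_energy hL hD (hmm μ hμ0).ne' (hgp μ hμ0) v
      rw [hsq] at hen
      have hn1' : ‖u‖ = μ ^ 2 * ‖(gp μ).1 v‖ := by
        rw [eu, norm_smul, Complex.norm_real, Real.norm_of_nonneg (sq_nonneg μ)]
      have hn2' : ‖((μ ^ 2 : ℝ) : ℂ) • (gp μ).2 v‖ = μ ^ 2 * ‖(gp μ).2 v‖ := by
        rw [norm_smul, Complex.norm_real, Real.norm_of_nonneg (sq_nonneg μ)]
      have hE : ‖((μ ^ 2 : ℝ) : ℂ) • (gp μ).2 v‖ ^ 2 + s₀ * ‖u‖ ^ 2 ≤ 3 * μ ^ 2 * ‖u‖ ^ 2 := by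
        have h5 : (⟪(gp μ).1 v, v⟫_ℂ).re ≤ ‖(gp μ).1 v‖ * ‖v‖ :=
          (Complex.re_le_norm _).trans (norm_inner_le_norm _ _)
        have h6 : ‖(gp μ).1 v‖ * ‖v‖ ≤ ‖(gp μ).1 v‖ * (3 * ‖u‖) :=
          mul_le_mul_of_nonneg_left h3 (norm_nonneg _)
        have h7 : μ ^ 4 * (‖(gp μ).2 v‖ ^ 2 + (μ ^ 2 + s₀) * ‖(gp μ).1 v‖ ^ 2) ≤
            μ ^ 4 * (‖(gp μ).1 v‖ * (3 * ‖u‖)) :=
          mul_le_mul_of_nonneg_left (hen.le.trans (h5.trans h6)) (by positivity)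
        have h8 : μ ^ 4 * (‖(gp μ).1 v‖ * (3 * ‖u‖)) = 3 * μ ^ 2 * ‖u‖ ^ 2 := by
          rw [pow_two ‖u‖]
          nth_rewrite 2 [hn1']
          ring
        have h9 : 0 ≤ μ ^ 6 * ‖(gp μ).1 v‖ ^ 2 := by positivity
        rw [h8] at h7
        rw [hn2', hn1']
        rw [hn1'] at h7
        nlinarith
      have hb : ∀ (ψ : Core c.S) (t : ℝ), 0 < t → (∀ x, nm c.C (ψ : Raw Γ I n V) x ≤ t) →
          ‖⟪u, c.E.e ψ⟫_ℂ‖ ≤ (∫ x, nm c.C (φ : Raw Γ I n V) x ∂c.μ) * t := by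
        intro ψ t ht hψ
        rw [hu, pow_symm (hAs μ hμ0)]
        have h4 := ((hAop μ hμ0).pow zero_le_one (n + 1 + 1)) t (c.E.e ψ) ht.le
          (wb_core c ψ ht.le hψ)
        rw [one_pow, one_mul] at h4
        have h5 := H391.pb_core c.E (fun _ => 1) hG1.pos φ t _ ht.le h4
        simp only [one_mul] at h5
        rw [mul_comm]
        exact h5
      have h10 := nash c hn hy hS hs₀0 hGr hφ0 (Q := 3 * μ ^ 2) (by positivity) hb hE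
      refine h10.trans (le_of_eq ?_)
      have hn2 : 0 < (n : ℝ) - 2 := by linarith
      have hmu : 0 ≤ μ := hμ0.le
      rw [Real.mul_rpow two_pos.le (by positivity), ← Real.rpow_mul (by positivity)]
      have e1 : (n : ℝ) / ((n : ℝ) - 2) / 2 * (((n : ℝ) - 2) / 2) = (n : ℝ) / 4 := by
        field_simp
        ring
      rw [e1]
      have e2 : 3 * μ ^ 2 / y = (3 / y) * μ ^ 2 := by ring
      rw [e2, Real.mul_rpow (by positivity) (by positivity)]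
      have e3 : (μ ^ 2) ^ ((n : ℝ) / 4) = μ ^ ((n : ℝ) / 2) := by
        rw [← Real.rpow_natCast μ 2, ← Real.rpow_mul hmu]
        congr 1
        push_cast; ring
      have e4 : (2 : ℝ) ^ ((n : ℝ) / 2) = 2 * (2 : ℝ) ^ (((n : ℝ) - 2) / 2) := by
        have : (n : ℝ) / 2 = 1 + ((n : ℝ) - 2) / 2 := by ring
        rw [this, Real.rpow_add two_pos, Real.rpow_one]
      rw [e3, e4]
      ring
  -- conclusion
  have hgA : ∀ x : H, (g ^ (n + 1)) x = (((μ₀ ^ 2) ^ (n + 1) : ℝ) : ℂ)⁻¹ • (A μ₀ ^ (n + 1)) x := by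
    intro x
    have e : A μ₀ ^ (n + 1) = (((μ₀ ^ 2) ^ (n + 1) : ℝ) : ℂ) • g ^ (n + 1) := by
      rw [hA]
      simp only
      rw [smul_pow, hg0]
      push_cast
      rfl
    rw [e, smul_apply, smul_smul, inv_mul_cancel₀, one_smul]
    have : (μ₀ ^ 2) ^ (n + 1) ≠ 0 := by positivity
    exact_mod_cast this
  have hgs : ∀ x z, ⟪g x, z⟫_ℂ = ⟪x, g z⟫_ℂ := g_symm hL hD hm.ne' hR
  have e1 : (g ^ (2 * n + 2)) (c.E.e ψ) = (g ^ (n + 1)) ((g ^ (n + 1)) (c.E.e ψ)) := by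
    rw [← mul_apply_eq_comp, ← pow_add]
    congr 2
    ring
  have hng : ∀ φ : Core c.S, ‖(g ^ (n + 1)) (c.E.e φ)‖ ≤ ((μ₀ ^ 2) ^ (n + 1))⁻¹ *
      (6 * ((2 : ℝ) ^ ((n : ℝ) / 2) * (3 / y) ^ ((n : ℝ) / 4) *
        ∫ x, nm c.C (φ : Raw Γ I n V) x ∂c.μ) * μ₀ ^ ((n : ℝ) / 2)) := by
    intro φ
    rw [hgA, norm_smul, norm_inv, Complex.norm_real, Real.norm_of_nonneg (by positivity)]
    exact mul_le_mul_of_nonneg_left (key φ) (by positivity)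
  have hφ0 : 0 ≤ ∫ x, nm c.C (φ : Raw Γ I n V) x ∂c.μ := integral_nonneg fun x => norm_nonneg _
  have hψ0 : 0 ≤ ∫ x, nm c.C (ψ : Raw Γ I n V) x ∂c.μ := integral_nonneg fun x => norm_nonneg _
  rw [e1, ← pow_symm hgs]
  refine (norm_inner_le_norm _ _).trans ((mul_le_mul (hng φ) (hng ψ) (norm_nonneg _)
    (by positivity)).trans (le_of_eq ?_))
  -- algebra of constants
  have f1 : (2 : ℝ) ^ ((n : ℝ) / 2) * (2 : ℝ) ^ ((n : ℝ) / 2) = (2 : ℝ) ^ (n : ℝ) := by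
    rw [← Real.rpow_add two_pos]; congr 1; ring
  have f2 : (3 / y) ^ ((n : ℝ) / 4) * (3 / y) ^ ((n : ℝ) / 4) =
      (3 : ℝ) ^ ((n : ℝ) / 2) * y ^ (-((n : ℝ) / 2)) := by
    rw [← Real.rpow_add (by positivity), Real.div_rpow (by norm_num) hy.le, Real.rpow_neg hy.le]
    have : (n : ℝ) / 4 + (n : ℝ) / 4 = (n : ℝ) / 2 := by ring
    rw [this]
    rfl
  have f3 : ((μ₀ ^ 2) ^ (n + 1))⁻¹ * ((μ₀ ^ 2) ^ (n + 1))⁻¹ *
      (μ₀ ^ ((n : ℝ) / 2) * μ₀ ^ ((n : ℝ) / 2)) = (m ^ 2 - s₀) ^ ((n : ℝ) / 2 - (2 * n + 2)) := by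
    have h1 : μ₀ ^ ((n : ℝ) / 2) * μ₀ ^ ((n : ℝ) / 2) = (m ^ 2 - s₀) ^ ((n : ℝ) / 2) := by
      rw [← Real.rpow_add hμ₀0, ← hμ₀2, ← Real.rpow_natCast μ₀ 2, ← Real.rpow_mul hμ₀0.le]
      congr 1
      push_cast; ring
    rw [h1, hμ₀2, Real.rpow_sub hd0, ← mul_inv, ← pow_add]
    have h2 : (m ^ 2 - s₀) ^ (n + 1 + (n + 1)) = (m ^ 2 - s₀) ^ (2 * (n : ℝ) + 2) := by
      rw [← Real.rpow_natCast]
      congr 1
      push_cast; ring
    rw [h2]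
    field_simp
  calc _ = 36 * ((2 : ℝ) ^ ((n : ℝ) / 2) * (2 : ℝ) ^ ((n : ℝ) / 2)) *
        ((3 / y) ^ ((n : ℝ) / 4) * (3 / y) ^ ((n : ℝ) / 4)) *
        (((μ₀ ^ 2) ^ (n + 1))⁻¹ * ((μ₀ ^ 2) ^ (n + 1))⁻¹ *
          (μ₀ ^ ((n : ℝ) / 2) * μ₀ ^ ((n : ℝ) / 2))) *
        (∫ x, nm c.C (φ : Raw Γ I n V) x ∂c.μ) * ∫ x, nm c.C (ψ : Raw Γ I n V) x ∂c.μ := by ring
    _ = _ := by rw [f1, f2, f3]; ring

theorem specKer (hL : SpecLocal) (hD : SpecDense) (hSup : SpecSup) : SpecKer := by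
  intro n hn
  obtain ⟨K, hK, h⟩ := specKerS hL hD hSup n hn
  refine ⟨K, hK, ?_⟩
  intro M X Γ I V H _ _ _ _ _ _ _ _ _ _ _ _ _ _ _ _ c y κ m g p hy hκ hm hmκ hSc hYam hR φ ψ
  exact h M X Γ I V H c y κ m g p hy hκ hm hmκ hSc (sob_of_yam c hn hκ hSc hYam) hR φ ψ

end Vale.Agent.P223.H440
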