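import Vale.Agent.P223.H765.NC
import Vale.Agent.P223.X.Basic2
import Vale.Agent.P223.X.RicU
import Vale.Agent.P223.X.BoxB
import Mathlib.Analysis.Calculus.InverseFunctionTheorem.ContDiff

/-! Stage 4: global charts `e : ℝ^n → X`. -/

namespace Vale.Agent.P223.H440.NC

open scoped ContDiff Topology Matrix
open Vale.Agent.P223 Vale.Agent.P223.X Filter

section local_inv
variable {n : ℕ} {F : J.E n → J.E n} {v : J.E n}

/-- a continuous linear map with nonzero determinant is an equivalence -/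
theorem exists_equiv {A : J.E n →L[ℝ] J.E n} (h : A.det ≠ 0) :
    ∃ L : J.E n ≃L[ℝ] J.E n, (L : J.E n →L[ℝ] J.E n) = A :=
  ⟨A.toContinuousLinearEquivOfDetNeZero h, A.coe_toContinuousLinearEquivOfDetNeZero h⟩

/-- inverse function theorem -/
theorem exists_local_inv (h1 : ContDiffAt ℝ ∞ F v) (h2 : (fderiv ℝ F v).det ≠ 0) :
    ∃ K : J.E n → J.E n, ContDiffAt ℝ ∞ K (F v) ∧ K (F v) = v ∧ (∀ᶠ w in 𝓝 v, K (F w) = w) ∧
      (∀ᶠ y in 𝓝 (F v), F (K y) = y) ∧ map F (𝓝 v) = 𝓝 (F v) := by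
  obtain ⟨L, hL⟩ := exists_equiv h2
  have h3 : HasFDerivAt F (L : J.E n →L[ℝ] J.E n) v := by
    rw [hL]; exact (h1.differentiableAt (by simp)).hasFDerivAt
  have h4 : HasStrictFDerivAt F (L : J.E n →L[ℝ] J.E n) v :=
    h1.hasStrictFDerivAt' h3 (by simp)
  refine ⟨h1.localInverse h3 (by simp), h1.to_localInverse h3 (by simp), ?_, ?_, ?_, ?_⟩
  · exact h1.localInverse_apply_image h3 (by simp)
  · exact h4.eventually_left_inverse
  · exact h4.eventually_right_inverse
  · exact h4.map_nhds_eq_of_equiv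

end local_inv

variable {n : ℕ} {X : Type} [TopologicalSpace X] {c : X → J.Ch n X} {g : X → J.Mtx n}
  {e : J.E n → X} {a b : X} {v : J.E n}

/-- `e` is a diffeomorphism. -/
structure Gl (c : X → J.Ch n X) (e : J.E n → X) : Prop where
  bij : Function.Bijective e
  cont : Continuous e
  sm : ∀ v, ContDiffAt ℝ ∞ (fun w => c (e v) (e w)) v
  det : ∀ v, (fderiv ℝ (fun w => c (e v) (e w)) v).det ≠ 0

/-- `e` in the chart at `a` -/
def fi (c : X → J.Ch n X) (e : J.E n → X) (a : X) (w : J.E n) : J.E n := c a (e w)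

namespace Gl

theorem near (he : Gl c e) (hb : e v ∈ (c b).source) : ∀ᶠ w in 𝓝 v, e w ∈ (c b).source :=
  he.cont.continuousAt.eventually_mem ((c b).open_source.mem_nhds hb)

theorem ev (he : Gl c e) (a : X) (hb : e v ∈ (c b).source) :
    fi c e a =ᶠ[𝓝 v] fun w => J.cm (c b) (c a) (fi c e b w) := by
  filter_upwards [he.near hb] with w hw
  unfold fi J.cm
  rw [(c b).left_inv hw]

theorem smA (hc : J.Atl c) (he : Gl c e) (ha : e v ∈ (c a).source) :
    ContDiffAt ℝ ∞ (fi c e a) v := by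
  have h1 : e v ∈ (c (e v)).source := (hc _).1
  refine ContDiffAt.congr_of_eventuallyEq ?_ (he.ev a h1)
  exact ContDiffAt.comp (g := J.cm (c (e v)) (c a)) (f := fi c e (e v)) v
    ((((hc (e v)).2 a) _ h1 ha).1) (he.sm v)

theorem fd (hc : J.Atl c) (he : Gl c e) (ha : e v ∈ (c a).source) (hb : e v ∈ (c b).source) :
    fderiv ℝ (fi c e a) v = (fderiv ℝ (J.cm (c b) (c a)) (c b (e v))).comp
      (fderiv ℝ (fi c e b) v) := by
  rw [(he.ev a hb).fderiv_eq]
  exact fderiv_comp v ((((hc b).2 a) _ hb ha).1.differentiableAt (by simp))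
    ((he.smA hc hb).differentiableAt (by simp))

theorem detA (hc : J.Atl c) (he : Gl c e) (ha : e v ∈ (c a).source) :
    (fderiv ℝ (fi c e a) v).det ≠ 0 := by
  have h1 : e v ∈ (c (e v)).source := (hc _).1
  rw [he.fd hc ha h1]
  have h2 := (((hc (e v)).2 a) _ h1 ha).2
  have h3 := he.det v
  change LinearMap.det (((fderiv ℝ (J.cm (c (e v)) (c a)) (c (e v) (e v)) :
    J.E n →L[ℝ] J.E n) : J.E n →ₗ[ℝ] J.E n) ∘ₗ (fderiv ℝ (fi c e (e v)) v : J.E n →ₗ[ℝ] J.E n)) ≠ 0
  rw [LinearMap.det_comp]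
  exact mul_ne_zero h2.ne' h3

theorem isOpenMap (hc : J.Atl c) (he : Gl c e) : IsOpenMap e := by
  rw [isOpenMap_iff_nhds_le]
  intro v
  have h1 : e v ∈ (c (e v)).source := (hc _).1
  obtain ⟨-, -, -, -, -, h2⟩ := exists_local_inv (he.smA hc h1) (he.detA hc h1)
  have h3 : map (c (e v)).symm (𝓝 (c (e v) (e v))) = 𝓝 (e v) := by
    have := (c (e v)).symm.map_nhds_eq ((c (e v)).map_source h1)
    rw [(c (e v)).left_inv h1] at this
    exact this
  have h4 : map e (𝓝 v) = map (c (e v)).symm (map (fi c e (e v)) (𝓝 v)) := by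
    rw [map_map]
    refine Filter.map_congr ?_
    filter_upwards [he.near h1] with w hw
    exact ((c (e v)).left_inv hw).symm
  rw [h4, h2]
  exact h3.ge

/-- `e` as a homeomorphism -/
noncomputable def homeo (hc : J.Atl c) (he : Gl c e) : J.E n ≃ₜ X :=
  (Equiv.ofBijective e he.bij).toHomeomorphOfContinuousOpen he.cont (he.isOpenMap hc)

theorem homeo_apply (hc : J.Atl c) (he : Gl c e) (v : J.E n) : he.homeo hc v = e v := rfl

theorem e_symm (hc : J.Atl c) (he : Gl c e) (x : X) : e ((he.homeo hc).symm x) = x :=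
  (he.homeo hc).apply_symm_apply x

theorem symm_e (hc : J.Atl c) (he : Gl c e) (v : J.E n) : (he.homeo hc).symm (e v) = v :=
  (he.homeo hc).symm_apply_apply v

/-- the inverse is smooth -/
theorem sm_symm (hc : J.Atl c) (he : Gl c e) {a p : X} (hp : p ∈ (c a).source) :
    ContDiffAt ℝ ∞ (fun x => (he.homeo hc).symm ((c a).symm x)) (c a p) := by
  obtain ⟨v, rfl⟩ := he.bij.2 p
  obtain ⟨K, k1, k2, k3, -, -⟩ := exists_local_inv (he.smA hc hp) (he.detA hc hp)
  refine k1.congr_of_eventuallyEq ?_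
  have h1 : ContinuousAt (fun x => (he.homeo hc).symm ((c a).symm x)) (c a (e v)) :=
    (he.homeo hc).symm.continuous.continuousAt.comp
      ((c a).continuousAt_symm ((c a).map_source hp))
  have h2 : (he.homeo hc).symm ((c a).symm (c a (e v))) = v := by
    rw [(c a).left_inv hp, he.symm_e hc]
  rw [ContinuousAt, h2] at h1
  have h3 := h1.eventually k3
  have h4 : ∀ᶠ x in 𝓝 (c a (e v)), x ∈ (c a).target :=
    (c a).open_target.mem_nhds ((c a).map_source hp)
  filter_upwards [h3, h4] with x hx hx'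
  have h5 : fi c e a ((he.homeo hc).symm ((c a).symm x)) = x := by
    unfold fi
    rw [he.e_symm hc, (c a).right_inv hx']
  rw [h5] at hx
  exact hx.symm

end Gl

/-- the metric in the chart `e` -/
noncomputable def pmet (c : X → J.Ch n X) (g : X → J.Mtx n) (e : J.E n → X) : J.Mtx n := fun v =>
  (jac (fi c e (e v)) v)ᵀ * g (e v) (fi c e (e v) v) * jac (fi c e (e v)) v

namespace Gl

theorem jac_comp (hc : J.Atl c) (he : Gl c e) (ha : e v ∈ (c a).source)
    (hb : e v ∈ (c b).source) :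
    jac (fi c e a) v = jac (J.cm (c b) (c a)) (c b (e v)) * jac (fi c e b) v := by
  ext i j
  rw [RicU.jac_apply ((he.smA hc ha).differentiableAt (by simp)), he.fd hc ha hb,
    ContinuousLinearMap.comp_apply,
    Bas2.fderiv_eq_mulVec ((((hc b).2 a) _ hb ha).1), Matrix.mul_apply]
  refine Finset.sum_congr rfl fun k _ => ?_
  rw [RicU.jac_apply ((he.smA hc hb).differentiableAt (by simp)) k j]

theorem pmet_eq (hc : J.Atl c) (hg : J.Met c g) (he : Gl c e) (ha : e v ∈ (c a).source) :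
    pmet c g e v = (jac (fi c e a) v)ᵀ * g a (fi c e a v) * jac (fi c e a) v := by
  have h1 : e v ∈ (c (e v)).source := (hc _).1
  have h2 : c (e v) (e v) ∈ RicU.cd c (e v) a := ⟨(c (e v)).map_source h1, by
    rw [Set.mem_preimage, (c (e v)).left_inv h1]; exact ha⟩
  have h3 := (RicU.chg hc hg (e v) a).compat _ h2
  have h4 : J.cm (c (e v)) (c a) (c (e v) (e v)) = c a (e v) := BoxB.cm_apply _ _ h1
  rw [h4] at h3
  unfold pmet
  rw [he.jac_comp hc ha h1]
  change _ * g (e v) (c (e v) (e v)) * _ = _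
  rw [h3]
  simp only [Matrix.transpose_mul, Matrix.mul_assoc]
  rfl

theorem pmet_ev (hc : J.Atl c) (hg : J.Met c g) (he : Gl c e) (ha : e v ∈ (c a).source) :
    ∀ᶠ w in 𝓝 v, pmet c g e w = (jac (fi c e a) w)ᵀ * g a (fi c e a w) * jac (fi c e a) w := by
  filter_upwards [he.near ha] with w hw using he.pmet_eq hc hg hw

theorem det_jac (hc : J.Atl c) (he : Gl c e) (ha : e v ∈ (c a).source) :
    (jac (fi c e a) v).det ≠ 0 := by
  rw [Bas2.det_jac (he.smA hc ha)]
  exact he.detA hc ha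

theorem pmet_pos (hc : J.Atl c) (hg : J.Met c g) (he : Gl c e) (v : J.E n) :
    (pmet c g e v).PosDef := by
  have h1 : e v ∈ (c (e v)).source := (hc _).1
  have h2 := (hg (e v) _ h1).2.1
  have h3 := he.det_jac hc h1
  unfold pmet
  have := h2.conjTranspose_mul_mul_same (B := jac (fi c e (e v)) v)
    (Matrix.mulVec_injective_iff_isUnit.2 ((Matrix.isUnit_iff_isUnit_det _).2
      (isUnit_iff_ne_zero.2 h3)))
  rwa [Matrix.conjTranspose_eq_transpose_of_trivial] at this

theorem pmet_smooth (hc : J.Atl c) (hg : J.Met c g) (he : Gl c e) (i j : Fin n) :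
    ContDiff ℝ ∞ fun v => pmet c g e v i j := by
  rw [contDiff_iff_contDiffAt]
  intro v
  have h1 : e v ∈ (c (e v)).source := (hc _).1
  have h2 := he.pmet_ev hc hg h1
  refine ContDiffAt.congr_of_eventuallyEq (f := fun w =>
    ((jac (fi c e (e v)) w)ᵀ * g (e v) (fi c e (e v) w) * jac (fi c e (e v)) w) i j) ?_
    (h2.mono fun w hw => congrArg (fun A : Matrix (Fin n) (Fin n) ℝ => A i j) hw)
  simp only [Matrix.mul_apply, Matrix.transpose_apply]
  have h3 := fun k l => sm_jac (he.smA hc h1) k l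
  refine ContDiffAt.sum fun k _ => ContDiffAt.mul (ContDiffAt.sum fun l _ => ?_) (h3 k j)
  exact ContDiffAt.mul (h3 l i) (ContDiffAt.comp (g := fun x => g (e v) x l k)
    (f := fi c e (e v)) v ((hg (e v) _ h1).1 l k) (he.smA hc h1))

end Gl

end Vale.Agent.P223.H440.NC
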