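import Vale.Agent.P223.H440.NC1
import Vale.Agent.P223.H.ConfScal

/-! Stage 4: geodesics in a global chart, Hamilton's equations. -/

namespace Vale.Agent.P223.H440.NC

open scoped ContDiff Topology Matrix
open Vale.Agent.P223 Vale.Agent.P223.X Filter

section chain
variable {n : ℕ} {x : ℝ → J.E n} {t : ℝ}

/-- chain rule along a curve -/
theorem deriv_comp_curve {h : J.E n → ℝ} (hh : DifferentiableAt ℝ h (x t))
    (hx : DifferentiableAt ℝ x t) :
    HasDerivAt (fun s => h (x s)) (∑ a, pd a h (x t) * deriv (fun s => x s a) t) t := by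
  have h1 := hh.hasFDerivAt.comp_hasDerivAt t hx.hasDerivAt
  refine h1.congr_deriv ?_
  have h2 : deriv x t = ∑ a, deriv (fun s => x s a) t • (Pi.single a (1 : ℝ) : J.E n) := by
    have h3 : deriv x t = fun a => deriv (fun s => x s a) t := deriv_pi fun a =>
      (differentiableAt_pi.1 hx) a
    rw [h3]
    ext k
    simp [Finset.sum_apply, Pi.single_apply]
  rw [h2, map_sum]
  refine Finset.sum_congr rfl fun a _ => ?_
  rw [map_smul, smul_eq_mul, mul_comm]
  rfl

end chain

/-- `x` is a geodesic of the metric `G` on `ℝ^n`. -/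
structure GR {n : ℕ} (G : J.Mtx n) (x : ℝ → J.E n) : Prop where
  sm : ContDiff ℝ ∞ x
  eq : ∀ t k, deriv (deriv fun s => x s k) t = -∑ i, ∑ j, J.chr G (x t) k i j *
    deriv (fun s => x s i) t * deriv (fun s => x s j) t

section ham
variable {n : ℕ} {G : J.Mtx n} {x : ℝ → J.E n}

/-- the momentum -/
noncomputable def mom (G : J.Mtx n) (x : ℝ → J.E n) (t : ℝ) : J.E n :=
  fun k => ∑ j, G (x t) k j * deriv (fun s => x s j) t

theorem GR.coord (h : GR G x) (i : Fin n) : ContDiff ℝ ∞ fun s => x s i :=
  (contDiff_pi.1 h.sm) i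

theorem GR.diff1 (h : GR G x) (i : Fin n) (t : ℝ) :
    HasDerivAt (fun s => x s i) (deriv (fun s => x s i) t) t :=
  ((h.coord i).differentiable (by simp) t).hasDerivAt

theorem GR.diff2 (h : GR G x) (i : Fin n) (t : ℝ) :
    HasDerivAt (deriv fun s => x s i) (deriv (deriv fun s => x s i) t) t := by
  have h1 : ContDiff ℝ ∞ (deriv fun s => x s i) := (contDiff_infty_iff_deriv.1 (h.coord i)).2
  exact (h1.differentiable (by simp) t).hasDerivAt

variable (hs : ∀ i j, ContDiff ℝ ∞ fun y => G y i j) (hp : ∀ y, (G y).PosDef)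

include hp in
theorem inv_mom (t : ℝ) (i : Fin n) :
    ∑ j, (G (x t))⁻¹ i j * mom G x t j = deriv (fun s => x s i) t := by
  have h1 : (G (x t))⁻¹ * G (x t) = 1 :=
    Matrix.nonsing_inv_mul _ (hp (x t)).det_pos.ne'.isUnit
  have h2 : ((G (x t))⁻¹ *ᵥ (G (x t) *ᵥ fun j => deriv (fun s => x s j) t)) i =
      deriv (fun s => x s i) t := by
    rw [Matrix.mulVec_mulVec, h1, Matrix.one_mulVec]
  exact h2

include hs hp in
/-- Hamilton's equations -/
theorem hamilton (h : GR G x) (t : ℝ) :
    HasDerivAt (fun s => (x s, mom G x s)) (H765.NC.hv G (x t, mom G x t)) t := by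
  have hM := H.Bridge.metricOn hs hp
  have hxd : DifferentiableAt ℝ x t := h.sm.differentiable (by simp) t
  refine HasDerivAt.prodMk ?_ ?_
  · rw [hasDerivAt_pi]
    intro i
    refine (h.diff1 i t).congr_deriv ?_
    exact (inv_mom hp t i).symm
  · rw [hasDerivAt_pi]
    intro k
    set P := mom G x t with hP
    set v : J.E n := fun i => deriv (fun s => x s i) t with hv
    have h1 : HasDerivAt (fun s => mom G x s k) (∑ j, ((∑ a, pd a (fun y => G y k j) (x t) * v a) *
        v j + G (x t) k j * deriv (deriv fun s => x s j) t)) t := by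
      unfold mom
      refine HasDerivAt.fun_sum fun j _ => ?_
      exact (deriv_comp_curve ((hs k j).differentiable (by simp) _) hxd).mul (h.diff2 j t)
    refine h1.congr_deriv ?_
    -- the right hand side
    have h2 : J.pd k (fun q => H765.NC.ham G (q, P)) (x t) =
        -∑ i, ∑ j, H.chr G (x t) i k j * P i * v j := by
      have e1 : J.pd k (fun q => H765.NC.ham G (q, P)) (x t) =
          1 / 2 * ∑ i, ∑ j, pd k (fun q => (G q)⁻¹ i j) (x t) * P i * P j := by
        have hsm := fun i j => hM.sm_inv isOpen_univ (Set.mem_univ (x t)) i j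
        have hd : ∀ i j, DifferentiableAt ℝ (fun q => (G q)⁻¹ i j) (x t) := fun i j => (hsm i j).diff
        change H.pd k (fun q => 1 / 2 * ∑ i, ∑ j, (G q)⁻¹ i j * P i * P j) (x t) = _
        have hd2 : ∀ i j, DifferentiableAt ℝ (fun q => (G q)⁻¹ i j * P i * P j) (x t) :=
          fun i j => ((hd i j).mul_const _).mul_const _
        rw [H.Bridge.pd_mul (differentiableAt_const _)
          (DifferentiableAt.fun_sum fun i _ => DifferentiableAt.fun_sum fun j _ => hd2 i j),
          H.Bridge.pd_const, zero_mul, zero_add,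
          H.Bridge.pd_sum fun i _ => DifferentiableAt.fun_sum fun j _ => hd2 i j]
        congr 1
        refine Finset.sum_congr rfl fun i _ => ?_
        rw [H.Bridge.pd_sum fun j _ => hd2 i j]
        refine Finset.sum_congr rfl fun j _ => ?_
        rw [H.Bridge.pd_mul ((hd i j).mul_const _) (differentiableAt_const _),
          H.Bridge.pd_mul (hd i j) (differentiableAt_const _), H.Bridge.pd_const,
          H.Bridge.pd_const]
        change (pd k (fun q => (G q)⁻¹ i j) (x t) * P i + _) * P j + _ = _
        ring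
      rw [e1]
      have e2 : ∀ i j, pd k (fun q => (G q)⁻¹ i j) (x t) = -∑ d, (H.chr G (x t) i k d *
          (G (x t))⁻¹ d j + H.chr G (x t) j k d * (G (x t))⁻¹ i d) := fun i j =>
        hM.pd_inv isOpen_univ (Set.mem_univ _) k i j
      simp only [e2]
      have e3 : ∀ i, ∑ j, (G (x t))⁻¹ i j * P j = v i := fun i => inv_mom hp t i
      have e4 : ∀ j, ∑ i, P i * (G (x t))⁻¹ i j = v j := by
        intro j
        rw [← e3 j]
        refine Finset.sum_congr rfl fun i _ => ?_
        rw [hM.inv_symm (Set.mem_univ _) i j, mul_comm]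
      have e5 : ∑ i, ∑ j, (-∑ d, (H.chr G (x t) i k d * (G (x t))⁻¹ d j +
          H.chr G (x t) j k d * (G (x t))⁻¹ i d)) * P i * P j =
          -((∑ i, ∑ d, H.chr G (x t) i k d * P i * ∑ j, (G (x t))⁻¹ d j * P j) +
            ∑ j, ∑ d, H.chr G (x t) j k d * P j * ∑ i, P i * (G (x t))⁻¹ i d) := by
        rw [neg_add, ← sub_eq_add_neg, eq_sub_iff_add_eq]
        have f1 : ∑ i, ∑ d, H.chr G (x t) i k d * P i * ∑ j, (G (x t))⁻¹ d j * P j =
            ∑ i, ∑ j, ∑ d, H.chr G (x t) i k d * P i * ((G (x t))⁻¹ d j * P j) := by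
          refine Finset.sum_congr rfl fun i _ => ?_
          rw [Finset.sum_comm]
          refine Finset.sum_congr rfl fun j _ => ?_
          rw [Finset.mul_sum]
        have f2 : ∑ j, ∑ d, H.chr G (x t) j k d * P j * ∑ i, P i * (G (x t))⁻¹ i d =
            ∑ i, ∑ j, ∑ d, H.chr G (x t) j k d * P j * (P i * (G (x t))⁻¹ i d) := by
          conv_rhs => rw [Finset.sum_comm]
          refine Finset.sum_congr rfl fun j _ => ?_
          rw [Finset.sum_comm]
          refine Finset.sum_congr rfl fun i _ => ?_
          rw [Finset.mul_sum]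
        rw [f1, f2, ← Finset.sum_neg_distrib, ← Finset.sum_add_distrib]
        refine Finset.sum_congr rfl fun i _ => ?_
        rw [← Finset.sum_neg_distrib, ← Finset.sum_add_distrib]
        refine Finset.sum_congr rfl fun j _ => ?_
        rw [neg_mul, neg_mul, Finset.sum_mul, Finset.sum_mul, ← Finset.sum_neg_distrib,
          ← Finset.sum_neg_distrib, ← Finset.sum_add_distrib]
        refine Finset.sum_congr rfl fun d _ => ?_
        ring
      rw [e5]
      simp only [e3, e4]
      ring
    change _ = -J.pd k (fun q => H765.NC.ham G (q, P)) (x t)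
    rw [h2, neg_neg]
    -- the left hand side
    have e6 : ∀ j a, pd a (fun y => G y k j) (x t) = ∑ i, G (x t) k i * H.chr G (x t) i a j +
        ∑ i, G (x t) j i * H.chr G (x t) i a k := fun j a => H.ConfScal.compat hp (x t) a k j
    have e7 : ∀ j, deriv (deriv fun s => x s j) t = -∑ a, ∑ b, H.chr G (x t) j a b * v a * v b :=
      fun j => h.eq t j
    have hPd : ∀ i, P i = ∑ j, G (x t) i j * v j := fun i => rfl
    have hch : ∀ i, ∀ a b, H.chr G (x t) i a b = H.chr G (x t) i b a := fun i a b =>
      hM.christoffel_symm isOpen_univ (Set.mem_univ _) i a b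
    have hsy : ∀ a b, G (x t) a b = G (x t) b a := fun a b => hM.symm (Set.mem_univ _) a b
    rw [Finset.sum_add_distrib]
    simp only [e6, e7]
    have f3 : ∑ j, (∑ a, (∑ i, G (x t) k i * H.chr G (x t) i a j +
        ∑ i, G (x t) j i * H.chr G (x t) i a k) * v a) * v j =
        (∑ j, ∑ a, ∑ i, G (x t) k i * H.chr G (x t) i a j * v a * v j) +
        ∑ i, ∑ a, H.chr G (x t) i k a * (∑ j, G (x t) i j * v j) * v a := by
      have g1 : ∑ i, ∑ a, H.chr G (x t) i k a * (∑ j, G (x t) i j * v j) * v a =
          ∑ j, ∑ a, ∑ i, G (x t) j i * H.chr G (x t) i a k * v a * v j := by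
        rw [Finset.sum_comm]
        conv_rhs => rw [Finset.sum_comm]
        refine Finset.sum_congr rfl fun a _ => ?_
        have : ∀ i, H.chr G (x t) i k a * (∑ j, G (x t) i j * v j) * v a =
            ∑ j, G (x t) j i * H.chr G (x t) i a k * v a * v j := by
          intro i
          rw [Finset.mul_sum, Finset.sum_mul]
          refine Finset.sum_congr rfl fun j _ => ?_
          rw [hch i k a, hsy i j]
          ring
        simp only [this]
        rw [Finset.sum_comm]
      rw [g1, ← Finset.sum_add_distrib]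
      refine Finset.sum_congr rfl fun j _ => ?_
      rw [Finset.sum_mul, ← Finset.sum_add_distrib]
      refine Finset.sum_congr rfl fun a _ => ?_
      rw [add_mul, add_mul, Finset.sum_mul, Finset.sum_mul, Finset.sum_mul, Finset.sum_mul]
    have f4 : ∑ j, G (x t) k j * -∑ a, ∑ b, H.chr G (x t) j a b * v a * v b =
        -∑ j, ∑ a, ∑ i, G (x t) k i * H.chr G (x t) i a j * v a * v j := by
      simp only [mul_neg, Finset.sum_neg_distrib, Finset.mul_sum]
      congr 1
      rw [Finset.sum_comm]
      have : ∀ a, ∑ j, ∑ b, G (x t) k j * (H.chr G (x t) j a b * v a * v b) =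
          ∑ b, ∑ j, G (x t) k j * H.chr G (x t) j a b * v a * v b := by
        intro a
        rw [Finset.sum_comm]
        refine Finset.sum_congr rfl fun b _ => Finset.sum_congr rfl fun j _ => ?_
        ring
      simp only [this]
      rw [Finset.sum_comm]
    rw [f3, f4]
    simp only [hPd]
    ring

end ham

end Vale.Agent.P223.H440.NC
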