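import Vale.Agent.P223.H440.NC2

/-! Stage 4: geodesics of `X` in a global chart. -/

namespace Vale.Agent.P223.H440.NC

open scoped ContDiff Topology Matrix
open Vale.Agent.P223 Vale.Agent.P223.X Filter

variable {n : ℕ} {X : Type} [TopologicalSpace X] {c : X → J.Ch n X} {g : X → J.Mtx n}
  {e : J.E n → X} {γ : ℝ → X}

theorem cd_curve (hc : J.Atl c) (he : Gl c e) (hγ : J.Gdc c g γ) :
    ContDiff ℝ ∞ fun s => (he.homeo hc).symm (γ s) := by
  rw [contDiff_iff_contDiffAt]
  intro t
  have h1 : γ t ∈ (c (γ t)).source := (hc _).1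
  have h2 : ∀ᶠ s in 𝓝 t, γ s ∈ (c (γ t)).source :=
    hγ.1.continuousAt.eventually_mem ((c (γ t)).open_source.mem_nhds h1)
  have h3 : ContDiffAt ℝ ∞ (fun s => (he.homeo hc).symm ((c (γ t)).symm (c (γ t) (γ s)))) t :=
    ContDiffAt.comp (g := fun x => (he.homeo hc).symm ((c (γ t)).symm x))
      (f := fun s => c (γ t) (γ s)) t (he.sm_symm hc h1) (hγ.2 t).1
  refine h3.congr_of_eventuallyEq ?_
  filter_upwards [h2] with s hs
  rw [(c (γ t)).left_inv hs]

theorem gr_of_gdc (hc : J.Atl c) (hg : J.Met c g) (he : Gl c e) (hγ : J.Gdc c g γ) :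
    GR (pmet c g e) fun s => (he.homeo hc).symm (γ s) := by
  set x : ℝ → J.E n := fun s => (he.homeo hc).symm (γ s) with hx
  have hxs : ContDiff ℝ ∞ x := cd_curve hc he hγ
  refine ⟨hxs, fun t => ?_⟩
  have hex : ∀ s, e (x s) = γ s := fun s => he.e_symm hc (γ s)
  set a := γ t with ha
  have h1 : γ t ∈ (c a).source := (hc _).1
  have h1' : e (x t) ∈ (c a).source := by rw [hex]; exact h1
  set φ := fi c e a with hφ
  have hφx : ∀ s, φ (x s) = c a (γ s) := fun s => by rw [hφ, fi, hex]
  have hφs : ContDiffAt ℝ ∞ φ (x t) := he.smA hc h1'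
  have hφn : ∀ᶠ s in 𝓝 t, ContDiffAt ℝ ∞ φ (x s) := by
    have h2 : ∀ᶠ s in 𝓝 t, γ s ∈ (c a).source :=
      hγ.1.continuousAt.eventually_mem ((c a).open_source.mem_nhds h1)
    filter_upwards [h2] with s hs
    exact he.smA hc (by rw [hex]; exact hs)
  have hM := H.Bridge.metricOn (fun i j => he.pmet_smooth hc hg i j) (he.pmet_pos hc hg)
  have hxd : ∀ s, DifferentiableAt ℝ x s := fun s => hxs.differentiable (by simp) s
  set v : J.E n := fun i => deriv (fun s => x s i) t with hv
  set w : J.E n := fun i => deriv (deriv fun s => x s i) t with hw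
  have hx1 : ∀ i s, HasDerivAt (fun s => x s i) (deriv (fun s => x s i) s) s := fun i s =>
    (((contDiff_pi.1 hxs) i).differentiable (by simp) s).hasDerivAt
  have hx2 : ∀ i s, HasDerivAt (deriv fun s => x s i) (deriv (deriv fun s => x s i) s) s :=
    fun i s => by
      have h1 : ContDiff ℝ ∞ (deriv fun s => x s i) :=
        (contDiff_infty_iff_deriv.1 ((contDiff_pi.1 hxs) i)).2
      exact (h1.differentiable (by simp) s).hasDerivAt
  -- the first derivatives
  have hy1 : ∀ d, ∀ᶠ s in 𝓝 t, deriv (fun s => c a (γ s) d) s =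
      ∑ b, jac φ (x s) d b * deriv (fun s => x s b) s := by
    intro d
    filter_upwards [hφn] with s hs
    have h2 : DifferentiableAt ℝ (fun z => φ z d) (x s) :=
      (sm_comp_coord hs d).diff
    have h3 := (deriv_comp_curve h2 (hxd s)).deriv
    have h4 : (fun s => φ (x s) d) = fun s => c a (γ s) d := by
      funext s; rw [hφx]
    rw [h4] at h3
    rw [h3]
    rfl
  -- the second derivatives
  have hy2 : ∀ d, deriv (deriv fun s => c a (γ s) d) t =
      ∑ b, ((∑ i, hes φ (x t) d i b * v i) * v b + jac φ (x t) d b * w b) := by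
    intro d
    have h2 : deriv (fun s => c a (γ s) d) =ᶠ[𝓝 t]
        fun s => ∑ b, jac φ (x s) d b * deriv (fun s => x s b) s := hy1 d
    rw [h2.deriv_eq]
    refine HasDerivAt.deriv ?_
    refine HasDerivAt.fun_sum fun b _ => ?_
    exact (deriv_comp_curve (sm_jac hφs d b).diff (hxd t)).mul (hx2 b t)
  have hv1 : ∀ d, deriv (fun s => c a (γ s) d) t = ∑ b, jac φ (x t) d b * v b := fun d =>
    (hy1 d).self_of_nhds
  have hgeo : ∀ d, deriv (deriv fun s => c a (γ s) d) t =
      -∑ i, ∑ j, christoffel (g a) (c a (γ t)) d i j *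
        deriv (fun s => c a (γ s) i) t * deriv (fun s => c a (γ s) j) t := (hγ.2 t).2
  -- Christoffel symbols
  have hct : ∀ d i j, (∑ k, jac φ (x t) d k * christoffel (pmet c g e) (x t) k i j) =
      (∑ k, ∑ l, jac φ (x t) k i * jac φ (x t) l j * christoffel (g a) (φ (x t)) d k l) +
        hes φ (x t) d i j := fun d i j =>
    christoffel_trans hM (Set.mem_univ _) (RicU.met_on hg a) (c a).open_target
      (by rw [hφx]; exact (c a).map_source h1) hφs (he.pmet_ev hc hg h1') d i j
  have key : ∀ d, ∑ k, jac φ (x t) d k *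
      (w k + ∑ i, ∑ j, christoffel (pmet c g e) (x t) k i j * v i * v j) = 0 := by
    intro d
    have e1 : ∑ k, jac φ (x t) d k * ∑ i, ∑ j, christoffel (pmet c g e) (x t) k i j * v i * v j =
        ∑ i, ∑ j, (∑ k, jac φ (x t) d k * christoffel (pmet c g e) (x t) k i j) * v i * v j := by
      simp only [Finset.mul_sum, Finset.sum_mul]
      rw [Finset.sum_comm]
      refine Finset.sum_congr rfl fun i _ => ?_
      rw [Finset.sum_comm]
      refine Finset.sum_congr rfl fun j _ => Finset.sum_congr rfl fun k _ => ?_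
      ring
    have e2 : ∑ i, ∑ j, (∑ k, ∑ l, jac φ (x t) k i * jac φ (x t) l j *
        christoffel (g a) (φ (x t)) d k l) * v i * v j =
        ∑ k, ∑ l, christoffel (g a) (φ (x t)) d k l * (∑ i, jac φ (x t) k i * v i) *
          ∑ j, jac φ (x t) l j * v j := by
      simp only [Finset.mul_sum, Finset.sum_mul]
      calc _ = ∑ i, ∑ k, ∑ l, ∑ j, jac φ (x t) k i * jac φ (x t) l j *
            christoffel (g a) (φ (x t)) d k l * v i * v j := by
            refine Finset.sum_congr rfl fun i _ => ?_
            rw [Finset.sum_comm]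
            refine Finset.sum_congr rfl fun k _ => ?_
            rw [Finset.sum_comm]
        _ = ∑ k, ∑ l, ∑ i, ∑ j, jac φ (x t) k i * jac φ (x t) l j *
            christoffel (g a) (φ (x t)) d k l * v i * v j := by
            rw [Finset.sum_comm]
            refine Finset.sum_congr rfl fun k _ => ?_
            rw [Finset.sum_comm]
        _ = _ := by
            refine Finset.sum_congr rfl fun k _ => Finset.sum_congr rfl fun l _ => ?_
            rw [Finset.sum_comm]
            refine Finset.sum_congr rfl fun i _ => Finset.sum_congr rfl fun j _ => ?_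
            ring
    have e3 := hgeo d
    rw [hy2 d] at e3
    simp only [hv1] at e3
    rw [← hφx t] at e3
    have e5 : ∑ k, jac φ (x t) d k *
        (w k + ∑ i, ∑ j, christoffel (pmet c g e) (x t) k i j * v i * v j) =
        ∑ k, jac φ (x t) d k * w k + ∑ k, jac φ (x t) d k *
          ∑ i, ∑ j, christoffel (pmet c g e) (x t) k i j * v i * v j := by
      rw [← Finset.sum_add_distrib]
      refine Finset.sum_congr rfl fun k _ => ?_
      ring
    have e6 : ∑ i, ∑ j, ((∑ k, ∑ l, jac φ (x t) k i * jac φ (x t) l j *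
        christoffel (g a) (φ (x t)) d k l) + hes φ (x t) d i j) * v i * v j =
        (∑ i, ∑ j, (∑ k, ∑ l, jac φ (x t) k i * jac φ (x t) l j *
        christoffel (g a) (φ (x t)) d k l) * v i * v j) +
        ∑ i, ∑ j, hes φ (x t) d i j * v i * v j := by
      rw [← Finset.sum_add_distrib]
      refine Finset.sum_congr rfl fun i _ => ?_
      rw [← Finset.sum_add_distrib]
      refine Finset.sum_congr rfl fun j _ => ?_
      ring
    rw [e5, e1]
    simp only [hct]
    rw [e6, e2]
    rw [Finset.sum_add_distrib] at e3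
    have e4 : ∑ b, (∑ i, hes φ (x t) d i b * v i) * v b =
        ∑ i, ∑ j, hes φ (x t) d i j * v i * v j := by
      simp only [Finset.sum_mul]
      rw [Finset.sum_comm]
    rw [e4] at e3
    linarith
  have hdet : (jac φ (x t)).det ≠ 0 := he.det_jac hc h1'
  have hz := Matrix.eq_zero_of_mulVec_eq_zero hdet (v := fun k => w k +
    ∑ i, ∑ j, christoffel (pmet c g e) (x t) k i j * v i * v j) (funext key)
  intro k
  have := congrFun hz k
  simp only [Pi.zero_apply] at this
  change w k = -∑ i, ∑ j, christoffel (pmet c g e) (x t) k i j * v i * v j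
  linarith

end Vale.Agent.P223.H440.NC
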