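import Vale.Agent.P223.H440.NC3

/-! Stage 4: the geodesic flow in a global chart. -/

namespace Vale.Agent.P223.H440.NC

open scoped ContDiff Topology Matrix
open Vale.Agent.P223 Vale.Agent.P223.X Filter

variable {n : ℕ} {X : Type} [TopologicalSpace X] {c : X → J.Ch n X} {g : X → J.Mtx n}
  {e e₁ e₂ : J.E n → X}

namespace Gl

/-- change of global charts -/
theorem trans_smooth (hc : J.Atl c) (h₁ : Gl c e₁) (h₂ : Gl c e₂) :
    ContDiff ℝ ∞ fun v => (h₁.homeo hc).symm (e₂ v) := by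
  rw [contDiff_iff_contDiffAt]
  intro v
  have h3 : e₂ v ∈ (c (e₂ v)).source := (hc _).1
  have h4 : ContDiffAt ℝ ∞ (fun w => (h₁.homeo hc).symm ((c (e₂ v)).symm (fi c e₂ (e₂ v) w))) v :=
    ContDiffAt.comp (g := fun x => (h₁.homeo hc).symm ((c (e₂ v)).symm x))
      (f := fi c e₂ (e₂ v)) v (h₁.sm_symm hc h3) (h₂.smA hc h3)
  refine h4.congr_of_eventuallyEq ?_
  filter_upwards [h₂.near h3] with w hw
  unfold fi
  rw [(c (e₂ v)).left_inv hw]

end Gl

theorem det_comp' (A B : J.E n →L[ℝ] J.E n) : (A.comp B).det = A.det * B.det :=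
  LinearMap.det_comp (A : J.E n →ₗ[ℝ] J.E n) (B : J.E n →ₗ[ℝ] J.E n)

/-- a smooth map with a smooth inverse has invertible derivatives -/
theorem det_ne_of_inv {F K : J.E n → J.E n} (hF : ContDiff ℝ ∞ F) (hK : ContDiff ℝ ∞ K)
    (h : ∀ v, K (F v) = v) (v : J.E n) : (fderiv ℝ F v).det ≠ 0 := by
  have h1 : fderiv ℝ (fun v => K (F v)) v = (fderiv ℝ K (F v)).comp (fderiv ℝ F v) :=
    fderiv_comp v (hK.differentiable (by simp) _) (hF.differentiable (by simp) _)
  have h2 : (fun v => K (F v)) = id := funext h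
  rw [h2, fderiv_id] at h1
  intro h0
  have h3 := congrArg ContinuousLinearMap.det h1
  rw [det_comp', h0, mul_zero] at h3
  have h4 : (ContinuousLinearMap.id ℝ (J.E n)).det = 1 := LinearMap.det_id
  rw [h4] at h3
  exact one_ne_zero h3

namespace Gl

theorem trans_inv (hc : J.Atl c) (h₁ : Gl c e₁) (h₂ : Gl c e₂) (v : J.E n) :
    (h₂.homeo hc).symm (e₁ ((h₁.homeo hc).symm (e₂ v))) = v := by
  rw [h₁.e_symm hc, h₂.symm_e hc]

theorem trans_det (hc : J.Atl c) (h₁ : Gl c e₁) (h₂ : Gl c e₂) (v : J.E n) :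
    (fderiv ℝ (fun v => (h₁.homeo hc).symm (e₂ v)) v).det ≠ 0 :=
  det_ne_of_inv (h₁.trans_smooth hc h₂) (h₂.trans_smooth hc h₁) (h₁.trans_inv hc h₂) v

end Gl

theorem gl_of_pole {x : X} (h : J.Pole c g x) : ∃ e : J.E n → X, Gl c e ∧ e 0 = x ∧
    ∀ v, J.Gdc c g fun t => e (t • v) := by
  obtain ⟨e, h0, h1, h2, h3, h4⟩ := h
  exact ⟨e, ⟨h1, h2, fun v => (h3 v).1, fun v => (h3 v).2⟩, h0, h4⟩

/-- STEP T7a -/
theorem exists_geo (hc : J.Atl c) (hg : J.Met c g) (hP : ∀ x, J.Pole c g x) (he : Gl c e) :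
    ∃ Φ, H765.NC.Geo (pmet c g e) Φ := by
  choose E hE hE0 hEg using fun x => gl_of_pole (hP x)
  set T : J.E n → J.E n → J.E n := fun q w => (he.homeo hc).symm (E (e q) w) with hT
  have hTs : ∀ q, ContDiff ℝ ∞ (T q) := fun q => he.trans_smooth hc (hE (e q))
  have hTd : ∀ q w, (fderiv ℝ (T q) w).det ≠ 0 := fun q w => he.trans_det hc (hE (e q)) w
  have hT0 : ∀ q, T q 0 = q := fun q => by
    rw [hT]
    simp only [hE0, he.symm_e hc]
  choose L hL using fun q => exists_equiv (hTd q 0)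
  set G := pmet c g e with hG
  have hp : ∀ y, (G y).PosDef := he.pmet_pos hc hg
  have hs : ∀ i j, ContDiff ℝ ∞ fun y => G y i j := fun i j => he.pmet_smooth hc hg i j
  set V : J.E n → J.E n →L[ℝ] J.E n := fun q =>
    ((L q).symm : J.E n →L[ℝ] J.E n).comp (Matrix.toLin' (G q)⁻¹).toContinuousLinearMap with hV
  have hVdet : ∀ q, (V q).det ≠ 0 := by
    intro q
    rw [hV]
    simp only
    rw [det_comp']
    refine mul_ne_zero ?_ ?_
    · intro h0
      have h1 := det_comp' (L q : J.E n →L[ℝ] J.E n) ((L q).symm : J.E n →L[ℝ] J.E n)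
      rw [h0, mul_zero, ContinuousLinearEquiv.coe_comp_coe_symm] at h1
      have h4 : (ContinuousLinearMap.id ℝ (J.E n)).det = 1 := LinearMap.det_id
      rw [h4] at h1
      exact one_ne_zero h1
    · change LinearMap.det (Matrix.toLin' (G q)⁻¹) ≠ 0
      rw [LinearMap.det_toLin']
      exact (hp q).inv.det_pos.ne'
  have hVinj : ∀ q, Function.Injective (V q) := by
    intro q
    obtain ⟨L', hL'⟩ := exists_equiv (hVdet q)
    rw [← hL']
    exact L'.injective
  have hGR : ∀ q v, GR G fun s => T q (s • v) := fun q v =>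
    gr_of_gdc hc hg he (hEg (e q) v)
  refine ⟨fun t z => (T z.1 (t • V z.1 z.2), mom G (fun s => T z.1 (s • V z.1 z.2)) t),
    hs, hp, ?_, ?_, ?_, ?_, ?_⟩
  · rintro ⟨q, p⟩
    simp only [zero_smul, hT0, Prod.mk.injEq, true_and]
    have h1 : HasDerivAt (fun s : ℝ => T q (s • V q p)) (fderiv ℝ (T q) 0 (V q p)) 0 := by
      have h2 : HasDerivAt (fun s : ℝ => s • V q p) (V q p) 0 := by
        simpa using (hasDerivAt_id (0 : ℝ)).smul_const (V q p)
      have h3 : HasFDerivAt (T q) (fderiv ℝ (T q) 0) ((0 : ℝ) • V q p) := by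
        rw [zero_smul]
        exact ((hTs q).differentiable (by simp) 0).hasFDerivAt
      exact h3.comp_hasDerivAt (0 : ℝ) h2
    have h4 : fderiv ℝ (T q) 0 (V q p) = (G q)⁻¹ *ᵥ p := by
      rw [← hL q]
      simp [hV]
    rw [h4] at h1
    have h5 : ∀ j, deriv (fun s : ℝ => T q (s • V q p) j) 0 = ((G q)⁻¹ *ᵥ p) j := fun j =>
      ((hasDerivAt_pi.1 h1) j).deriv
    funext k
    unfold mom
    simp only [zero_smul, hT0, h5]
    have h6 : G q *ᵥ ((G q)⁻¹ *ᵥ p) = p := by
      rw [Matrix.mulVec_mulVec, Matrix.mul_nonsing_inv _ (hp q).det_pos.ne'.isUnit,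
        Matrix.one_mulVec]
    exact congrFun h6 k
  · rintro t ⟨q, p⟩
    exact hamilton hs hp (hGR q (V q p)) t
  · intro q p p' h
    simp only [one_smul] at h
    have h1 : E (e q) (V q p) = E (e q) (V q p') := (he.homeo hc).symm.injective h
    exact hVinj q ((hE (e q)).bij.1 h1)
  · intro q p
    simp only [one_smul]
    have h1 : fderiv ℝ (fun p => T q (V q p)) p = (fderiv ℝ (T q) (V q p)).comp (V q) := by
      have h2 : HasFDerivAt (T q) (fderiv ℝ (T q) (V q p)) (V q p) :=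
        ((hTs q).differentiable (by simp) _).hasFDerivAt
      exact (h2.comp p (V q).hasFDerivAt).fderiv
    rw [h1, det_comp']
    exact mul_ne_zero (hTd q _) (hVdet q)
  · rintro ⟨q, p⟩ hz K hK
    simp only at hz ⊢
    have hv : V q p ≠ 0 := fun h => hz (hVinj q (by rw [h, map_zero]))
    have h1 : IsCompact {w | T q w ∈ K} := by
      have h2 : {w | T q w ∈ K} = ((hE (e q)).homeo hc).symm '' (he.homeo hc '' K) := by
        ext w
        simp only [Set.mem_setOf_eq, Set.mem_image, exists_exists_and_eq_and]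
        constructor
        · intro hw
          refine ⟨T q w, hw, ?_⟩
          change ((hE (e q)).homeo hc).symm (e (T q w)) = w
          rw [hT]
          simp only
          rw [he.e_symm hc, (hE (e q)).symm_e hc]
        · rintro ⟨y, hy, rfl⟩
          rw [hT]
          simp only
          rw [(hE (e q)).e_symm hc]
          change (he.homeo hc).symm (e y) ∈ K
          rw [he.symm_e hc]
          exact hy
      rw [h2]
      exact (hK.image (he.homeo hc).continuous).image ((hE (e q)).homeo hc).symm.continuous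
    obtain ⟨R₀, hR₀⟩ := h1.isBounded.exists_norm_le
    refine ⟨R₀ / ‖V q p‖ + 1, fun t ht hK' => ?_⟩
    have h2 := hR₀ _ hK'
    rw [norm_smul, Real.norm_eq_abs] at h2
    have hv0 : 0 < ‖V q p‖ := norm_pos_iff.2 hv
    rw [← le_div_iff₀ hv0] at h2
    linarith

end Vale.Agent.P223.H440.NC
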