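import Vale.Agent.P223.H440.NC4
import Vale.Agent.P223.H441.Par2
import Vale.Agent.P223.H441.XSp
import Vale.Agent.P223.H691.UYW

/-! Stage 4: the boxes of the covering in a global chart. -/

namespace Vale.Agent.P223.H440.NC

open scoped ContDiff Topology Matrix ENNReal
open MeasureTheory Vale.Agent.P223.H Vale.Agent.P223.X Filter
open Vale.Agent.P223.H441 (ta mem_ta contDiffAt_ta G_ta det_ta)

/-- chain rule for Jacobian matrices -/
theorem jac_chain {n : ℕ} {φ ρ : E n → E n} {y : E n} (hφ : ContDiffAt ℝ ∞ φ (ρ y))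
    (hρ : ContDiffAt ℝ ∞ ρ y) : jac (fun z => φ (ρ z)) y = jac φ (ρ y) * jac ρ y := by
  ext i j
  rw [Matrix.mul_apply]
  exact P223.pd_comp hρ (sm_comp_coord hφ i).diff j

theorem jac_ev {n : ℕ} {φ ρ : E n → E n} {y : E n} (h : φ =ᶠ[𝓝 y] ρ) : jac φ y = jac ρ y := by
  ext i j
  have h1 : (fun z => φ z i) =ᶠ[𝓝 y] fun z => ρ z i := h.mono fun z hz => congrFun hz i
  change fderiv ℝ (fun z => φ z i) y (Pi.single j 1) = fderiv ℝ (fun z => ρ z i) y (Pi.single j 1)
  rw [h1.fderiv_eq]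

section
variable {n : ℕ} {M X Γ I : Type} [TopologicalSpace M] [TopologicalSpace X] [Group Γ]
    [MulAction Γ X] {c : M → J.Ch n M} {B : Box c I} {C : Cov n M X Γ I}
    {g : M → J.Mtx n} {c' : X → J.Ch n X} {e : J.E n → X}

/-- the coordinates of the box `(γ, i)` in the global chart -/
noncomputable def rho (hc' : J.Atl c') (he : Gl c' e) (C : Cov n M X Γ I) (γ : Γ) (i : I)
    (y : E n) : E n := (he.homeo hc').symm (γ • C.ψ i y)

variable (hc : J.Atl c) (hβ : ∀ i y, C.π (C.ψ i y) = B.β i y) (hf : J.CovAtl c C.π c')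
  (hg : J.Met c g) (hc' : J.Atl c') (he : Gl c' e)

theorem e_rho (γ : Γ) (i : I) (y : E n) : e (rho hc' he C γ i y) = γ • C.ψ i y :=
  he.e_symm hc' _

theorem rho_inj (γ : Γ) (i : I) : Function.Injective (rho hc' he C γ i) := fun _ _ h =>
  (Int.isOpenEmbedding_chart C γ i).injective ((he.homeo hc').symm.injective h)

include hβ in
theorem π_box (γ : Γ) (i : I) (y : E n) : C.π (γ • C.ψ i y) = B.β i y := by
  rw [MetU.π_smul, hβ]

theorem near_box (γ : Γ) (i : I) (y : E n) {q : X} (hq : γ • C.ψ i y ∈ (c' q).source) :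
    ∀ᶠ z in 𝓝 y, γ • C.ψ i z ∈ (c' q).source :=
  (Int.isOpenEmbedding_chart C γ i).continuous.continuousAt.eventually_mem
    ((c' q).open_source.mem_nhds hq)

include hc hβ hf in
theorem rho_smooth (γ : Γ) (i : I) : ContDiff ℝ ∞ (rho hc' he C γ i) := by
  rw [contDiff_iff_contDiffAt]
  intro y
  set q := γ • C.ψ i y with hq
  have h1 : q ∈ (c' q).source := hf.mem q
  obtain ⟨h2, h3⟩ := mem_ta hf h1 (π_box hβ γ i y)
  have h4 : ContDiffAt ℝ ∞ (fun z => (he.homeo hc').symm ((c' q).symm (ta B i (C.π q) z))) y := by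
    refine ContDiffAt.comp (g := fun x => (he.homeo hc').symm ((c' q).symm x))
      (f := ta B i (C.π q)) y ?_ (contDiffAt_ta hc h2)
    rw [← h3]
    exact he.sm_symm hc' h1
  refine h4.congr_of_eventuallyEq ?_
  filter_upwards [near_box γ i y h1] with z hz
  obtain ⟨-, h5⟩ := mem_ta hf hz (π_box hβ γ i z)
  unfold rho
  rw [← h5, (c' q).left_inv hz]

include hβ hf in
theorem fi_rho (γ : Γ) (i : I) (y : E n) {q : X} (hq : γ • C.ψ i y ∈ (c' q).source) :
    ta B i (C.π q) =ᶠ[𝓝 y] fun z => fi c' e q (rho hc' he C γ i z) := by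
  filter_upwards [near_box γ i y hq] with z hz
  obtain ⟨-, h5⟩ := mem_ta hf hz (π_box hβ γ i z)
  rw [← h5]
  unfold fi
  rw [e_rho hc' he]

include hc hβ hf in
theorem jac_rho (γ : Γ) (i : I) (y : E n) {q : X} (hq : γ • C.ψ i y ∈ (c' q).source) :
    jac (ta B i (C.π q)) y =
      jac (fi c' e q) (rho hc' he C γ i y) * jac (rho hc' he C γ i) y := by
  rw [jac_ev (fi_rho hβ hf hc' he γ i y hq)]
  exact jac_chain (he.smA hc' (by rw [e_rho hc' he]; exact hq))
    (rho_smooth hc hβ hf hc' he γ i).contDiffAt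

include hc hβ hf in
theorem det_rho (γ : Γ) (i : I) (y : E n) : (jac (rho hc' he C γ i) y).det ≠ 0 := by
  intro h0
  have h1 : γ • C.ψ i y ∈ (c' (γ • C.ψ i y)).source := hf.mem _
  have h2 := jac_rho hc hβ hf hc' he γ i y h1
  have h3 := det_ta hc (mem_ta hf h1 (π_box hβ γ i y)).1
  rw [h2, Matrix.det_mul, h0, mul_zero] at h3
  exact lt_irrefl _ h3

include hc hβ hf hg in
/-- the metric -/
theorem G_rho (γ : Γ) (i : I) (y : E n) : B.G g i y = (jac (rho hc' he C γ i) y)ᵀ *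
    pmet c' (fun q => g (C.π q)) e (rho hc' he C γ i y) * jac (rho hc' he C γ i) y := by
  have h1 : γ • C.ψ i y ∈ (c' (γ • C.ψ i y)).source := hf.mem _
  obtain ⟨h2, h3⟩ := mem_ta hf h1 (π_box hβ γ i y)
  have hg' : J.Met c' fun q => g (C.π q) := H441.Par.met_of_cov hg hf
  have h4 : e (rho hc' he C γ i y) ∈ (c' (γ • C.ψ i y)).source := by rw [e_rho hc' he]; exact h1
  rw [he.pmet_eq hc' hg' h4, G_ta hc hg h2, jac_rho hc hβ hf hc' he γ i y h1]
  have h5 : fi c' e (γ • C.ψ i y) (rho hc' he C γ i y) = ta B i (C.π (γ • C.ψ i y)) y := by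
    unfold fi
    rw [e_rho hc' he, h3]
  rw [h5]
  simp only [Matrix.transpose_mul, Matrix.mul_assoc]

include hc hβ hf hg in
theorem dens_rho (γ : Γ) (i : I) (y : E n) : H.dens (B.G g i) y =
    |(fderiv ℝ (rho hc' he C γ i) y).det| *
      √(pmet c' (fun q => g (C.π q)) e (rho hc' he C γ i y)).det := by
  have h1 : H.dens (B.G g i) y = √(B.G g i y).det := rfl
  rw [h1, G_rho hc hβ hf hg hc' he γ i y, Matrix.det_mul, Matrix.det_mul, Matrix.det_transpose,
    ← Bas2.det_jac (rho_smooth hc hβ hf hc' he γ i).contDiffAt,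
    show (jac (rho hc' he C γ i) y).det *
      (pmet c' (fun q => g (C.π q)) e (rho hc' he C γ i y)).det *
      (jac (rho hc' he C γ i) y).det = (jac (rho hc' he C γ i) y).det ^ 2 *
      (pmet c' (fun q => g (C.π q)) e (rho hc' he C γ i y)).det by ring,
    Real.sqrt_mul (sq_nonneg _), Real.sqrt_sq_eq_abs]

end

end Vale.Agent.P223.H440.NC
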