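import Vale.Agent.P223.H440.NC5
import Vale.Agent.P223.X.Vol

/-! Stage 4: the Sobolev inequality on `X`, from the global chart. -/

namespace Vale.Agent.P223.H440.NC

open scoped ContDiff Topology Matrix ENNReal
open MeasureTheory Vale.Agent.P223.H Vale.Agent.P223.X Filter
open Vale.Agent.P223.H441 (ta mem_ta contDiffAt_ta G_ta det_ta)

section
variable {n : ℕ} {M X Γ I : Type} [TopologicalSpace M] [TopologicalSpace X] [Group Γ]
    [MulAction Γ X] {c : M → J.Ch n M} {B : Box c I} {C : Cov n M X Γ I}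
    {g : M → J.Mtx n} {c' : X → J.Ch n X} {e : J.E n → X}
    [MeasurableSpace X] [BorelSpace X]
  (hc : J.Atl c) (hβ : ∀ i y, C.π (C.ψ i y) = B.β i y) (hf : J.CovAtl c C.π c')
  (hg : J.Met c g) (hc' : J.Atl c') (he : Gl c' e)

/-- the measure, in the global chart -/
noncomputable def mE (G : J.Mtx n) : Measure (E n) :=
  volume.withDensity fun v => ENNReal.ofReal √(G v).det

include hc hβ hf hg hc' he in
theorem volX_map : VolX C (B.G g) ((mE (pmet c' (fun q => g (C.π q)) e)).map e) := by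
  intro γ i S hS
  have hem : MeasurableEmbedding e := (he.homeo hc').measurableEmbedding
  have h1 : MeasurableSet ((fun y => γ • C.ψ i y) '' S) :=
    (Int.measurableEmbedding_chart C γ i).measurableSet_image.2 hS
  rw [hem.map_apply]
  set ρ := rho hc' he C γ i with hρ
  have hρs : ContDiff ℝ ∞ ρ := rho_smooth hc hβ hf hc' he γ i
  have h2 : e ⁻¹' ((fun y => γ • C.ψ i y) '' S) = ρ '' S := by
    ext v
    constructor
    · rintro ⟨y, hy, h⟩
      refine ⟨y, hy, ?_⟩
      simp only at h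
      rw [hρ, rho, h, he.symm_e hc']
    · rintro ⟨y, hy, rfl⟩
      exact ⟨y, hy, (e_rho hc' he γ i y).symm⟩
  have hd : ∀ y ∈ S, HasFDerivWithinAt ρ (fderiv ℝ ρ y) S y := fun y _ =>
    (hρs.differentiable (by simp) y).hasFDerivAt.hasFDerivWithinAt
  have hinj : Set.InjOn ρ S := (rho_inj hc' he γ i).injOn
  have hm : MeasurableSet (ρ '' S) := measurable_image_of_fderivWithin hS hd hinj
  rw [h2, mE, withDensity_apply _ hm,
    lintegral_image_eq_lintegral_abs_det_fderiv_mul volume hS hd hinj]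
  refine setLIntegral_congr_fun hS fun y _ => ?_
  rw [dens_rho hc hβ hf hg hc' he γ i y, ENNReal.ofReal_mul (abs_nonneg _)]

/-- the volume measure is unique -/
theorem volX_unique [Fintype I] [ConnectedSpace X] {G : I → E n → Matrix (Fin n) (Fin n) ℝ}
    {μ ν : Measure X} (hμ : VolX C G μ) (hν : VolX C G ν) : μ = ν := by
  have hΓ : Countable Γ := Vale.Agent.P223.X.Vol.countable_group C
  have h1 : μ.restrict (⋃ a : Γ × I, Set.range fun y => a.1 • C.ψ a.2 y) =
      ν.restrict (⋃ a : Γ × I, Set.range fun y => a.1 • C.ψ a.2 y) := by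
    rw [Measure.restrict_iUnion_congr]
    rintro ⟨γ, i⟩
    refine Measure.ext fun A hA => ?_
    have hem := Int.measurableEmbedding_chart C γ i
    have h2 : A ∩ (Set.range fun y => γ • C.ψ i y) =
        (fun y => γ • C.ψ i y) '' ((fun y => γ • C.ψ i y) ⁻¹' A) := by
      rw [Set.image_preimage_eq_inter_range]
    rw [Measure.restrict_apply hA, Measure.restrict_apply hA]
    simp only
    rw [h2, hμ γ i _ (hem.measurable hA), hν γ i _ (hem.measurable hA)]
  have h3 : (⋃ a : Γ × I, Set.range fun y => a.1 • C.ψ a.2 y) = Set.univ := by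
    refine Set.eq_univ_of_forall fun x => ?_
    obtain ⟨γ, i, y, -, h⟩ := Vale.Agent.P223.X.exists_chart C x
    exact Set.mem_iUnion.2 ⟨(γ, i), y, h⟩
  rwa [h3, Measure.restrict_univ, Measure.restrict_univ] at h1

include hc hβ hf hg hc' he in
theorem int_E [Fintype I] [ConnectedSpace X] {μ : Measure X} (hμ : VolX C (B.G g) μ) (h : X → ℝ) :
    ∫ x, h x ∂μ = ∫ v, h (e v) * √(pmet c' (fun q => g (C.π q)) e v).det := by
  have hem : MeasurableEmbedding e := (he.homeo hc').measurableEmbedding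
  have hg' : J.Met c' fun q => g (C.π q) := H441.Par.met_of_cov hg hf
  rw [volX_unique hμ (volX_map hc hβ hf hg hc' he), hem.integral_map, mE,
    integral_withDensity_eq_integral_toReal_smul]
  · refine integral_congr_ae (Filter.Eventually.of_forall fun v => ?_)
    simp only [smul_eq_mul]
    rw [ENNReal.toReal_ofReal (Real.sqrt_nonneg _), mul_comm]
  · exact (IBP.contDiff_dens (EqX.metT1 (fun i j => he.pmet_smooth hc' hg' i j)
      (he.pmet_pos hc' hg'))).continuous.measurable.ennreal_ofReal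
  · exact Filter.Eventually.of_forall fun v => ENNReal.ofReal_lt_top

include hc hβ hf hc' he in
omit [MeasurableSpace X] [BorelSpace X] in
theorem smooth_comp {u : X → ℝ} (hu : C.Ck ∞ u) : ContDiff ℝ ∞ fun v => u (e v) := by
  rw [contDiff_iff_contDiffAt]
  intro v
  have h1 : e v ∈ (c' (e v)).source := hf.mem _
  have h2 : ContDiffAt ℝ ∞ (fun x => u ((c' (e v)).symm x)) (fi c' e (e v) v) :=
    H691.UY.smAt hc hβ hf hu ((c' (e v)).map_source h1)
  have h3 : ContDiffAt ℝ ∞ (fun w => (fun x => u ((c' (e v)).symm x)) (fi c' e (e v) w)) v :=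
    ContDiffAt.comp (g := fun x => u ((c' (e v)).symm x)) (f := fi c' e (e v)) v h2
      (he.smA hc' h1)
  refine h3.congr_of_eventuallyEq ?_
  filter_upwards [he.near h1] with w hw
  unfold fi
  rw [(c' (e v)).left_inv hw]

include hc hβ hf hg hc' he in
omit [MeasurableSpace X] [BorelSpace X] in
/-- energy density -/
theorem gsq_E {u : X → ℝ} (hu : C.Ck ∞ u) (v : E n) :
    J.gsq (pmet c' (fun q => g (C.π q)) e) (fun v => u (e v)) v = gsX C (B.G g) u (e v) := by
  have h1 : e v ∈ (c' (e v)).source := hf.mem _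
  rw [← H691.UY.gsq_eq hc hβ hg hf hu (e v)]
  have h2 : ContDiffAt ℝ ∞ (fun x => u ((c' (e v)).symm x)) (fi c' e (e v) v) :=
    H691.UY.smAt hc hβ hf hu ((c' (e v)).map_source h1)
  have h3 : (fun w => u (e w)) =ᶠ[𝓝 v]
      fun w => (fun x => u ((c' (e v)).symm x)) (fi c' e (e v) w) := by
    filter_upwards [he.near h1] with w hw
    unfold fi
    rw [(c' (e v)).left_inv hw]
  have h5 : J.gsq (pmet c' (fun q => g (C.π q)) e) (fun v => u (e v)) v =
    gradSq (pmet c' (fun q => g (C.π q)) e) (fun v => u (e v)) v := rfl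
  have h6 : J.gsq (g (C.π (e v))) (fun x => u ((c' (e v)).symm x)) (c' (e v) (e v)) =
    gradSq (g (C.π (e v))) (fun x => u ((c' (e v)).symm x)) (c' (e v) (e v)) := rfl
  have h7 : pmet c' (fun q => g (C.π q)) e v = (jac (fi c' e (e v)) v)ᵀ *
      g (C.π (e v)) (fi c' e (e v) v) * jac (fi c' e (e v)) v := rfl
  have h8 := Bas2.gradSq_comp (G := pmet c' (fun q => g (C.π q)) e) (G' := g (C.π (e v)))
    (he.smA hc' h1) (he.det_jac hc' h1) h7 (h2.differentiableAt (by simp))
  rw [h5, h6, Bas2.gradSq_congr h3, h8]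
  rfl

include hc hβ hf hg hc' he in
/-- STEP T7b -/
theorem sobXW_of_R [Fintype I] [ConnectedSpace X] {μ : Measure X} (hμ : VolX C (B.G g) μ) {y : ℝ}
    (hS : ∀ f : E n → ℝ, ContDiff ℝ 1 f → HasCompactSupport f →
      y * (∫ x, |f x| ^ (2 * (n : ℝ) / (n - 2)) *
        √(pmet c' (fun q => g (C.π q)) e x).det) ^ (((n : ℝ) - 2) / n) ≤
        ∫ x, J.gsq (pmet c' (fun q => g (C.π q)) e) f x *
          √(pmet c' (fun q => g (C.π q)) e x).det) :
    H691.SobXW C (B.G g) μ (fun _ => 0) y := by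
  intro f hfc
  obtain ⟨hf1, hf2⟩ := hfc
  have h1 := hS (fun v => f (e v)) ((smooth_comp hc hβ hf hc' he hf1).of_le (by simp))
    (hf2.comp_homeomorph (he.homeo hc'))
  rw [int_E hc hβ hf hg hc' he hμ, int_E hc hβ hf hg hc' he hμ]
  refine h1.trans (le_of_eq (integral_congr_ae (Filter.Eventually.of_forall fun v => ?_)))
  simp only [gsq_E hc hβ hf hg hc' he hf1 v, zero_mul, add_zero]

end

end Vale.Agent.P223.H440.NC
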