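import Vale.Agent.P223.H440.NC4

/-! Stage 5: local charts `e : ℝ^n ⊇ U → X`. -/

namespace Vale.Agent.P223.H440.NL

open scoped ContDiff Topology Matrix
open Vale.Agent.P223 Vale.Agent.P223.X Filter
open Vale.Agent.P223.H440.NC (fi pmet exists_local_inv exists_equiv det_comp')

variable {n : ℕ} {X : Type} [TopologicalSpace X] {c : X → J.Ch n X} {g : X → J.Mtx n}
  {e : J.E n → X} {U : Set (J.E n)} {a b : X} {v : J.E n}

/-- `e` is a diffeomorphism of `U` onto an open set. -/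
structure Lc (c : X → J.Ch n X) (e : J.E n → X) (U : Set (J.E n)) : Prop where
  isOpen : IsOpen U
  cont : ContinuousOn e U
  inj : Set.InjOn e U
  sm : ∀ v ∈ U, ContDiffAt ℝ ∞ (fun w => c (e v) (e w)) v
  det : ∀ v ∈ U, (fderiv ℝ (fun w => c (e v) (e w)) v).det ≠ 0

namespace Lc

theorem mono (he : Lc c e U) {V : Set (J.E n)} (hV : IsOpen V) (h : V ⊆ U) : Lc c e V :=
  ⟨hV, he.cont.mono h, he.inj.mono h, fun v hv => he.sm v (h hv), fun v hv => he.det v (h hv)⟩

theorem contAt (he : Lc c e U) (hv : v ∈ U) : ContinuousAt e v :=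
  he.cont.continuousAt (he.isOpen.mem_nhds hv)

theorem near (he : Lc c e U) (hv : v ∈ U) (hb : e v ∈ (c b).source) :
    ∀ᶠ w in 𝓝 v, w ∈ U ∧ e w ∈ (c b).source :=
  (he.isOpen.eventually_mem hv).and
    ((he.contAt hv).eventually_mem ((c b).open_source.mem_nhds hb))

theorem ev (he : Lc c e U) (hv : v ∈ U) (a : X) (hb : e v ∈ (c b).source) :
    fi c e a =ᶠ[𝓝 v] fun w => J.cm (c b) (c a) (fi c e b w) := by
  filter_upwards [he.near hv hb] with w hw
  unfold fi J.cm
  rw [(c b).left_inv hw.2]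

theorem smA (hc : J.Atl c) (he : Lc c e U) (hv : v ∈ U) (ha : e v ∈ (c a).source) :
    ContDiffAt ℝ ∞ (fi c e a) v := by
  have h1 : e v ∈ (c (e v)).source := (hc _).1
  refine ContDiffAt.congr_of_eventuallyEq ?_ (he.ev hv a h1)
  exact ContDiffAt.comp (g := J.cm (c (e v)) (c a)) (f := fi c e (e v)) v
    ((((hc (e v)).2 a) _ h1 ha).1) (he.sm v hv)

theorem fd (hc : J.Atl c) (he : Lc c e U) (hv : v ∈ U) (ha : e v ∈ (c a).source)
    (hb : e v ∈ (c b).source) :
    fderiv ℝ (fi c e a) v = (fderiv ℝ (J.cm (c b) (c a)) (c b (e v))).comp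
      (fderiv ℝ (fi c e b) v) := by
  rw [(he.ev hv a hb).fderiv_eq]
  exact fderiv_comp v ((((hc b).2 a) _ hb ha).1.differentiableAt (by simp))
    ((he.smA hc hv hb).differentiableAt (by simp))

theorem detA (hc : J.Atl c) (he : Lc c e U) (hv : v ∈ U) (ha : e v ∈ (c a).source) :
    (fderiv ℝ (fi c e a) v).det ≠ 0 := by
  have h1 : e v ∈ (c (e v)).source := (hc _).1
  rw [he.fd hc hv ha h1, det_comp']
  exact mul_ne_zero (((hc (e v)).2 a) _ h1 ha).2.ne' (he.det v hv)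

theorem map_nhds (hc : J.Atl c) (he : Lc c e U) (hv : v ∈ U) : map e (𝓝 v) = 𝓝 (e v) := by
  have h1 : e v ∈ (c (e v)).source := (hc _).1
  obtain ⟨-, -, -, -, -, h2⟩ := exists_local_inv (he.smA hc hv h1) (he.detA hc hv h1)
  have h3 : map (c (e v)).symm (𝓝 (c (e v) (e v))) = 𝓝 (e v) := by
    have := (c (e v)).symm.map_nhds_eq ((c (e v)).map_source h1)
    rw [(c (e v)).left_inv h1] at this
    exact this
  have h4 : map e (𝓝 v) = map (c (e v)).symm (map (fi c e (e v)) (𝓝 v)) := by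
    rw [map_map]
    refine Filter.map_congr ?_
    filter_upwards [he.near hv h1] with w hw
    exact ((c (e v)).left_inv hw.2).symm
  rw [h4, h2]
  exact h3

theorem isOpen_image (hc : J.Atl c) (he : Lc c e U) {V : Set (J.E n)} (hV : IsOpen V)
    (h : V ⊆ U) : IsOpen (e '' V) := by
  rw [isOpen_iff_mem_nhds]
  rintro _ ⟨v, hv, rfl⟩
  rw [← he.map_nhds hc (h hv)]
  exact image_mem_map (hV.mem_nhds hv)

end Lc

/-- the inverse of `e` -/
noncomputable def iv (e : J.E n → X) (U : Set (J.E n)) : X → J.E n := Function.invFunOn e U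

namespace Lc

theorem iv_e (he : Lc c e U) (hv : v ∈ U) : iv e U (e v) = v :=
  he.inj.leftInvOn_invFunOn hv

theorem iv_mem {p : X} (hp : p ∈ e '' U) : iv e U p ∈ U := Function.invFunOn_mem hp

theorem e_iv {p : X} (hp : p ∈ e '' U) : e (iv e U p) = p := Function.invFunOn_eq hp

theorem cont_iv (hc : J.Atl c) (he : Lc c e U) {p : X} (hp : p ∈ e '' U) :
    ContinuousAt (iv e U) p := by
  obtain ⟨v, hv, rfl⟩ := hp
  rw [ContinuousAt, he.iv_e hv, ← he.map_nhds hc hv, tendsto_map'_iff]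
  refine tendsto_id.congr' ?_
  filter_upwards [he.isOpen.mem_nhds hv] with w hw
  exact (he.iv_e hw).symm

/-- the inverse is smooth -/
theorem sm_iv (hc : J.Atl c) (he : Lc c e U) {a p : X} (hpU : p ∈ e '' U)
    (hp : p ∈ (c a).source) : ContDiffAt ℝ ∞ (fun x => iv e U ((c a).symm x)) (c a p) := by
  obtain ⟨v, hv, rfl⟩ := id hpU
  obtain ⟨K, k1, k2, k3, -, -⟩ := exists_local_inv (he.smA hc hv hp) (he.detA hc hv hp)
  refine k1.congr_of_eventuallyEq ?_
  have h0 : (c a).symm (c a (e v)) = e v := (c a).left_inv hp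
  have h1 : ContinuousAt (fun x => iv e U ((c a).symm x)) (c a (e v)) := by
    refine ContinuousAt.comp (g := iv e U) ?_ ((c a).continuousAt_symm ((c a).map_source hp))
    rw [h0]
    exact he.cont_iv hc hpU
  have h2 : iv e U ((c a).symm (c a (e v))) = v := by rw [h0, he.iv_e hv]
  rw [ContinuousAt, h2] at h1
  have h3 := h1.eventually k3
  have h4 : ∀ᶠ x in 𝓝 (c a (e v)), x ∈ (c a).target :=
    (c a).open_target.mem_nhds ((c a).map_source hp)
  have h5 : ∀ᶠ x in 𝓝 (c a (e v)), (c a).symm x ∈ e '' U := by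
    have h6 : Tendsto (c a).symm (𝓝 (c a (e v))) (𝓝 (e v)) := by
      have := (c a).continuousAt_symm ((c a).map_source hp)
      rwa [ContinuousAt, h0] at this
    exact h6.eventually ((he.isOpen_image hc he.isOpen subset_rfl).mem_nhds hpU)
  filter_upwards [h3, h4, h5] with x hx hx' hx''
  have h5 : fi c e a (iv e U ((c a).symm x)) = x := by
    unfold fi
    rw [e_iv hx'', (c a).right_inv hx']
  rw [h5] at hx
  exact hx.symm

theorem jac_comp (hc : J.Atl c) (he : Lc c e U) (hv : v ∈ U) (ha : e v ∈ (c a).source)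
    (hb : e v ∈ (c b).source) :
    jac (fi c e a) v = jac (J.cm (c b) (c a)) (c b (e v)) * jac (fi c e b) v := by
  ext i j
  rw [RicU.jac_apply ((he.smA hc hv ha).differentiableAt (by simp)), he.fd hc hv ha hb,
    ContinuousLinearMap.comp_apply,
    Bas2.fderiv_eq_mulVec ((((hc b).2 a) _ hb ha).1), Matrix.mul_apply]
  refine Finset.sum_congr rfl fun k _ => ?_
  rw [RicU.jac_apply ((he.smA hc hv hb).differentiableAt (by simp)) k j]

theorem pmet_eq (hc : J.Atl c) (hg : J.Met c g) (he : Lc c e U) (hv : v ∈ U)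
    (ha : e v ∈ (c a).source) :
    pmet c g e v = (jac (fi c e a) v)ᵀ * g a (fi c e a v) * jac (fi c e a) v := by
  have h1 : e v ∈ (c (e v)).source := (hc _).1
  have h2 : c (e v) (e v) ∈ RicU.cd c (e v) a := ⟨(c (e v)).map_source h1, by
    rw [Set.mem_preimage, (c (e v)).left_inv h1]; exact ha⟩
  have h3 := (RicU.chg hc hg (e v) a).compat _ h2
  have h4 : J.cm (c (e v)) (c a) (c (e v) (e v)) = c a (e v) := BoxB.cm_apply _ _ h1
  rw [h4] at h3
  unfold pmet
  rw [he.jac_comp hc hv ha h1]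
  change _ * g (e v) (c (e v) (e v)) * _ = _
  rw [h3]
  simp only [Matrix.transpose_mul, Matrix.mul_assoc]
  rfl

theorem pmet_ev (hc : J.Atl c) (hg : J.Met c g) (he : Lc c e U) (hv : v ∈ U)
    (ha : e v ∈ (c a).source) :
    ∀ᶠ w in 𝓝 v, pmet c g e w = (jac (fi c e a) w)ᵀ * g a (fi c e a w) * jac (fi c e a) w := by
  filter_upwards [he.near hv ha] with w hw using he.pmet_eq hc hg hw.1 hw.2

theorem det_jac (hc : J.Atl c) (he : Lc c e U) (hv : v ∈ U) (ha : e v ∈ (c a).source) :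
    (jac (fi c e a) v).det ≠ 0 := by
  rw [Bas2.det_jac (he.smA hc hv ha)]
  exact he.detA hc hv ha

theorem pmet_pos (hc : J.Atl c) (hg : J.Met c g) (he : Lc c e U) (hv : v ∈ U) :
    (pmet c g e v).PosDef := by
  have h1 : e v ∈ (c (e v)).source := (hc _).1
  have h2 := (hg (e v) _ h1).2.1
  have h3 := he.det_jac hc hv h1
  unfold pmet
  have := h2.conjTranspose_mul_mul_same (B := jac (fi c e (e v)) v)
    (Matrix.mulVec_injective_iff_isUnit.2 ((Matrix.isUnit_iff_isUnit_det _).2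
      (isUnit_iff_ne_zero.2 h3)))
  rwa [Matrix.conjTranspose_eq_transpose_of_trivial] at this

theorem pmet_smooth (hc : J.Atl c) (hg : J.Met c g) (he : Lc c e U) (hv : v ∈ U)
    (i j : Fin n) : ContDiffAt ℝ ∞ (fun v => pmet c g e v i j) v := by
  have h1 : e v ∈ (c (e v)).source := (hc _).1
  have h2 := he.pmet_ev hc hg hv h1
  refine ContDiffAt.congr_of_eventuallyEq (f := fun w =>
    ((jac (fi c e (e v)) w)ᵀ * g (e v) (fi c e (e v) w) * jac (fi c e (e v)) w) i j) ?_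
    (h2.mono fun w hw => congrArg (fun A : Matrix (Fin n) (Fin n) ℝ => A i j) hw)
  simp only [Matrix.mul_apply, Matrix.transpose_apply]
  have h3 := fun k l => sm_jac (he.smA hc hv h1) k l
  refine ContDiffAt.sum fun k _ => ContDiffAt.mul (ContDiffAt.sum fun l _ => ?_) (h3 k j)
  exact ContDiffAt.mul (h3 l i) (ContDiffAt.comp (g := fun x => g (e v) x l k)
    (f := fi c e (e v)) v ((hg (e v) _ h1).1 l k) (he.smA hc hv h1))

theorem metOn (hc : J.Atl c) (hg : J.Met c g) (he : Lc c e U) : IsMetricOn U (pmet c g e) where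
  smooth i j := fun _ hv => (he.pmet_smooth hc hg hv i j).contDiffWithinAt
  posDef _ hv := he.pmet_pos hc hg hv

/-- change of charts -/
theorem tr_smooth (hc : J.Atl c) (he : Lc c e U) {e₂ : J.E n → X} {U₂ : Set (J.E n)}
    (he₂ : Lc c e₂ U₂) (hv : v ∈ U₂) (h : e₂ v ∈ e '' U) :
    ContDiffAt ℝ ∞ (fun w => iv e U (e₂ w)) v := by
  have h3 : e₂ v ∈ (c (e₂ v)).source := (hc _).1
  have h4 : ContDiffAt ℝ ∞ (fun w => iv e U ((c (e₂ v)).symm (fi c e₂ (e₂ v) w))) v :=
    ContDiffAt.comp (g := fun x => iv e U ((c (e₂ v)).symm x))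
      (f := fi c e₂ (e₂ v)) v (he.sm_iv hc h h3) (he₂.smA hc hv h3)
  refine h4.congr_of_eventuallyEq ?_
  filter_upwards [he₂.near hv h3] with w hw
  unfold fi
  rw [(c (e₂ v)).left_inv hw.2]

theorem tr_ev (hc : J.Atl c) (he : Lc c e U) {e₂ : J.E n → X} {U₂ : Set (J.E n)}
    (he₂ : Lc c e₂ U₂) (hv : v ∈ U₂) (h : e₂ v ∈ e '' U) :
    ∀ᶠ w in 𝓝 v, w ∈ U₂ ∧ e₂ w ∈ e '' U :=
  (he₂.isOpen.eventually_mem hv).and ((he₂.contAt hv).eventually_mem
    ((he.isOpen_image hc he.isOpen subset_rfl).mem_nhds h))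

theorem tr_det (hc : J.Atl c) (he : Lc c e U) {e₂ : J.E n → X} {U₂ : Set (J.E n)}
    (he₂ : Lc c e₂ U₂) (hv : v ∈ U₂) (h : e₂ v ∈ e '' U) :
    (fderiv ℝ (fun w => iv e U (e₂ w)) v).det ≠ 0 := by
  set F : J.E n → J.E n := fun w => iv e U (e₂ w) with hF
  set K : J.E n → J.E n := fun w => iv e₂ U₂ (e w) with hK
  have h1 : e (F v) = e₂ v := e_iv h
  have h2 : F v ∈ U := iv_mem h
  have h3 : e (F v) ∈ e₂ '' U₂ := by rw [h1]; exact ⟨v, hv, rfl⟩
  have hFs := he.tr_smooth hc he₂ hv h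
  have hKs : ContDiffAt ℝ ∞ K (F v) := he₂.tr_smooth hc he h2 h3
  have h4 : (fun w => K (F w)) =ᶠ[𝓝 v] id := by
    filter_upwards [he.tr_ev hc he₂ hv h] with w hw
    change iv e₂ U₂ (e (iv e U (e₂ w))) = w
    rw [e_iv hw.2, he₂.iv_e hw.1]
  have h5 : fderiv ℝ (fun v => K (F v)) v = (fderiv ℝ K (F v)).comp (fderiv ℝ F v) :=
    fderiv_comp v (hKs.differentiableAt (by simp)) (hFs.differentiableAt (by simp))
  rw [h4.fderiv_eq, fderiv_id] at h5
  intro h0
  have h6 := congrArg ContinuousLinearMap.det h5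
  rw [det_comp', h0, mul_zero] at h6
  have h7 : (ContinuousLinearMap.id ℝ (J.E n)).det = 1 := LinearMap.det_id
  rw [h7] at h6
  exact one_ne_zero h6

end Lc

end Vale.Agent.P223.H440.NL
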