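import Vale.Agent.P223.H440.NL1

/-! Stage 5: geodesics in a local chart. -/

namespace Vale.Agent.P223.H440.NL

open scoped ContDiff Topology Matrix
open Vale.Agent.P223 Vale.Agent.P223.X Filter
open Vale.Agent.P223.H440.NC (fi pmet exists_local_inv exists_equiv det_comp' deriv_comp_curve)

/-- the geodesic equation of the metric `G` on `ℝ^n` at the time `t` -/
def GE {n : ℕ} (G : J.Mtx n) (x : ℝ → J.E n) (t : ℝ) : Prop :=
  ∀ k, deriv (deriv fun s => x s k) t = -∑ i, ∑ j, christoffel G (x t) k i j *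
    deriv (fun s => x s i) t * deriv (fun s => x s j) t

section reg
variable {n : ℕ} {x : ℝ → J.E n} {t : ℝ}

theorem coord_cd (h : ContDiffAt ℝ ∞ x t) (i : Fin n) : ContDiffAt ℝ ∞ (fun s => x s i) t :=
  (contDiffAt_pi.1 h) i

theorem diff_ev {F : Type} [NormedAddCommGroup F] [NormedSpace ℝ F] {x : ℝ → F}
    (h : ContDiffAt ℝ ∞ x t) : ∀ᶠ s in 𝓝 t, DifferentiableAt ℝ x s := by
  have h1 : ContDiffAt ℝ 1 x t := h.of_le (by simp)
  filter_upwards [h1.eventually (by simp)] with s hs
  exact hs.differentiableAt (by simp)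

theorem hasDeriv1 (h : ContDiffAt ℝ ∞ x t) (i : Fin n) :
    HasDerivAt (fun s => x s i) (deriv (fun s => x s i) t) t :=
  ((coord_cd h i).differentiableAt (by simp)).hasDerivAt

theorem hasDeriv2 (h : ContDiffAt ℝ ∞ x t) (i : Fin n) :
    HasDerivAt (deriv fun s => x s i) (deriv (deriv fun s => x s i) t) t := by
  have h1 : ContDiffAt ℝ ∞ (fderiv ℝ fun s => x s i) t :=
    (coord_cd h i).fderiv_right (m := ∞) (by simp)
  have h2 : ContDiffAt ℝ ∞ (fun s => fderiv ℝ (fun s => x s i) s 1) t :=
    h1.clm_apply contDiffAt_const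
  have h3 : (fun s => fderiv ℝ (fun s => x s i) s 1) = deriv fun s => x s i := by
    funext s
    exact fderiv_apply_one_eq_deriv
  rw [h3] at h2
  exact (h2.differentiableAt (by simp)).hasDerivAt

end reg

variable {n : ℕ} {X : Type} [TopologicalSpace X] {c : X → J.Ch n X} {g : X → J.Mtx n}
  {e : J.E n → X} {U : Set (J.E n)} {γ : ℝ → X} {t : ℝ}

/-- a curve in a local chart -/
theorem cd_curve (hc : J.Atl c) (he : Lc c e U) (hγ : ContinuousAt γ t) (hU : γ t ∈ e '' U)
    (h : ContDiffAt ℝ ∞ (fun s => c (γ t) (γ s)) t) :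
    ContDiffAt ℝ ∞ (fun s => iv e U (γ s)) t := by
  have h1 : γ t ∈ (c (γ t)).source := (hc _).1
  have h2 : ∀ᶠ s in 𝓝 t, γ s ∈ (c (γ t)).source :=
    hγ.eventually_mem ((c (γ t)).open_source.mem_nhds h1)
  have h3 : ContDiffAt ℝ ∞ (fun s => iv e U ((c (γ t)).symm (c (γ t) (γ s)))) t :=
    ContDiffAt.comp (g := fun x => iv e U ((c (γ t)).symm x))
      (f := fun s => c (γ t) (γ s)) t (he.sm_iv hc hU h1) h
  refine h3.congr_of_eventuallyEq ?_
  filter_upwards [h2] with s hs
  rw [(c (γ t)).left_inv hs]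

/-- geodesics in a local chart -/
theorem ge_of_geo (hc : J.Atl c) (hg : J.Met c g) (he : Lc c e U) (hγ : ContinuousAt γ t)
    (hU : γ t ∈ e '' U) (hs : ContDiffAt ℝ ∞ (fun s => c (γ t) (γ s)) t)
    (hgeo : ∀ k, deriv (deriv fun s => c (γ t) (γ s) k) t =
      -∑ i, ∑ j, J.chr (g (γ t)) (c (γ t) (γ t)) k i j *
        deriv (fun s => c (γ t) (γ s) i) t * deriv (fun s => c (γ t) (γ s) j) t) :
    GE (pmet c g e) (fun s => iv e U (γ s)) t := by
  set x : ℝ → J.E n := fun s => iv e U (γ s) with hx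
  have hxs : ContDiffAt ℝ ∞ x t := cd_curve hc he hγ hU hs
  have hUn : ∀ᶠ s in 𝓝 t, γ s ∈ e '' U :=
    hγ.eventually_mem ((he.isOpen_image hc he.isOpen subset_rfl).mem_nhds hU)
  obtain ⟨a, ha⟩ : ∃ a, a = γ t := ⟨_, rfl⟩
  rw [← ha] at hs hgeo
  have h1 : γ t ∈ (c a).source := by rw [ha]; exact (hc _).1
  have hxU : x t ∈ U := Lc.iv_mem hU
  have hex : e (x t) = γ t := Lc.e_iv hU
  have h1' : e (x t) ∈ (c a).source := by rw [hex]; exact h1
  set φ := fi c e a with hφ
  have hφx : ∀ᶠ s in 𝓝 t, φ (x s) = c a (γ s) := by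
    filter_upwards [hUn] with s hs
    rw [hφ, fi]
    exact congrArg (c a) (Lc.e_iv hs)
  have hφt : φ (x t) = c a (γ t) := hφx.self_of_nhds
  have hφs : ContDiffAt ℝ ∞ φ (x t) := he.smA hc hxU h1'
  have hφn : ∀ᶠ s in 𝓝 t, ContDiffAt ℝ ∞ φ (x s) := by
    have h2 : ∀ᶠ s in 𝓝 t, γ s ∈ (c a).source :=
      hγ.eventually_mem ((c a).open_source.mem_nhds h1)
    filter_upwards [h2, hUn] with s hs hs'
    exact he.smA hc (Lc.iv_mem hs') (by rw [hx]; simp only; rw [Lc.e_iv hs']; exact hs)
  have hM := he.metOn hc hg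
  have hxd : ∀ᶠ s in 𝓝 t, DifferentiableAt ℝ x s := diff_ev hxs
  set v : J.E n := fun i => deriv (fun s => x s i) t with hv
  set w : J.E n := fun i => deriv (deriv fun s => x s i) t with hw
  -- the first derivatives
  have hy1 : ∀ d, ∀ᶠ s in 𝓝 t, deriv (fun s => c a (γ s) d) s =
      ∑ b, jac φ (x s) d b * deriv (fun s => x s b) s := by
    intro d
    filter_upwards [hφn, hxd, hφx.eventually_nhds] with s hs hs' hs''
    have h2 : DifferentiableAt ℝ (fun z => φ z d) (x s) :=
      (sm_comp_coord hs d).diff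
    have h3 := (deriv_comp_curve h2 hs').deriv
    have h4 : (fun s => φ (x s) d) =ᶠ[𝓝 s] fun s => c a (γ s) d :=
      hs''.mono fun r hr => congrFun hr d
    rw [h4.deriv_eq] at h3
    rw [h3]
    rfl
  -- the second derivatives
  have hy2 : ∀ d, deriv (deriv fun s => c a (γ s) d) t =
      ∑ b, ((∑ i, hes φ (x t) d i b * v i) * v b + jac φ (x t) d b * w b) := by
    intro d
    have h2 : deriv (fun s => c a (γ s) d) =ᶠ[𝓝 t]
        fun s => ∑ b, jac φ (x s) d b * deriv (fun s => x s b) s := hy1 d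
    rw [h2.deriv_eq]
    refine HasDerivAt.deriv ?_
    refine HasDerivAt.fun_sum fun b _ => ?_
    exact (deriv_comp_curve (sm_jac hφs d b).diff hxd.self_of_nhds).mul (hasDeriv2 hxs b)
  have hv1 : ∀ d, deriv (fun s => c a (γ s) d) t = ∑ b, jac φ (x t) d b * v b := fun d =>
    (hy1 d).self_of_nhds
  -- Christoffel symbols
  have hct : ∀ d i j, (∑ k, jac φ (x t) d k * christoffel (pmet c g e) (x t) k i j) =
      (∑ k, ∑ l, jac φ (x t) k i * jac φ (x t) l j * christoffel (g a) (φ (x t)) d k l) +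
        hes φ (x t) d i j := fun d i j =>
    christoffel_trans hM hxU (RicU.met_on hg a) (c a).open_target
      (by rw [hφt]; exact (c a).map_source h1) hφs (he.pmet_ev hc hg hxU h1') d i j
  have key : ∀ d, ∑ k, jac φ (x t) d k *
      (w k + ∑ i, ∑ j, christoffel (pmet c g e) (x t) k i j * v i * v j) = 0 := by
    intro d
    have e1 : ∑ k, jac φ (x t) d k * ∑ i, ∑ j, christoffel (pmet c g e) (x t) k i j * v i * v j =
        ∑ i, ∑ j, (∑ k, jac φ (x t) d k * christoffel (pmet c g e) (x t) k i j) * v i * v j := by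
      simp only [Finset.mul_sum, Finset.sum_mul]
      rw [Finset.sum_comm]
      refine Finset.sum_congr rfl fun i _ => ?_
      rw [Finset.sum_comm]
      refine Finset.sum_congr rfl fun j _ => Finset.sum_congr rfl fun k _ => ?_
      ring
    have e2 : ∑ i, ∑ j, (∑ k, ∑ l, jac φ (x t) k i * jac φ (x t) l j *
        christoffel (g a) (φ (x t)) d k l) * v i * v j =
        ∑ k, ∑ l, christoffel (g a) (φ (x t)) d k l * (∑ i, jac φ (x t) k i * v i) *
          ∑ j, jac φ (x t) l j * v j := by
      simp only [Finset.mul_sum, Finset.sum_mul]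
      calc _ = ∑ i, ∑ k, ∑ l, ∑ j, jac φ (x t) k i * jac φ (x t) l j *
            christoffel (g a) (φ (x t)) d k l * v i * v j := by
            refine Finset.sum_congr rfl fun i _ => ?_
            rw [Finset.sum_comm]
            refine Finset.sum_congr rfl fun k _ => ?_
            rw [Finset.sum_comm]
        _ = ∑ k, ∑ l, ∑ i, ∑ j, jac φ (x t) k i * jac φ (x t) l j *
            christoffel (g a) (φ (x t)) d k l * v i * v j := by
            rw [Finset.sum_comm]
            refine Finset.sum_congr rfl fun k _ => ?_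
            rw [Finset.sum_comm]
        _ = _ := by
            refine Finset.sum_congr rfl fun k _ => Finset.sum_congr rfl fun l _ => ?_
            rw [Finset.sum_comm]
            refine Finset.sum_congr rfl fun i _ => Finset.sum_congr rfl fun j _ => ?_
            ring
    have e3 : deriv (deriv fun s => c a (γ s) d) t =
      -∑ i, ∑ j, christoffel (g a) (c a (γ t)) d i j *
        deriv (fun s => c a (γ s) i) t * deriv (fun s => c a (γ s) j) t := by
      have := hgeo d
      rw [ha] at this ⊢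
      exact this
    rw [hy2 d] at e3
    simp only [hv1] at e3
    rw [← hφt] at e3
    have e5 : ∑ k, jac φ (x t) d k *
        (w k + ∑ i, ∑ j, christoffel (pmet c g e) (x t) k i j * v i * v j) =
        ∑ k, jac φ (x t) d k * w k + ∑ k, jac φ (x t) d k *
          ∑ i, ∑ j, christoffel (pmet c g e) (x t) k i j * v i * v j := by
      rw [← Finset.sum_add_distrib]
      refine Finset.sum_congr rfl fun k _ => ?_
      ring
    have e6 : ∑ i, ∑ j, ((∑ k, ∑ l, jac φ (x t) k i * jac φ (x t) l j *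
        christoffel (g a) (φ (x t)) d k l) + hes φ (x t) d i j) * v i * v j =
        (∑ i, ∑ j, (∑ k, ∑ l, jac φ (x t) k i * jac φ (x t) l j *
        christoffel (g a) (φ (x t)) d k l) * v i * v j) +
        ∑ i, ∑ j, hes φ (x t) d i j * v i * v j := by
      rw [← Finset.sum_add_distrib]
      refine Finset.sum_congr rfl fun i _ => ?_
      rw [← Finset.sum_add_distrib]
      refine Finset.sum_congr rfl fun j _ => ?_
      ring
    rw [e5, e1]
    simp only [hct]
    rw [e6, e2]
    rw [Finset.sum_add_distrib] at e3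
    have e4 : ∑ b, (∑ i, hes φ (x t) d i b * v i) * v b =
        ∑ i, ∑ j, hes φ (x t) d i j * v i * v j := by
      simp only [Finset.sum_mul]
      rw [Finset.sum_comm]
    rw [e4] at e3
    linarith
  have hdet : (jac φ (x t)).det ≠ 0 := he.det_jac hc hxU h1'
  have hz := Matrix.eq_zero_of_mulVec_eq_zero hdet (v := fun k => w k +
    ∑ i, ∑ j, christoffel (pmet c g e) (x t) k i j * v i * v j) (funext key)
  intro k
  have := congrFun hz k
  simp only [Pi.zero_apply] at this
  change w k = -∑ i, ∑ j, christoffel (pmet c g e) (x t) k i j * v i * v j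
  linarith

end Vale.Agent.P223.H440.NL
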