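import Vale.Agent.P223.H440.NL3

/-! Stage 5: the geodesic flow near a point, in the exponential chart. -/

namespace Vale.Agent.P223.H440.NL

open scoped ContDiff Topology Matrix
open Vale.Agent.P223 Vale.Agent.P223.X Filter Set
open Vale.Agent.P223.H440.NC (mom inv_mom exists_equiv det_comp')
open Vale.Agent.P223.H765.NC (hv ham)

/-- `T q` is the exponential map at `q`, `N q` the norm of the tangent space at `q`. -/
structure LG {n : ℕ} (G : J.Mtx n) (Ω : Set (J.E n)) (N : J.E n → J.E n → ℝ) (a b : ℝ)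
    (T : J.E n → J.E n → J.E n) : Prop where
  smooth : ∀ i j, ContDiff ℝ ∞ fun y => G y i j
  pos : ∀ y, (G y).PosDef
  bpos : 0 < b
  lt : b < a
  nonneg : ∀ q ∈ Ω, ∀ w, 0 ≤ N q w
  cont : ∀ q ∈ Ω, Continuous (N q)
  homog : ∀ q ∈ Ω, ∀ (t : ℝ) w, N q (t • w) = |t| * N q w
  zero : ∀ q ∈ Ω, T q 0 = q
  sm : ∀ q ∈ Ω, ∀ w, N q w < a → ContDiffAt ℝ ∞ (T q) w
  det : ∀ q ∈ Ω, ∀ w, N q w < a → (fderiv ℝ (T q) w).det ≠ 0
  inj : ∀ q ∈ Ω, InjOn (T q) {w | N q w < a}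
  geo : ∀ q ∈ Ω, ∀ w (t : ℝ), N q (t • w) < a → GE G (fun s => T q (s • w)) t
  far : ∀ q ∈ Ω, ∀ w, N q w < a → T q w ∈ Ω → N q w < b
  iso : ∀ q ∈ Ω, ∀ w, J.bil (G q) (fderiv ℝ (T q) 0 w) (fderiv ℝ (T q) 0 w) = N q w ^ 2

variable {n : ℕ} {G : J.Mtx n} {Ω : Set (J.E n)} {N : J.E n → J.E n → ℝ} {a b : ℝ}
  {T : J.E n → J.E n → J.E n} {Φ : ℝ → J.E n × J.E n → J.E n × J.E n}

theorem LG.N0 (h : LG G Ω N a b T) {q : J.E n} (hq : q ∈ Ω) : N q 0 = 0 := by
  have := h.homog q hq 0 0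
  rwa [smul_zero, abs_zero, zero_mul] at this

theorem LG.apos (h : LG G Ω N a b T) : 0 < a := h.bpos.trans h.lt

theorem line_cd (h : LG G Ω N a b T) {q w : J.E n} (hq : q ∈ Ω) {t : ℝ}
    (ht : N q (t • w) < a) : ContDiffAt ℝ ∞ (fun s : ℝ => T q (s • w)) t := by
  refine ContDiffAt.comp (g := T q) (f := fun s : ℝ => s • w) t (h.sm q hq _ ht) ?_
  exact (contDiff_id.smul contDiff_const).contDiffAt

/-- the flow in terms of the exponential maps -/
theorem flow_eq (h : LG G Ω N a b T) (h0 : ∀ z, Φ 0 z = z)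
    (hd : ∀ t z, HasDerivAt (fun s => Φ s z) (hv G (Φ t z)) t) {q : J.E n}
    (hq : q ∈ Ω) : ∃ V : J.E n →L[ℝ] J.E n, V.det ≠ 0 ∧ Function.Injective V ∧
      (∀ p t, N q (t • V p) < a →
        Φ t (q, p) = (T q (t • V p), mom G (fun s => T q (s • V p)) t)) ∧
      ∀ p, fderiv ℝ (T q) 0 (V p) = (G q)⁻¹ *ᵥ p := by
  have hb0 : N q 0 < a := by rw [h.N0 hq]; exact h.apos
  obtain ⟨L, hL⟩ := exists_equiv (h.det q hq 0 hb0)
  set V : J.E n →L[ℝ] J.E n :=
    (L.symm : J.E n →L[ℝ] J.E n).comp (Matrix.toLin' (G q)⁻¹).toContinuousLinearMap with hV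
  have hVdet : V.det ≠ 0 := by
    rw [hV, det_comp']
    refine mul_ne_zero ?_ ?_
    · intro h0
      have h1 := det_comp' (L : J.E n →L[ℝ] J.E n) (L.symm : J.E n →L[ℝ] J.E n)
      rw [h0, mul_zero, ContinuousLinearEquiv.coe_comp_coe_symm] at h1
      have h4 : (ContinuousLinearMap.id ℝ (J.E n)).det = 1 := LinearMap.det_id
      rw [h4] at h1
      exact one_ne_zero h1
    · change LinearMap.det (Matrix.toLin' (G q)⁻¹) ≠ 0
      rw [LinearMap.det_toLin']
      exact (h.pos q).inv.det_pos.ne'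
  have hVinj : Function.Injective V := by
    obtain ⟨L', hL'⟩ := exists_equiv hVdet
    rw [← hL']
    exact L'.injective
  have hLV : ∀ p, fderiv ℝ (T q) 0 (V p) = (G q)⁻¹ *ᵥ p := by
    intro p
    rw [← hL]
    simp [hV]
  refine ⟨V, hVdet, hVinj, fun p t ht => ?_, hLV⟩
  have hF1 : ContDiff ℝ 1 (hv G) := contDiff_infty.1 (H316.hv_smooth h.smooth h.pos) 1
  have hLw := hLV p
  set w := V p with hw
  -- the interval
  obtain ⟨r, hr0, hrt, hr⟩ : ∃ r : ℝ, 0 < r ∧ |t| < r ∧ ∀ s : ℝ, |s| < r → N q (s • w) < a := by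
    rw [h.homog q hq] at ht
    rcases (h.nonneg q hq w).eq_or_lt with h1 | h1
    · refine ⟨|t| + 1, by positivity, by linarith, fun s _ => ?_⟩
      rw [h.homog q hq, ← h1, mul_zero]; exact h.apos
    · have ha := h.apos
      refine ⟨a / N q w, by positivity, by rwa [lt_div_iff₀ h1], fun s hs => ?_⟩
      rw [h.homog q hq]
      rwa [lt_div_iff₀ h1] at hs
  have h1 := sol_unique_Ioo hF1 (f := fun s => Φ s (q, p))
    (g := fun s => (T q (s • w), mom G (fun s => T q (s • w)) s)) (α := -r) (β := r)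
    ⟨by linarith, hr0⟩ (fun s _ => hd s _) (fun s hs => ?_) ?_ t
    ⟨(abs_lt.1 hrt).1, (abs_lt.1 hrt).2⟩
  · exact h1
  · have hs' := hr s (abs_lt.2 hs)
    exact hamilton_at h.smooth h.pos (line_cd h hq hs') (h.geo q hq w s hs')
  · simp only [h0, zero_smul, h.zero q hq, Prod.mk.injEq, true_and]
    have h1 : HasDerivAt (fun s : ℝ => T q (s • w)) (fderiv ℝ (T q) 0 w) 0 := by
      have h2 : HasDerivAt (fun s : ℝ => s • w) w 0 := by
        simpa using (hasDerivAt_id (0 : ℝ)).smul_const w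
      have h3 : HasFDerivAt (T q) (fderiv ℝ (T q) 0) ((0 : ℝ) • w) := by
        rw [zero_smul]
        exact ((h.sm q hq 0 hb0).differentiableAt (by simp)).hasFDerivAt
      exact h3.comp_hasDerivAt (0 : ℝ) h2
    rw [hLw] at h1
    have h5 : ∀ j, deriv (fun s : ℝ => T q (s • w) j) 0 = ((G q)⁻¹ *ᵥ p) j := fun j =>
      ((hasDerivAt_pi.1 h1) j).deriv
    funext k
    unfold mom
    simp only [zero_smul, h.zero q hq, h5]
    have h6 : G q *ᵥ ((G q)⁻¹ *ᵥ p) = p := by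
      rw [Matrix.mulVec_mulVec, Matrix.mul_nonsing_inv _ (h.pos q).det_pos.ne'.isUnit,
        Matrix.one_mulVec]
    exact (congrFun h6 k).symm

/-- segments in a small ball are short -/
theorem short (h : LG G Ω N a b T) {q : J.E n} {V : J.E n →L[ℝ] J.E n}
    (hV : ∀ p t, N q (t • V p) < a →
        Φ t (q, p) = (T q (t • V p), mom G (fun s => T q (s • V p)) t))
    (hq : q ∈ Ω) {p : J.E n} {t : ℝ} (ht : 0 ≤ t)
    (hseg : ∀ s ∈ Icc 0 t, (Φ s (q, p)).1 ∈ Ω) : N q (t • V p) < b := by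
  have hstep : ∀ s ∈ Icc 0 t, N q (s • V p) < a → N q (s • V p) < b := by
    intro s hs h1
    have h2 := hseg s hs
    rw [hV p s h1] at h2
    exact h.far q hq _ h1 h2
  by_contra hcon
  push Not at hcon
  rw [h.homog q hq, abs_of_nonneg ht] at hcon
  have hb := h.bpos
  have hVp : 0 < N q (V p) := by
    rcases (h.nonneg q hq (V p)).eq_or_lt with h6 | h6
    · rw [← h6, mul_zero] at hcon
      linarith
    · exact h6
  set r := b / N q (V p) with hr
  have hr0 : 0 < r := div_pos hb hVp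
  have hrt : r ≤ t := by rw [hr, div_le_iff₀ hVp]; exact hcon
  have h6 : N q (r • V p) = b := by
    rw [h.homog q hq, abs_of_pos hr0, hr, div_mul_cancel₀ _ hVp.ne']
  have h7 := hstep r ⟨hr0.le, hrt⟩ (by rw [h6]; exact h.lt)
  rw [h6] at h7
  exact lt_irrefl _ h7

end Vale.Agent.P223.H440.NL
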