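import Vale.Agent.P223.H440.NL4
import Vale.Agent.P223.H566.NV

/-! Stage 5: geodesic segments in a small ball. -/

namespace Vale.Agent.P223.H440.NL

open scoped ContDiff Topology Matrix
open Vale.Agent.P223 Vale.Agent.P223.X Filter Set
open Vale.Agent.P223.H440.NC (mom inv_mom exists_equiv det_comp')
open Vale.Agent.P223.H765.NC (hv ham)

section bil
variable {n : ℕ}

theorem bil_dot (A : Matrix (Fin n) (Fin n) ℝ) (v w : J.E n) : J.bil A v w = v ⬝ᵥ A *ᵥ w := by
  unfold J.bil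
  simp only [dotProduct, Matrix.mulVec, Finset.mul_sum]
  refine Finset.sum_congr rfl fun i _ => Finset.sum_congr rfl fun j _ => ?_
  ring

theorem bil_smul' (A : Matrix (Fin n) (Fin n) ℝ) (t : ℝ) (v : J.E n) :
    J.bil A (t • v) (t • v) = t ^ 2 * J.bil A v v := by
  simp only [bil_dot, Matrix.mulVec_smul, dotProduct_smul, smul_dotProduct, smul_eq_mul]
  ring

theorem bil_pos {A : Matrix (Fin n) (Fin n) ℝ} (hA : A.PosDef) {v : J.E n} (hv : v ≠ 0) :
    0 < J.bil A v v := by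
  rw [bil_dot]
  have := hA.dotProduct_mulVec_pos hv
  simpa using this

theorem bil_nonneg {A : Matrix (Fin n) (Fin n) ℝ} (hA : A.PosDef) (v : J.E n) :
    0 ≤ J.bil A v v := by
  rcases eq_or_ne v 0 with rfl | h
  · rw [bil_dot]; simp
  · exact (bil_pos hA h).le

theorem continuous_bil (A : Matrix (Fin n) (Fin n) ℝ) : Continuous fun v : J.E n => J.bil A v v := by
  unfold J.bil
  fun_prop

theorem sqrt_bil_smul (A : Matrix (Fin n) (Fin n) ℝ) (t : ℝ) (v : J.E n) :
    √(J.bil A (t • v) (t • v)) = |t| * √(J.bil A v v) := by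
  rw [bil_smul', Real.sqrt_mul (sq_nonneg _), Real.sqrt_sq_eq_abs]

theorem qlow {A : Matrix (Fin n) (Fin n) ℝ} (hA : A.PosDef) :
    ∃ δ : ℝ, 0 < δ ∧ ∀ v : J.E n, δ * ‖v‖ ^ 2 ≤ J.bil A v v := by
  have hc := continuous_bil A
  have hmem : ∀ v : J.E n, v ≠ 0 → ‖v‖⁻¹ • v ∈ Metric.sphere (0 : J.E n) 1 := by
    intro v hv
    rw [mem_sphere_zero_iff_norm, norm_smul, norm_inv, norm_norm, inv_mul_cancel₀]
    exact norm_ne_zero_iff.2 hv
  rcases (Metric.sphere (0 : J.E n) 1).eq_empty_or_nonempty with h | h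
  · refine ⟨1, one_pos, fun v => ?_⟩
    have : v = 0 := by
      by_contra hv
      have := hmem v hv
      rw [h] at this
      exact this
    rw [this, norm_zero]
    have := bil_nonneg hA (0 : J.E n)
    simpa using this
  · obtain ⟨v0, hv0, hmin⟩ := (isCompact_sphere (0 : J.E n) 1).exists_isMinOn h hc.continuousOn
    have hv00 : v0 ≠ 0 := by
      rintro rfl
      simp at hv0
    refine ⟨J.bil A v0 v0, bil_pos hA hv00, fun v => ?_⟩
    rcases eq_or_ne v 0 with rfl | hv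
    · rw [norm_zero]
      have := bil_nonneg hA (0 : J.E n)
      simpa using this
    · have h1 : J.bil A v0 v0 ≤ J.bil A (‖v‖⁻¹ • v) (‖v‖⁻¹ • v) := hmin (hmem v hv)
      rw [bil_smul'] at h1
      have h2 : 0 < ‖v‖ := norm_pos_iff.2 hv
      calc J.bil A v0 v0 * ‖v‖ ^ 2 ≤ (‖v‖⁻¹ ^ 2 * J.bil A v v) * ‖v‖ ^ 2 := by gcongr
        _ = J.bil A v v := by field_simp

theorem bdd_ball {A : Matrix (Fin n) (Fin n) ℝ} (hA : A.PosDef) (R : ℝ) :
    Bornology.IsBounded {w : J.E n | √(J.bil A w w) ≤ R} := by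
  obtain ⟨δ, hδ, h⟩ := qlow hA
  rw [isBounded_iff_forall_norm_le]
  refine ⟨√(R ^ 2 / δ), fun w hw => ?_⟩
  have hw' : √(J.bil A w w) ≤ R := hw
  have h1 : J.bil A w w ≤ R ^ 2 := by
    have h2 := Real.sq_sqrt (bil_nonneg hA w)
    rw [← h2]
    have h3 := Real.sqrt_nonneg (J.bil A w w)
    gcongr
  refine Real.le_sqrt_of_sq_le ?_
  rw [le_div_iff₀ hδ]
  linarith [h w]

theorem ham2 {G : J.Mtx n} {q : J.E n} (hp : (G q).PosDef) (p : J.E n) :
    2 * ham G (q, p) = J.bil (G q) ((G q)⁻¹ *ᵥ p) ((G q)⁻¹ *ᵥ p) := by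
  rw [bil_dot, Matrix.mulVec_mulVec, Matrix.mul_nonsing_inv _ hp.det_pos.ne'.isUnit,
    Matrix.one_mulVec]
  unfold ham
  simp only [dotProduct, Matrix.mulVec, Finset.sum_mul]
  rw [← mul_assoc]
  norm_num
  refine Finset.sum_congr rfl fun i _ => Finset.sum_congr rfl fun j _ => ?_
  ring

end bil

variable {n : ℕ} {G : J.Mtx n} {Ω : Set (J.E n)} {N : J.E n → J.E n → ℝ} {a b : ℝ}
  {T : J.E n → J.E n → J.E n} {Φ : ℝ → J.E n × J.E n → J.E n × J.E n}

theorem geoL (h : LG G Ω N a b T) (hO : IsOpen Ω) (hB : Bornology.IsBounded Ω)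
    (h0 : ∀ z, Φ 0 z = z) (hd : ∀ t z, HasDerivAt (fun s => Φ s z) (hv G (Φ t z)) t) :
    H566.NV.GeoL G Φ Ω := by
  have hq0 : ∀ {q p t}, 0 ≤ t → H566.NV.Seg Φ Ω t (q, p) → q ∈ Ω := by
    intro q p t ht hs
    have := hs 0 ⟨le_rfl, ht⟩
    rwa [h0] at this
  refine ⟨⟨h.smooth, h.pos, h0, hd⟩, hO, hB, ?_, ?_, ?_⟩
  · intro q p p' hp hp' he
    have hq := hq0 zero_le_one hp
    obtain ⟨V, -, hVi, hV, -⟩ := flow_eq h h0 hd hq
    have h1 := short h hV hq zero_le_one hp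
    have h2 := short h hV hq zero_le_one hp'
    have h1a := h1.trans h.lt
    have h2a := h2.trans h.lt
    rw [hV p 1 h1a, hV p' 1 h2a] at he
    have h3 := h.inj q hq h1a h2a he
    rw [one_smul, one_smul] at h3
    exact hVi h3
  · intro q p hp
    have hq := hq0 zero_le_one hp
    obtain ⟨V, hVd, hVi, hV, -⟩ := flow_eq h h0 hd hq
    have h1 := short h hV hq zero_le_one hp
    have h1a := h1.trans h.lt
    rw [one_smul] at h1a
    have h4 : ∀ᶠ p' in 𝓝 p, N q (V p') < a :=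
      ((h.cont q hq).comp V.continuous).continuousAt.eventually_lt continuousAt_const h1a
    have h5 : (fun p => (Φ 1 (q, p)).1) =ᶠ[𝓝 p] fun p => T q (V p) := by
      filter_upwards [h4] with p' hp'
      rw [hV p' 1 (by rwa [one_smul]), one_smul]
    rw [h5.fderiv_eq]
    have h6 : fderiv ℝ (fun p => T q (V p)) p = (fderiv ℝ (T q) (V p)).comp V := by
      have h7 := fderiv_comp p (f := fun p => V p) (g := T q)
        ((h.sm q hq _ h1a).differentiableAt (by simp)) V.differentiableAt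
      rw [ContinuousLinearMap.fderiv] at h7
      exact h7
    rw [h6, det_comp']
    exact mul_ne_zero (h.det q hq _ h1a) hVd
  · refine ⟨2 * b, fun z hz t ht => ?_⟩
    obtain ⟨q, p⟩ := z
    by_contra hcon
    push Not at hcon
    have hb := h.bpos
    have ht0 : 0 ≤ t := by linarith
    have hq := hq0 ht0 ht
    obtain ⟨V, -, -, hV, hLV⟩ := flow_eq h h0 hd hq
    have h1 := short h hV hq ht0 ht
    rw [h.homog q hq, abs_of_nonneg ht0] at h1
    have h2 := h.iso q hq (V p)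
    rw [hLV, ← ham2 (h.pos q) p] at h2
    rw [h2] at hz
    have h3 := h.nonneg q hq (V p)
    have h4 : 1 / 2 ≤ N q (V p) := by nlinarith
    nlinarith

end Vale.Agent.P223.H440.NL
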