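import Vale.Agent.P223.H440.NL5
import Vale.Agent.P223.H316.Cpl2

/-! Stage 5: BLOCK V4, segments in a small ball of the exponential chart. -/

namespace Vale.Agent.P223.H440.NL

open scoped ContDiff Topology Matrix ENNReal
open Vale.Agent.P223 Vale.Agent.P223.X Filter Set
open Vale.Agent.P223.H440.NC (fi pmet mom inv_mom exists_equiv det_comp')
open Vale.Agent.P223.H765.NC (hv ham)
open Vale.Agent.P223.H566.NV (Exp nrm dst bal pul GeoL)

section dst
variable {n : ℕ} {X : Type} [TopologicalSpace X] {c : X → J.Ch n X} {g : X → J.Mtx n}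

theorem dst_comm (x y : X) : dst c g x y = dst c g y x := by
  unfold dst
  simp only [abs_sub_comm]

theorem dst_tri (x y z : X) : dst c g x z ≤ dst c g x y + dst c g y z := by
  unfold dst
  refine iSup_le fun u => iSup_le fun hu => ?_
  have h1 : ENNReal.ofReal |u x - u z| ≤ ENNReal.ofReal |u x - u y| + ENNReal.ofReal |u y - u z| := by
    rw [← ENNReal.ofReal_add (abs_nonneg _) (abs_nonneg _)]
    refine ENNReal.ofReal_le_ofReal ?_
    exact abs_sub_le _ _ _
  refine h1.trans (add_le_add ?_ ?_)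
  · exact le_iSup₂_of_le (f := fun (u : X → ℝ) (_ : J.Lip1 c g u) => ENNReal.ofReal |u x - u y|)
      u hu le_rfl
  · exact le_iSup₂_of_le (f := fun (u : X → ℝ) (_ : J.Lip1 c g u) => ENNReal.ofReal |u y - u z|)
      u hu le_rfl

theorem lip_dst {r : X → ℝ} (hr : J.Lip1 c g r) (x y : X) :
    ENNReal.ofReal |r x - r y| ≤ dst c g x y :=
  le_iSup₂_of_le (f := fun (u : X → ℝ) (_ : J.Lip1 c g u) => ENNReal.ofReal |u x - u y|)
    r hr le_rfl

end dst

variable {n : ℕ} {X : Type} [TopologicalSpace X] {c : X → J.Ch n X} {g : X → J.Mtx n}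

theorem nrm_nonneg (x : X) (w : J.E n) : 0 ≤ nrm c g x w := Real.sqrt_nonneg _

theorem nrm_lt_iff {x : X} {w : J.E n} {R : ℝ} (hR : 0 < R) :
    nrm c g x w < R ↔ J.bil (g x (c x x)) w w < R ^ 2 := by
  unfold nrm
  exact Real.sqrt_lt' hR

theorem isOpen_nrm (x : X) (R : ℝ) : IsOpen {w : J.E n | nrm c g x w < R} := by
  unfold nrm
  exact isOpen_lt (continuous_bil _).sqrt continuous_const

theorem continuous_nrm (x : X) : Continuous (nrm c g x) := by
  unfold nrm
  exact (continuous_bil _).sqrt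

theorem nrm_smul (x : X) (t : ℝ) (w : J.E n) : nrm c g x (t • w) = |t| * nrm c g x w :=
  sqrt_bil_smul _ _ _

theorem lc_of_exp {x : X} {R : ℝ} {e : J.E n → X} (he : Exp c g x R e) :
    Lc c e {w | J.bil (g x (c x x)) w w < R ^ 2} where
  isOpen := isOpen_lt (continuous_bil _) continuous_const
  cont := he.cont
  inj := he.inj
  sm v hv := (he.diff v hv).1
  det v hv := (he.diff v hv).2

theorem pul_bil (e : J.E n → X) (q v w : J.E n) : J.bil (pul c g e q) v w =
    J.bil (g (e q) (c (e q) (e q))) (fderiv ℝ (fun v => c (e q) (e v)) q v)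
      (fderiv ℝ (fun v => c (e q) (e v)) q w) := by
  set D := fderiv ℝ (fun v => c (e q) (e v)) q with hD
  set A := g (e q) (c (e q) (e q)) with hA
  have h1 : ∀ u : J.E n, D u = ∑ i, u i • D (Pi.single i 1) := by
    intro u
    conv_lhs => rw [pi_eq_sum_univ' u]
    rw [map_sum]
    refine Finset.sum_congr rfl fun i _ => ?_
    rw [map_smul]
  have h2 : ∀ (a : Fin n → ℝ) (b : Fin n → ℝ) (x y : Fin n → J.E n),
      J.bil A (∑ i, a i • x i) (∑ j, b j • y j) = ∑ i, ∑ j, a i * b j * J.bil A (x i) (y j) := by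
    intro a b x y
    simp only [bil_dot, Matrix.mulVec_sum, Matrix.mulVec_smul, sum_dotProduct, dotProduct_sum,
      smul_dotProduct, dotProduct_smul, smul_eq_mul, Finset.mul_sum]
    rw [Finset.sum_comm]
    refine Finset.sum_congr rfl fun i _ => Finset.sum_congr rfl fun j _ => ?_
    ring
  rw [h1 v, h1 w, h2]
  rfl

theorem pul_eq (hc : J.Atl c) {e : J.E n → X} {U : Set (J.E n)} (he : Lc c e U) {v : J.E n}
    (hv : v ∈ U) : pul c g e v = pmet c g e v := by
  have h1 : e v ∈ (c (e v)).source := (hc _).1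
  have h2 := (he.smA hc hv h1).differentiableAt (by simp)
  ext i j
  unfold pul pmet
  rw [Matrix.mul_apply]
  simp only [Matrix.mul_apply, Matrix.transpose_apply, RicU.jac_apply h2, Finset.sum_mul]
  unfold J.bil
  rw [Finset.sum_comm]
  refine Finset.sum_congr rfl fun k _ => Finset.sum_congr rfl fun l _ => ?_
  change fderiv ℝ (fi c e (e v)) v _ _ * fderiv ℝ (fi c e (e v)) v _ _ * g (e v) (fi c e (e v) v) _ _
    = _
  ring

/-- BLOCK V4 -/
theorem specGeoL (hD : H566.NV.SpecDst) : H566.NV.SpecGeoL := by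
  intro n X _ _ c g r x e hn hc hg hr hI he
  have hR : 0 < r x := (hI x).1
  obtain ⟨R, hRdef⟩ : ∃ R, R = r x := ⟨_, rfl⟩
  rw [← hRdef] at hR he ⊢
  -- exponential maps
  choose ey hey using fun y => (H566.NV.injAt_iff c g y (r y)).1 (hI y).2
  set U : Set (J.E n) := {w | J.bil (g x (c x x)) w w < R ^ 2} with hU
  have hLc : Lc c e U := lc_of_exp he
  have hLy : ∀ y, Lc c (ey y) {w | J.bil (g y (c y y)) w w < r y ^ 2} := fun y => lc_of_exp (hey y)
  have hdst : ∀ w, nrm c g x w < R → dst c g x (e w) = ENNReal.ofReal (nrm c g x w) :=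
    (hD n X c g x R e hn hc hg hR he).1
  have hbal : ∀ s, 0 < s → s ≤ R → bal c g x s = e '' {w | nrm c g x w < s} :=
    (hD n X c g x R e hn hc hg hR he).2
  have hdy : ∀ y w, nrm c g y w < r y → dst c g y (ey y w) = ENNReal.ofReal (nrm c g y w) :=
    fun y => (hD n X c g y (r y) (ey y) hn hc hg (hI y).1 (hey y)).1
  set Ω : Set (J.E n) := {w | nrm c g x w < R / 10} with hΩ
  have hΩR : ∀ q ∈ Ω, nrm c g x q < R := fun q hq => lt_trans hq (by linarith)
  have hΩU : ∀ q ∈ Ω, q ∈ U := fun q hq => (nrm_lt_iff hR).1 (hΩR q hq)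
  have hdq : ∀ q ∈ Ω, dst c g x (e q) < ENNReal.ofReal (R / 10) := fun q hq => by
    rw [hdst q (hΩR q hq)]
    exact (ENNReal.ofReal_lt_ofReal_iff (by linarith)).2 hq
  have hry : ∀ q ∈ Ω, 9 * R / 10 < r (e q) := by
    intro q hq
    have h1 := (lip_dst hr x (e q)).trans_lt (hdq q hq)
    have h2 := (ENNReal.ofReal_lt_ofReal_iff (by linarith)).1 h1
    have h3 := abs_lt.1 h2
    linarith [h3.1, h3.2]
  have hlt : ∀ q ∈ Ω, ∀ w, nrm c g (e q) w < 2 * R / 5 → nrm c g (e q) w < r (e q) :=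
    fun q hq w hw => hw.trans (by linarith [hry q hq])
  have hU' : ∀ q ∈ Ω, ∀ w, nrm c g (e q) w < 2 * R / 5 →
      w ∈ {w | J.bil (g (e q) (c (e q) (e q))) w w < r (e q) ^ 2} :=
    fun q hq w hw => (nrm_lt_iff (hI _).1).1 (hlt q hq w hw)
  -- the points `e_y w`
  have hz : ∀ q ∈ Ω, ∀ w, nrm c g (e q) w < 2 * R / 5 →
      ey (e q) w ∈ e '' {w | nrm c g x w < R / 2} := by
    intro q hq w hw
    rw [← hbal (R / 2) (by linarith) (by linarith)]
    change dst c g x (ey (e q) w) < _
    have h1 := hdy (e q) w (hlt q hq w hw)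
    calc dst c g x (ey (e q) w) ≤ dst c g x (e q) + dst c g (e q) (ey (e q) w) := dst_tri _ _ _
      _ < ENNReal.ofReal (R / 10) + ENNReal.ofReal (2 * R / 5) := by
        refine ENNReal.add_lt_add (hdq q hq) ?_
        rw [h1]
        exact (ENNReal.ofReal_lt_ofReal_iff (by linarith)).2 hw
      _ = ENNReal.ofReal (R / 2) := by
        rw [← ENNReal.ofReal_add (by linarith) (by linarith)]
        congr 1
        ring
  have hhalf : ∀ w, nrm c g x w < R / 2 → w ∈ U := fun w hw =>
    (nrm_lt_iff hR).1 (hw.trans (by linarith))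
  have hzU : ∀ q ∈ Ω, ∀ w, nrm c g (e q) w < 2 * R / 5 → ey (e q) w ∈ e '' U := by
    intro q hq w hw
    obtain ⟨w', hw', h1⟩ := hz q hq w hw
    exact ⟨w', hhalf w' hw', h1⟩
  set T : J.E n → J.E n → J.E n := fun q w => iv e U (ey (e q) w) with hT
  have hTh : ∀ q ∈ Ω, ∀ w, nrm c g (e q) w < 2 * R / 5 → nrm c g x (T q w) < R / 2 := by
    intro q hq w hw
    obtain ⟨w', hw', h1⟩ := hz q hq w hw
    simp only [hT]
    rw [← h1, hLc.iv_e (hhalf w' hw')]
    exact hw'
  have heT : ∀ q ∈ Ω, ∀ w, nrm c g (e q) w < 2 * R / 5 → e (T q w) = ey (e q) w :=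
    fun q hq w hw => Lc.e_iv (hzU q hq w hw)
  -- the extension
  have hpx : (g x (c x x)).PosDef := (hg x x (hc x).1).2.1
  have hK : IsCompact {w : J.E n | nrm c g x w ≤ R / 2} :=
    Metric.isCompact_of_isClosed_isBounded (isClosed_le (continuous_nrm x) continuous_const)
      (bdd_ball hpx _)
  have hKU : {w : J.E n | nrm c g x w ≤ R / 2} ⊆ U := fun w hw =>
    (nrm_lt_iff hR).1 (lt_of_le_of_lt hw (by linarith))
  obtain ⟨G, hGs, hGp, ⟨R', hR'⟩, V, hVo, hKV, hVU, hGV⟩ := H316.exists_ext (G := pmet c g e)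
    hLc.isOpen (fun i j v hv => (hLc.pmet_smooth hc hg hv i j).contDiffWithinAt)
    (fun v hv => hLc.pmet_pos hc hg hv) hK hKU
  obtain ⟨Φ, hΦ0, hΦd⟩ := H316.exists_geoflow hGs hGp hR'
  have hGpul : ∀ w, nrm c g x w ≤ R / 2 → G w = pul c g e w := fun w hw => by
    rw [hGV w (hKV hw), pul_eq hc hLc (hKU hw)]
  have hΩ2 : ∀ q ∈ Ω, nrm c g x q ≤ R / 2 := fun q hq => (show nrm c g x q < R / 10 from hq).le.trans
    (by linarith)
  refine ⟨G, Φ, fun w hw => hGpul w (hΩ2 w hw), ?_⟩
  refine geoL (N := fun q w => nrm c g (e q) w) (a := 2 * R / 5) (b := R / 5) (T := T) ?_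
    (isOpen_nrm x _) ((bdd_ball hpx (R / 10)).subset fun w hw =>
      (show nrm c g x w < R / 10 from hw).le) hΦ0 hΦd
  have hT0 : ∀ q ∈ Ω, T q 0 = q := fun q hq => by
    simp only [hT]
    rw [(hey (e q)).zero, hLc.iv_e (hΩU q hq)]
  have hn0 : ∀ y, nrm c g y (0 : J.E n) = 0 := fun y => by
    have := nrm_smul (c := c) (g := g) y 0 (0 : J.E n)
    rwa [smul_zero, abs_zero, zero_mul] at this
  have hsm : ∀ q ∈ Ω, ∀ w, nrm c g (e q) w < 2 * R / 5 → ContDiffAt ℝ ∞ (T q) w :=
    fun q hq w hw => hLc.tr_smooth hc (hLy (e q)) (hU' q hq w hw) (hzU q hq w hw)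
  refine ⟨hGs, hGp, by linarith, by linarith, fun q _ w => nrm_nonneg _ _,
    fun q _ => continuous_nrm _, fun q _ t w => nrm_smul _ t w, hT0, hsm,
    fun q hq w hw => hLc.tr_det hc (hLy (e q)) (hU' q hq w hw) (hzU q hq w hw), ?_, ?_, ?_, ?_⟩
  · -- injectivity
    intro q hq w hw w' hw' h
    have h1 := congrArg e h
    rw [heT q hq w hw, heT q hq w' hw'] at h1
    exact (hey (e q)).inj (hU' q hq w hw) (hU' q hq w' hw') h1
  · -- geodesics
    intro q hq w t ht
    have h1 := hU' q hq _ ht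
    have h2 := (hey (e q)).geo w t h1
    have h3 : ContinuousAt (fun s : ℝ => ey (e q) (s • w)) t := by
      have h4 : ContinuousAt (ey (e q)) (t • w) := (hLy (e q)).contAt h1
      exact ContinuousAt.comp (g := ey (e q)) (f := fun s : ℝ => s • w) h4
        (continuous_id.smul continuous_const).continuousAt
    have h5 := ge_of_geo hc hg hLc h3 (hzU q hq _ ht) h2.1 h2.2
    intro k
    have h6 := h5 k
    change deriv (deriv fun s => iv e U (ey (e q) (s • w)) k) t = _
    rw [h6]
    have h7 : T q (t • w) ∈ V := hKV (le_of_lt (hTh q hq _ ht))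
    simp only [hT] at h7
    have h8 : ∀ i j, christoffel (pmet c g e) (iv e U (ey (e q) (t • w))) k i j =
        christoffel G (iv e U (ey (e q) (t • w))) k i j := fun i j =>
      (christoffel_congr_set hVo hGV h7 k i j).symm
    simp only [h8]
    rfl
  · -- far
    intro q hq w hw hTq
    have h1 := hdy (e q) w (hlt q hq w hw)
    have h2 := hdq _ hTq
    rw [heT q hq w hw] at h2
    have h3 : dst c g (e q) (ey (e q) w) < ENNReal.ofReal (R / 5) := by
      calc dst c g (e q) (ey (e q) w) ≤ dst c g (e q) x + dst c g x (ey (e q) w) := dst_tri _ _ _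
        _ < ENNReal.ofReal (R / 10) + ENNReal.ofReal (R / 10) := by
          refine ENNReal.add_lt_add ?_ h2
          rw [dst_comm]
          exact hdq q hq
        _ = ENNReal.ofReal (R / 5) := by
          rw [← ENNReal.ofReal_add (by linarith) (by linarith)]
          congr 1
          ring
    rw [h1] at h3
    exact (ENNReal.ofReal_lt_ofReal_iff (by linarith)).1 h3
  · -- isometry
    intro q hq w
    have h0 : nrm c g (e q) (0 : J.E n) < 2 * R / 5 := by rw [hn0]; linarith
    have hs : e q ∈ (c (e q)).source := (hc _).1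
    rw [hGpul q (hΩ2 q hq), pul_bil]
    have h1 : fderiv ℝ (fun v => c (e q) (e v)) q (fderiv ℝ (T q) 0 w) = w := by
      have h2 : fderiv ℝ (fun w => c (e q) (e (T q w))) 0 =
          (fderiv ℝ (fun v => c (e q) (e v)) q).comp (fderiv ℝ (T q) 0) := by
        have h3 : DifferentiableAt ℝ (fun v => c (e q) (e v)) (T q 0) := by
          rw [hT0 q hq]
          exact (hLc.smA hc (hΩU q hq) hs).differentiableAt (by simp)
        have h4 := fderiv_comp (0 : J.E n) (g := fun v => c (e q) (e v)) (f := T q) h3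
          ((hsm q hq 0 h0).differentiableAt (by simp))
        rw [hT0 q hq] at h4
        exact h4
      have h5 : (fun w => c (e q) (e (T q w))) =ᶠ[𝓝 0] fun w => c (e q) (ey (e q) w) := by
        have h6 : ∀ᶠ w : J.E n in 𝓝 0, nrm c g (e q) w < 2 * R / 5 :=
          (isOpen_nrm (e q) _).mem_nhds h0
        filter_upwards [h6] with w hw
        rw [heT q hq w hw]
      rw [h5.fderiv_eq, (hey (e q)).fderiv_zero] at h2
      have h7 := congrArg (fun L : J.E n →L[ℝ] J.E n => L w) h2
      simpa using h7.symm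
    rw [h1]
    unfold nrm
    rw [Real.sq_sqrt (bil_nonneg ((hg (e q) (e q) hs).2.1) w)]

end Vale.Agent.P223.H440.NL
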