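import Vale.Agent.P223.H440.Sob

/-! Nash inequality: `L¹` bound and energy bound imply an `L²` bound. -/

namespace Vale.Agent.P223.H440

open scoped ContDiff InnerProductSpace Topology
open MeasureTheory Vale.Agent.P223.H Vale.Agent.P223.X Vale.Agent.P223.H566
open Vale.Agent.P223.H66 (scX YamX ScGe Cc)

theorem trf_key {r α : ℝ} (hr : 0 ≤ r) (hα : 0 < α) (hα2 : α ≤ 2) :
    1 - (√(1 + r ^ 2))⁻¹ ≤ r ^ α := by
  have hs : 1 ≤ √(1 + r ^ 2) := Real.one_le_sqrt.2 (by nlinarith [sq_nonneg r])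
  have hs0 : 0 < √(1 + r ^ 2) := by linarith
  rcases le_total 1 r with h | h
  · have h1 : 0 < (√(1 + r ^ 2))⁻¹ := inv_pos.2 hs0
    have h2 : 1 ≤ r ^ α := Real.one_le_rpow h hα.le
    linarith
  · rcases hr.lt_or_eq with h0 | h0
    · have h1 : r ^ (2 : ℝ) ≤ r ^ α := Real.rpow_le_rpow_of_exponent_ge h0 h hα2
      rw [Real.rpow_two] at h1
      have h2 : √(1 + r ^ 2) ≤ 1 + r ^ 2 := by
        rw [Real.sqrt_le_left (by positivity)]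
        nlinarith [sq_nonneg r, sq_nonneg (r ^ 2)]
      have h3 : 1 - (√(1 + r ^ 2))⁻¹ ≤ √(1 + r ^ 2) - 1 := by
        rw [sub_le_sub_iff, ← sub_nonneg]
        have h4 : √(1 + r ^ 2) * (√(1 + r ^ 2))⁻¹ = 1 := mul_inv_cancel₀ hs0.ne'
        have h5 : (√(1 + r ^ 2))⁻¹ ≤ 1 := inv_le_one_of_one_le₀ hs
        have h6 : 0 < (√(1 + r ^ 2))⁻¹ := inv_pos.2 hs0
        nlinarith [mul_nonneg (sub_nonneg.2 hs) (sub_nonneg.2 h5)]
      linarith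
    · rw [← h0, Real.zero_rpow hα.ne']
      norm_num

section
variable {n : ℕ} {M X Γ I V H : Type} [TopologicalSpace M] [TopologicalSpace X]
  [Group Γ] [MulAction Γ X] [Fintype I] [T2Space X] [ConnectedSpace X] [T2Space M]
  [MeasurableSpace X] [BorelSpace X] [NormedAddCommGroup V] [InnerProductSpace ℂ V]
  [FiniteDimensional ℂ V] [NormedAddCommGroup H] [InnerProductSpace ℂ H] [CompleteSpace H]

/-- truncation factor -/
noncomputable def trf (C : Cov n M X Γ I) (t : ℝ) (φ : Raw Γ I n V) (x : X) : ℝ :=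
  (√(1 + (nm C φ x / t) ^ 2))⁻¹

theorem trf_smooth (c : Ctx n M X Γ I V H) (t : ℝ) (φ : Core c.S) :
    c.C.Ck ∞ (trf c.C t (φ : Raw Γ I n V)) := by
  intro γ i
  have h1 := H620.Ck_nmsq φ γ i
  have : c.C.rep (trf c.C t (φ : Raw Γ I n V)) γ i = fun y =>
      (√(1 + c.C.rep (fun x => nm c.C (φ : Raw Γ I n V) x ^ 2) γ i y / t ^ 2))⁻¹ := by
    funext y
    unfold Cov.rep trf
    rw [div_pow]
  rw [this]
  have h0 : ∀ y, 0 < 1 + c.C.rep (fun x => nm c.C (φ : Raw Γ I n V) x ^ 2) γ i y / t ^ 2 := by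
    intro y
    have : 0 ≤ c.C.rep (fun x => nm c.C (φ : Raw Γ I n V) x ^ 2) γ i y := sq_nonneg _
    positivity
  refine ((contDiff_const.add (h1.div_const _)).sqrt fun y => (h0 y).ne').inv fun y => ?_
  exact (Real.sqrt_pos.2 (h0 y)).ne'

theorem trf_pos (C : Cov n M X Γ I) (t : ℝ) (φ : Raw Γ I n V) (x : X) : 0 < trf C t φ x :=
  inv_pos.2 (Real.sqrt_pos.2 (by positivity))

theorem trf_le_one (C : Cov n M X Γ I) (t : ℝ) (φ : Raw Γ I n V) (x : X) : trf C t φ x ≤ 1 :=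
  inv_le_one_of_one_le₀ (Real.one_le_sqrt.2 (by nlinarith [sq_nonneg (nm C φ x / t)]))

theorem trf_sup (C : Cov n M X Γ I) {t : ℝ} (ht : 0 < t) (φ : Raw Γ I n V) (x : X) :
    |trf C t φ x| * nm C φ x ≤ t := by
  rw [abs_of_pos (trf_pos C t φ x)]
  unfold trf
  have hn : 0 ≤ nm C φ x := norm_nonneg _
  have h1 : nm C φ x / t ≤ √(1 + (nm C φ x / t) ^ 2) :=
    Real.le_sqrt_of_sq_le (by linarith)
  have h0 : 0 < √(1 + (nm C φ x / t) ^ 2) := Real.sqrt_pos.2 (by positivity)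
  rw [inv_mul_le_iff₀ h0, mul_comm]
  calc nm C φ x = t * (nm C φ x / t) := by field_simp
    _ ≤ t * √(1 + (nm C φ x / t) ^ 2) := mul_le_mul_of_nonneg_left h1 ht.le

/-- the difference of a spinor field and its truncation -/
theorem norm_diff (c : Ctx n M X Γ I V H) (hn : 3 ≤ n) {y s₀ : ℝ} (hy : 0 < y)
    (hS : ∀ φ : Core c.S, y * (∫ x, nm c.C (φ : Raw Γ I n V) x ^
        (2 * (n : ℝ) / ((n : ℝ) - 2)) ∂c.μ) ^ (((n : ℝ) - 2) / (n : ℝ)) ≤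
      ‖c.E.e (c.S.DC φ)‖ ^ 2 + s₀ * ‖c.E.e φ‖ ^ 2) {t : ℝ} (ht : 0 < t) (φ : Core c.S) :
    ‖c.E.e (φ - c.S.mC _ (trf_smooth c t φ) φ)‖ ≤ t ^ (-(2 / ((n : ℝ) - 2))) *
      ((‖c.E.e (c.S.DC φ)‖ ^ 2 + s₀ * ‖c.E.e φ‖ ^ 2) / y) ^ ((n : ℝ) / ((n : ℝ) - 2) / 2) := by
  have hn3 : (3 : ℝ) ≤ n := by exact_mod_cast hn
  have hn2 : 0 < (n : ℝ) - 2 := by linarith
  set α : ℝ := 2 / ((n : ℝ) - 2) with hα
  have hα0 : 0 < α := by positivity
  have hα2 : α ≤ 2 := by rw [hα, div_le_iff₀ hn2]; linarith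
  set χ : ℝ := (n : ℝ) / ((n : ℝ) - 2) with hχ
  have hχ0 : 0 < χ := div_pos (by linarith) hn2
  have hp : 2 * (n : ℝ) / ((n : ℝ) - 2) = 2 * χ := by rw [hχ]; ring
  have hχα : 1 + α = χ := by rw [hα, hχ]; field_simp; ring
  have hr : ((n : ℝ) - 2) / n = χ⁻¹ := by rw [hχ, inv_div]
  rw [hp, hr] at hS
  set Iφ := ∫ x, nm c.C (φ : Raw Γ I n V) x ^ (2 * χ) ∂c.μ with hI
  set Eφ := ‖c.E.e (c.S.DC φ)‖ ^ 2 + s₀ * ‖c.E.e φ‖ ^ 2 with hE
  have hI0 : 0 ≤ Iφ := integral_nonneg fun x => Real.rpow_nonneg (norm_nonneg _) _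
  have h1 : Iφ ^ χ⁻¹ ≤ Eφ / y := by
    rw [le_div_iff₀ hy, mul_comm]; exact hS φ
  have h2 : Iφ ≤ (Eφ / y) ^ χ := by
    have := Real.rpow_le_rpow (Real.rpow_nonneg hI0 _) h1 hχ0.le
    rwa [← Real.rpow_mul hI0, inv_mul_cancel₀ hχ0.ne', Real.rpow_one] at this
  have hEy : 0 ≤ Eφ / y := (Real.rpow_nonneg hI0 _).trans h1
  -- pointwise
  have hfin := finComp c.S.met c.vol
  have hcont : Continuous (nm c.C (φ : Raw Γ I n V)) := φ.2.continuous_nm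
  have hsupp : HasCompactSupport (nm c.C (φ : Raw Γ I n V)) := φ.2.nm_supp
  have hint : Integrable (fun x => nm c.C (φ : Raw Γ I n V) x ^ (2 * χ)) c.μ := by
    refine (hcont.rpow_const fun x => Or.inr (by positivity)).integrable_of_hasCompactSupport ?_
    exact hsupp.comp_left (g := fun t : ℝ => t ^ (2 * χ)) (Real.zero_rpow (by positivity))
  have h3 : ∀ x, nm c.C ((φ - c.S.mC _ (trf_smooth c t φ) φ : Core c.S) : Raw Γ I n V) x ^ 2 ≤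
      t ^ (-(2 * α)) * nm c.C (φ : Raw Γ I n V) x ^ (2 * χ) := by
    intro x
    set r := nm c.C (φ : Raw Γ I n V) x with hr
    have hr0 : 0 ≤ r := norm_nonneg _
    have e1 : nm c.C ((φ - c.S.mC _ (trf_smooth c t φ) φ : Core c.S) : Raw Γ I n V) x =
        (1 - trf c.C t (φ : Raw Γ I n V) x) * r := by
      have e2 : ((φ - c.S.mC _ (trf_smooth c t φ) φ : Core c.S) : Raw Γ I n V)
          (c.C.pg x) (c.C.pi x) (c.C.py x) =
          ((1 - trf c.C t (φ : Raw Γ I n V) x : ℝ) : ℂ) •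
            (φ : Raw Γ I n V) (c.C.pg x) (c.C.pi x) (c.C.py x) := by
        change (φ : Raw Γ I n V) (c.C.pg x) (c.C.pi x) (c.C.py x) -
          (trf c.C t (φ : Raw Γ I n V) (c.C.pg x • c.C.ψ (c.C.pi x) (c.C.py x)) : ℂ) •
            (φ : Raw Γ I n V) (c.C.pg x) (c.C.pi x) (c.C.py x) = _
        rw [H566.pg_spec]
        push_cast
        rw [sub_smul, one_smul]
      unfold nm at hr ⊢
      rw [e2, norm_smul, Complex.norm_real, Real.norm_of_nonneg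
        (sub_nonneg.2 (trf_le_one c.C t _ x)), ← hr]
    rw [e1]
    have h4 : 1 - trf c.C t (φ : Raw Γ I n V) x ≤ (r / t) ^ α :=
      trf_key (div_nonneg hr0 ht.le) hα0 hα2
    have h5 : 0 ≤ 1 - trf c.C t (φ : Raw Γ I n V) x := sub_nonneg.2 (trf_le_one c.C t _ x)
    have h6 : (1 - trf c.C t (φ : Raw Γ I n V) x) * r ≤ t ^ (-α) * r ^ χ := by
      calc (1 - trf c.C t (φ : Raw Γ I n V) x) * r ≤ (r / t) ^ α * r :=
            mul_le_mul_of_nonneg_right h4 hr0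
        _ = t ^ (-α) * (r ^ α * r) := by
            rw [Real.div_rpow hr0 ht.le, Real.rpow_neg ht.le]; ring
        _ = t ^ (-α) * r ^ χ := by
            rw [← hχα, add_comm 1 α]
            rcases hr0.lt_or_eq with h7 | h7
            · rw [Real.rpow_add h7, Real.rpow_one]
            · rw [← h7, mul_zero, Real.zero_rpow (by positivity)]
    calc ((1 - trf c.C t (φ : Raw Γ I n V) x) * r) ^ 2 ≤ (t ^ (-α) * r ^ χ) ^ 2 :=
          pow_le_pow_left₀ (mul_nonneg h5 hr0) h6 2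
      _ = t ^ (-(2 * α)) * r ^ (2 * χ) := by
          rw [mul_pow, ← Real.rpow_natCast (t ^ (-α)) 2, ← Real.rpow_natCast (r ^ χ) 2,
            ← Real.rpow_mul ht.le, ← Real.rpow_mul hr0]
          norm_num
          ring_nf
  have h4 : ‖c.E.e (φ - c.S.mC _ (trf_smooth c t φ) φ)‖ ^ 2 ≤
      (t ^ (-α) * (Eφ / y) ^ (χ / 2)) ^ 2 := by
    obtain ⟨i1, i2⟩ := H620.norm_sq_e c.E c.vol (φ - c.S.mC _ (trf_smooth c t φ) φ)
    rw [i2]
    calc ∫ x, nm c.C ((φ - c.S.mC _ (trf_smooth c t φ) φ : Core c.S) : Raw Γ I n V) x ^ 2 ∂c.μ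
        ≤ ∫ x, t ^ (-(2 * α)) * nm c.C (φ : Raw Γ I n V) x ^ (2 * χ) ∂c.μ :=
          integral_mono i1 (hint.const_mul _) h3
      _ = t ^ (-(2 * α)) * Iφ := by rw [integral_const_mul]
      _ ≤ t ^ (-(2 * α)) * (Eφ / y) ^ χ :=
          mul_le_mul_of_nonneg_left h2 (Real.rpow_nonneg ht.le _)
      _ = (t ^ (-α) * (Eφ / y) ^ (χ / 2)) ^ 2 := by
          rw [mul_pow, ← Real.rpow_natCast (t ^ (-α)) 2, ← Real.rpow_natCast ((Eφ / y) ^ (χ / 2)) 2,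
            ← Real.rpow_mul ht.le, ← Real.rpow_mul hEy]
          congr 2
          · push_cast; ring
          · push_cast; ring
  exact (sq_le_sq₀ (norm_nonneg _) (mul_nonneg (Real.rpow_nonneg ht.le _)
    (Real.rpow_nonneg hEy _))).1 h4

/-- Nash inequality -/
theorem nash (c : Ctx n M X Γ I V H) (hn : 3 ≤ n) {y s₀ : ℝ} (hy : 0 < y)
    (hS : ∀ φ : Core c.S, y * (∫ x, nm c.C (φ : Raw Γ I n V) x ^
        (2 * (n : ℝ) / ((n : ℝ) - 2)) ∂c.μ) ^ (((n : ℝ) - 2) / (n : ℝ)) ≤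
      ‖c.E.e (c.S.DC φ)‖ ^ 2 + s₀ * ‖c.E.e φ‖ ^ 2) {u u' : H} (hs₀ : 0 ≤ s₀)
    (hu : Gr c.E u u') {b Q : ℝ} (hb0 : 0 ≤ b) (hQ : 0 < Q)
    (hb : ∀ (ψ : Core c.S) (t : ℝ), 0 < t → (∀ x, nm c.C (ψ : Raw Γ I n V) x ≤ t) →
      ‖⟪u, c.E.e ψ⟫_ℂ‖ ≤ b * t)
    (hE : ‖u'‖ ^ 2 + s₀ * ‖u‖ ^ 2 ≤ Q * ‖u‖ ^ 2) :
    ‖u‖ ≤ 2 * b * (2 * (Q / y) ^ ((n : ℝ) / ((n : ℝ) - 2) / 2)) ^ (((n : ℝ) - 2) / 2) := by
  have hn3 : (3 : ℝ) ≤ n := by exact_mod_cast hn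
  have hn2 : 0 < (n : ℝ) - 2 := by linarith
  set α : ℝ := 2 / ((n : ℝ) - 2) with hα
  have hα0 : 0 < α := by positivity
  set χ : ℝ := (n : ℝ) / ((n : ℝ) - 2) with hχ
  have hχ0 : 0 < χ := div_pos (by linarith) hn2
  have hχα : 1 + α = χ := by rw [hα, hχ]; field_simp; ring
  have hα' : ((n : ℝ) - 2) / 2 = α⁻¹ := by rw [hα, inv_div]
  rw [hα']
  set A : ℝ := 2 * (Q / y) ^ (χ / 2) with hA
  have hA0 : 0 < A := by positivity
  set τ : ℝ := A ^ α⁻¹ with hτ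
  have hτ0 : 0 < τ := Real.rpow_pos_of_pos hA0 _
  have hτα : τ ^ (-α) = A⁻¹ := by
    rw [hτ, ← Real.rpow_mul hA0.le, mul_neg, inv_mul_cancel₀ hα0.ne', Real.rpow_neg_one]
  by_cases hu0 : ‖u‖ = 0
  · rw [hu0]; positivity
  have hupos : 0 < ‖u‖ := (norm_nonneg u).lt_of_ne' hu0
  set t : ℝ := τ * ‖u‖ with ht
  have ht0 : 0 < t := mul_pos hτ0 hupos
  -- the estimate on the graph
  have key : ‖⟪u, u⟫_ℂ‖ ≤ b * t + ‖u‖ * (t ^ (-α) *
      ((‖u'‖ ^ 2 + s₀ * ‖u‖ ^ 2) / y) ^ (χ / 2)) := by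
    refine hu.ind (P := {q : H × H | ‖⟪u, q.1⟫_ℂ‖ ≤ b * t + ‖u‖ * (t ^ (-α) *
      ((‖q.2‖ ^ 2 + s₀ * ‖q.1‖ ^ 2) / y) ^ (χ / 2))}) ?_ fun φ => ?_
    · refine isClosed_le ((continuous_const.inner continuous_fst).norm)
        (continuous_const.add (continuous_const.mul (continuous_const.mul ?_)))
      refine Continuous.rpow_const ?_ fun x => Or.inr (by positivity)
      exact (((continuous_snd.norm.pow 2).add
        (continuous_const.mul (continuous_fst.norm.pow 2)))).div_const _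
    · have e1 : c.E.e φ = c.E.e (c.S.mC _ (trf_smooth c t φ) φ) +
          c.E.e (φ - c.S.mC _ (trf_smooth c t φ) φ) := by
        rw [← map_add]; congr 1; abel
      have e3 : ⟪u, c.E.e φ⟫_ℂ = ⟪u, c.E.e (c.S.mC _ (trf_smooth c t φ) φ)⟫_ℂ +
          ⟪u, c.E.e (φ - c.S.mC _ (trf_smooth c t φ) φ)⟫_ℂ := by
        rw [← inner_add_right, ← e1]
      change ‖⟪u, c.E.e φ⟫_ℂ‖ ≤ b * t + ‖u‖ * (t ^ (-α) *
        ((‖c.E.e (c.S.DC φ)‖ ^ 2 + s₀ * ‖c.E.e φ‖ ^ 2) / y) ^ (χ / 2))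
      rw [e3]
      refine (norm_add_le _ _).trans (add_le_add ?_ ?_)
      · refine hb _ t ht0 fun x => ?_
        exact (nm_mC (trf_smooth c t φ) φ x).le.trans (trf_sup c.C ht0 _ x)
      · refine (norm_inner_le_norm _ _).trans (mul_le_mul_of_nonneg_left ?_ (norm_nonneg _))
        exact norm_diff c hn hy hS ht0 φ
  have e2 : ‖⟪u, u⟫_ℂ‖ = ‖u‖ ^ 2 := by
    rw [inner_self_eq_norm_sq_to_K, norm_pow]
    simp
  rw [e2] at key
  have h1 : ((‖u'‖ ^ 2 + s₀ * ‖u‖ ^ 2) / y) ^ (χ / 2) ≤ (Q / y) ^ (χ / 2) * ‖u‖ ^ χ := by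
    calc ((‖u'‖ ^ 2 + s₀ * ‖u‖ ^ 2) / y) ^ (χ / 2) ≤ (Q / y * ‖u‖ ^ 2) ^ (χ / 2) := by
          refine Real.rpow_le_rpow (by positivity) ?_ (by positivity)
          rw [div_mul_eq_mul_div]
          exact div_le_div_of_nonneg_right hE hy.le
      _ = (Q / y) ^ (χ / 2) * ‖u‖ ^ χ := by
          rw [Real.mul_rpow (by positivity) (by positivity), ← Real.rpow_natCast ‖u‖ 2,
            ← Real.rpow_mul hupos.le]
          congr 2
          push_cast; ring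
  have h2 : t ^ (-α) = A⁻¹ * ‖u‖ ^ (-α) := by
    rw [ht, Real.mul_rpow hτ0.le hupos.le, hτα]
  have h3 : t ^ (-α) * ((‖u'‖ ^ 2 + s₀ * ‖u‖ ^ 2) / y) ^ (χ / 2) ≤ 1 / 2 * ‖u‖ := by
    calc t ^ (-α) * ((‖u'‖ ^ 2 + s₀ * ‖u‖ ^ 2) / y) ^ (χ / 2)
        ≤ t ^ (-α) * ((Q / y) ^ (χ / 2) * ‖u‖ ^ χ) :=
          mul_le_mul_of_nonneg_left h1 (Real.rpow_nonneg ht0.le _)
      _ = (A⁻¹ * (Q / y) ^ (χ / 2)) * (‖u‖ ^ (-α) * ‖u‖ ^ χ) := by rw [h2]; ring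
      _ = 1 / 2 * ‖u‖ := by
          have h4 : ‖u‖ ^ (-α) * ‖u‖ ^ χ = ‖u‖ := by
            rw [← Real.rpow_add hupos, ← hχα]
            have : -α + (1 + α) = 1 := by ring
            rw [this, Real.rpow_one]
          have h5 : 0 < (Q / y) ^ (χ / 2) := by positivity
          rw [h4, hA]
          field_simp
  have h4 : ‖u‖ ^ 2 ≤ b * t + 1 / 2 * ‖u‖ ^ 2 := by
    have := mul_le_mul_of_nonneg_left h3 hupos.le
    nlinarith
  have h5 : ‖u‖ * ‖u‖ ≤ (2 * b * τ) * ‖u‖ := by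
    rw [ht] at h4
    nlinarith
  exact le_of_mul_le_mul_right h5 hupos

end

end Vale.Agent.P223.H440
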