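import Vale.Agent.P223.H850.SmoothX

/-! Approximation of invariant continuous functions on `X` by smooth invariant functions. -/

namespace Vale.Agent.P223.H440

open scoped ContDiff Topology
open MeasureTheory Vale.Agent.P223.H Vale.Agent.P223.X Vale.Agent.P223.X.Avg Vale.Agent.P223.H850

variable {n : ℕ} {M X Γ I : Type} [TopologicalSpace M] [TopologicalSpace X] [Group Γ]
    [MulAction Γ X] {C : Cov n M X Γ I}

theorem exists_smooth0 [Fintype I] [T2Space X] {χ : I → E n → ℝ} (hχ : Part C χ) {u : X → ℝ}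
    (hu : Continuous u) (hui : ∀ (γ : Γ) x, u (γ • x) = u x) {ε : ℝ} (hε : 0 < ε) :
    ∃ v, H850.Sm C v ∧ ∀ x, |v x - u x| ≤ ε := by
  have hhc : ∀ {f : E n → ℝ} {R : ℝ}, (∀ y, R ≤ ‖y‖ → f y = 0) → HasCompactSupport f := by
    intro f R hf
    refine HasCompactSupport.of_support_subset_isCompact (isCompact_closedBall (0 : E n) R)
      fun y hy => ?_
    rw [mem_closedBall_zero_iff]
    by_contra hcon
    exact hy (hf y (not_le.1 hcon).le)
  set N : ℝ := (Fintype.card I : ℝ) + 1 with hN
  have hN0 : 0 < N := by positivity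
  have hεN : 0 < ε / N := by positivity
  set k : I → E n → ℝ := fun i y => χ i y * C.rep u 1 i y with hk
  have hkc : ∀ i, Continuous (k i) := fun i => (hχ.smooth i).continuous.mul
    (hu.comp ((C.cont 1).comp (C.emb i).continuous))
  have hks : ∀ i y, 2 ≤ ‖y‖ → k i y = 0 := fun i y hy => by
    rw [hk]; simp only; rw [hχ.supp i y hy, zero_mul]
  have happ : ∀ i, ∃ h : E n → ℝ, ContDiff ℝ ∞ h ∧ (∀ y, 3 ≤ ‖y‖ → h y = 0) ∧
      ∀ y, |h y - k i y| ≤ ε / N := by
    intro i
    obtain ⟨r, hr, h⟩ := mo_close (hkc i) (hhc (hks i)) hεN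
    set r' := min r 1 with hr'
    have hr'0 : 0 < r' := lt_min hr one_pos
    let φ : ContDiffBump (0 : E n) := ⟨r' / 2, r', half_pos hr'0, half_lt_self hr'0⟩
    refine ⟨mo φ (k i), mo_smooth φ (hkc i), fun y hy => ?_, h φ (min_le_left _ _)⟩
    exact mo_supp φ (min_le_right _ _) (hks i) y (by linarith)
  choose h hh1 hh2 hh3 using happ
  have hdec : ∀ x, u x = ∑ i, up C i (k i) x := by
    intro x
    have h1 : ∀ i, up C i (k i) x = u x * ∑ᶠ γ : Γ, C.ex i (χ i) (γ • x) := by
      intro i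
      by_cases hx : ∃ (γ : Γ) (y : E n), γ • C.ψ i y = x
      · obtain ⟨γ, y, rfl⟩ := hx
        rw [up_ψ, hui, finsum_eq_single _ (γ⁻¹)]
        · rw [inv_smul_smul, Vale.Agent.P223.X.ex_ψ, hk]
          simp only [Cov.rep]
          rw [one_smul]; ring
        · intro g hg
          have : g • γ • C.ψ i y ∉ Set.range (C.ψ i) := by
            rintro ⟨y', hy'⟩
            rw [← mul_smul] at hy'
            exact hg (eq_inv_of_mul_eq_one_left (C.inj i _ y y' hy'.symm))
          unfold Cov.ex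
          rw [if_neg this]
      · push Not at hx
        rw [up_out _ hx, finsum_eq_zero_of_forall_eq_zero, mul_zero]
        intro g
        have : g • x ∉ Set.range (C.ψ i) := by
          rintro ⟨y', hy'⟩
          exact hx g⁻¹ y' (by rw [hy', inv_smul_smul])
        unfold Cov.ex
        rw [if_neg this]
    rw [Finset.sum_congr rfl fun i _ => h1 i, ← Finset.mul_sum, hχ.sum x, mul_one]
  refine ⟨fun x => ∑ i, up C i (h i) x, ⟨fun γ j => ContDiff.sum fun i _ =>
    up_ck le_rfl (hh1 i) (hhc (hh2 i)) γ j, fun γ x => Finset.sum_congr rfl fun i _ =>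
      up_inv i (h i) γ x⟩, fun x => ?_⟩
  rw [hdec x, ← Finset.sum_sub_distrib]
  simp only [← up_sub]
  refine (Finset.abs_sum_le_sum_abs _ _).trans ?_
  calc ∑ i, |up C i (fun y => h i y - k i y) x| ≤ ∑ i : I, ε / N :=
        Finset.sum_le_sum fun i _ => up_abs hεN.le (hh3 i) x
    _ = (Fintype.card I : ℝ) * (ε / N) := by
        rw [Finset.sum_const, Finset.card_univ, nsmul_eq_mul]
    _ ≤ N * (ε / N) := mul_le_mul_of_nonneg_right (by rw [hN]; linarith) hεN.le
    _ = ε := by field_simp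

end Vale.Agent.P223.H440
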