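import Vale.Agent.P223.H620.SupB
import Vale.Agent.P223.H66.S2
import Vale.Agent.P223.H440.Res

/-! The Sobolev inequality for spinor fields. -/

namespace Vale.Agent.P223.H440

open scoped ContDiff InnerProductSpace Topology
open MeasureTheory Vale.Agent.P223.H Vale.Agent.P223.X Vale.Agent.P223.H566
open Vale.Agent.P223.H66 (scX YamX ScGe Cc)

section
variable {n : ℕ} {M X Γ I : Type} [TopologicalSpace M] [TopologicalSpace X] [Group Γ]
    [MulAction Γ X]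

/-- Sobolev inequality for `Δ + Scal / 4 + s₀` on `X` -/
def Sob [MeasurableSpace X] (C : Cov n M X Γ I) (G : I → E n → Matrix (Fin n) (Fin n) ℝ)
    (μ : Measure X) (y s₀ : ℝ) : Prop :=
  ∀ u : X → ℝ, C.Ck ∞ u → HasCompactSupport u →
    y * (∫ x, |u x| ^ (2 * (n : ℝ) / ((n : ℝ) - 2)) ∂μ) ^ (((n : ℝ) - 2) / (n : ℝ)) ≤
      ∫ x, (gsX C G u x + (scX C G x / 4 + s₀) * u x ^ 2) ∂μ

end

section
variable {n : ℕ} {M X Γ I V H : Type} [TopologicalSpace M] [TopologicalSpace X]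
  [Group Γ] [MulAction Γ X] [Fintype I] [T2Space X] [ConnectedSpace X] [T2Space M]
  [MeasurableSpace X] [BorelSpace X] [NormedAddCommGroup V] [InnerProductSpace ℂ V]
  [FiniteDimensional ℂ V] [NormedAddCommGroup H] [InnerProductSpace ℂ H] [CompleteSpace H]

/-- the Lichnerowicz density -/
noncomputable def lden (c : Ctx n M X Γ I V H) (s₀ : ℝ) (φ : Core c.S) (x : X) : ℝ :=
  -(hp c.C (c.S.DC (c.S.DC φ) : Raw Γ I n V) (φ : Raw Γ I n V) x).re +
    1 / 2 * lapX c.C c.G (fun x => nm c.C (φ : Raw Γ I n V) x ^ 2) x +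
    s₀ * nm c.C (φ : Raw Γ I n V) x ^ 2

theorem lden_eq (hL : SpecLocal) (c : Ctx n M X Γ I V H) (s₀ : ℝ) (φ : Core c.S) (x : X) :
    lden c s₀ φ x = nsq c.K (c.G (c.C.pi x)) (c.S.β (c.C.pi x))
        ((φ : Raw Γ I n V) (c.C.pg x) (c.C.pi x)) (c.C.py x) +
      (scX c.C c.G x / 4 + s₀) * nm c.C (φ : Raw Γ I n V) x ^ 2 := by
  obtain ⟨-, l2, l3, -⟩ := hL n V c.K (c.G (c.C.pi x)) (c.S.β (c.C.pi x)) (c.S.met.smooth _)
    (c.S.met.pos _) (c.S.fr _)
  have hφs := φ.2.smooth (c.C.pg x) (c.C.pi x)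
  have b1 := l2 _ hφs (c.C.py x)
  have e2 : c.C.rep (fun x => nm c.C (φ : Raw Γ I n V) x ^ 2) (c.C.pg x) (c.C.pi x) =
      fun y => ‖(φ : Raw Γ I n V) (c.C.pg x) (c.C.pi x) y‖ ^ 2 := by
    funext y
    change nm c.C (φ : Raw Γ I n V) (c.C.pg x • c.C.ψ (c.C.pi x) y) ^ 2 = _
    rw [φ.2.nm_chart]
  have e7 : lapX c.C c.G (fun x => nm c.C (φ : Raw Γ I n V) x ^ 2) x = lap (c.G (c.C.pi x))
      (fun y => ‖(φ : Raw Γ I n V) (c.C.pg x) (c.C.pi x) y‖ ^ 2) (c.C.py x) := by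
    rw [← e2]; rfl
  have e9 : hp c.C (c.S.DC (c.S.DC φ) : Raw Γ I n V) (φ : Raw Γ I n V) x =
      ⟪dir c.K (c.G (c.C.pi x)) (c.S.β (c.C.pi x)) (dir c.K (c.G (c.C.pi x))
        (c.S.β (c.C.pi x)) ((φ : Raw Γ I n V) (c.C.pg x) (c.C.pi x))) (c.C.py x),
        (φ : Raw Γ I n V) (c.C.pg x) (c.C.pi x) (c.C.py x)⟫_ℂ := rfl
  have e8 : nm c.C (φ : Raw Γ I n V) x = ‖(φ : Raw Γ I n V) (c.C.pg x) (c.C.pi x) (c.C.py x)‖ :=
    rfl
  unfold lden scX
  rw [e9, e7, e8]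
  linarith

theorem nmsq_supp (c : Ctx n M X Γ I V H) (φ : Core c.S) :
    HasCompactSupport (fun x => nm c.C (φ : Raw Γ I n V) x ^ 2) := by
  refine HasCompactSupport.intro (φ.2.nm_supp (C := c.C)).isCompact fun x hx => ?_
  have := image_eq_zero_of_notMem_tsupport hx
  rw [this]
  norm_num

theorem lden_int (hL : SpecLocal) (c : Ctx n M X Γ I V H) (s₀ : ℝ) (φ : Core c.S) :
    Integrable (lden c s₀ φ) c.μ ∧
    ∫ x, lden c s₀ φ x ∂c.μ = ‖c.E.e (c.S.DC φ)‖ ^ 2 + s₀ * ‖c.E.e φ‖ ^ 2 := by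
  set u : X → ℝ := fun x => nm c.C (φ : Raw Γ I n V) x ^ 2 with hu
  have hus : c.C.Ck ∞ u := H620.Ck_nmsq φ
  have hV := c.vol
  have hfin := finComp c.S.met hV
  have i1 : Integrable u c.μ := (H620.norm_sq_e c.E hV φ).1
  have i2 : Integrable (hp c.C (c.S.DC (c.S.DC φ) : Raw Γ I n V) (φ : Raw Γ I n V)) c.μ :=
    IsCore.integrable_hp (c.S.DC (c.S.DC φ)).2 φ.2 hV
  have hcs : HasCompactSupport u := nmsq_supp c φ
  have i3 : Integrable (lapX c.C c.G u) c.μ := by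
    refine Continuous.integrable_of_hasCompactSupport ?_ ?_
    · exact Ck_continuous c.C fun γ i => (Ck_lapX c.S.met
        (fun γ i => contDiff_infty.1 (hus γ i) 4) γ i).of_le (by norm_num)
    · exact HasCompactSupport.intro hcs.isCompact fun x hx => lapX_zero c.S.met hus hx
  have iN : Integrable (lden c s₀ φ) c.μ := (i2.re.neg.add (i3.const_mul _)).add (i1.const_mul _)
  refine ⟨iN, ?_⟩
  have z1 : ∫ x, lapX c.C c.G u x ∂c.μ = 0 := by
    have h1' : c.C.Ck ∞ (fun _ : X => (1 : ℝ)) := fun γ i => contDiff_const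
    have := greenX c.S.met hV hus h1' hcs
    have z2 : ∀ x, lapX c.C c.G (fun _ : X => (1 : ℝ)) x = 0 := by
      intro x
      have h1'' : c.C.Ck 2 (fun _ : X => (1 : ℝ)) := fun γ i => contDiff_const
      rw [← H566.pg_spec c.C x, lapX_eq c.S.met h1'']
      unfold lap
      have : ∀ γ i, c.C.rep (fun _ : X => (1 : ℝ)) γ i = fun _ => 1 := fun γ i => rfl
      simp [this, Vale.Agent.P223.H.pd]
    simp only [z2, mul_zero, integral_zero, mul_one] at this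
    exact this.symm
  have z3 : ∫ x, (hp c.C (c.S.DC (c.S.DC φ) : Raw Γ I n V) (φ : Raw Γ I n V) x).re ∂c.μ =
      -‖c.E.e (c.S.DC φ)‖ ^ 2 := by
    have h3 := integral_re i2
    have h4 := c.E.ip (c.S.DC (c.S.DC φ)) φ
    rw [e_skew c.E hL hV, inner_self_eq_norm_sq_to_K] at h4
    unfold ipr at h4
    have h5 : ∫ x, (hp c.C (c.S.DC (c.S.DC φ) : Raw Γ I n V) (φ : Raw Γ I n V) x).re ∂c.μ =
      (∫ x, hp c.C (c.S.DC (c.S.DC φ) : Raw Γ I n V) (φ : Raw Γ I n V) x ∂c.μ).re := h3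
    rw [h5, ← h4]
    norm_cast
  have i2' : Integrable (fun x => -(hp c.C (c.S.DC (c.S.DC φ) : Raw Γ I n V)
    (φ : Raw Γ I n V) x).re) c.μ := i2.re.neg
  have i3' : Integrable (fun x => 1 / 2 * lapX c.C c.G u x) c.μ := i3.const_mul _
  have i1' : Integrable (fun x => s₀ * u x) c.μ := i1.const_mul _
  have i23 : Integrable (fun x => -(hp c.C (c.S.DC (c.S.DC φ) : Raw Γ I n V)
    (φ : Raw Γ I n V) x).re + 1 / 2 * lapX c.C c.G u x) c.μ := i2'.add i3'
  unfold lden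
  rw [integral_add i23 i1', integral_add i2' i3', integral_neg, z3, integral_const_mul, z1,
    integral_const_mul, ← (H620.norm_sq_e c.E hV φ).2]
  ring

/-- regularised norm -/
noncomputable def ue (C : Cov n M X Γ I) (ε : ℝ) (φ : Raw Γ I n V) (x : X) : ℝ :=
  √(nm C φ x ^ 2 + ε ^ 2) - ε

theorem ue_nonneg (C : Cov n M X Γ I) {ε : ℝ} (hε : 0 < ε) (φ : Raw Γ I n V) (x : X) :
    0 ≤ ue C ε φ x := by
  unfold ue
  rw [sub_nonneg]
  exact Real.le_sqrt_of_sq_le (by nlinarith [sq_nonneg (nm C φ x)])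

theorem ue_le (C : Cov n M X Γ I) {ε : ℝ} (hε : 0 < ε) (φ : Raw Γ I n V) (x : X) :
    ue C ε φ x ≤ nm C φ x := by
  unfold ue
  have h : 0 ≤ nm C φ x := norm_nonneg _
  rw [sub_le_iff_le_add]
  exact Real.sqrt_le_iff.2 ⟨by positivity, by nlinarith [mul_nonneg h hε.le]⟩

theorem ue_ge (C : Cov n M X Γ I) {ε : ℝ} (φ : Raw Γ I n V) (x : X) :
    nm C φ x - ε ≤ ue C ε φ x := by
  unfold ue
  have h : 0 ≤ nm C φ x := norm_nonneg _
  have : nm C φ x ≤ √(nm C φ x ^ 2 + ε ^ 2) :=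
    Real.le_sqrt_of_sq_le (by nlinarith [sq_nonneg ε])
  linarith

theorem ue_smooth (c : Ctx n M X Γ I V H) {ε : ℝ} (hε : 0 < ε) (φ : Core c.S) :
    c.C.Ck ∞ (ue c.C ε (φ : Raw Γ I n V)) := by
  intro γ i
  have h1 := H620.Ck_nmsq φ γ i
  have : c.C.rep (ue c.C ε (φ : Raw Γ I n V)) γ i = fun y =>
      √(c.C.rep (fun x => nm c.C (φ : Raw Γ I n V) x ^ 2) γ i y + ε ^ 2) - ε := rfl
  rw [this]
  refine ((h1.add contDiff_const).sqrt fun y => ?_).sub contDiff_const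
  have : 0 ≤ c.C.rep (fun x => nm c.C (φ : Raw Γ I n V) x ^ 2) γ i y := sq_nonneg _
  positivity

theorem ue_supp (c : Ctx n M X Γ I V H) {ε : ℝ} (hε : 0 < ε) (φ : Core c.S) :
    HasCompactSupport (ue c.C ε (φ : Raw Γ I n V)) := by
  refine HasCompactSupport.intro (φ.2.nm_supp (C := c.C)).isCompact fun x hx => ?_
  have := image_eq_zero_of_notMem_tsupport hx
  unfold ue
  rw [this]
  norm_num
  rw [Real.sqrt_sq hε.le, sub_self]

/-- Kato's inequality -/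
theorem gs_ue (hL : SpecLocal) (c : Ctx n M X Γ I V H) {ε : ℝ} (hε : 0 < ε) (φ : Core c.S)
    (x : X) : gsX c.C c.G (ue c.C ε (φ : Raw Γ I n V)) x ≤
      nsq c.K (c.G (c.C.pi x)) (c.S.β (c.C.pi x))
        ((φ : Raw Γ I n V) (c.C.pg x) (c.C.pi x)) (c.C.py x) := by
  obtain ⟨-, -, l3, -⟩ := hL n V c.K (c.G (c.C.pi x)) (c.S.β (c.C.pi x)) (c.S.met.smooth _)
    (c.S.met.pos _) (c.S.fr _)
  have hφs := φ.2.smooth (c.C.pg x) (c.C.pi x)
  obtain ⟨b2, b3⟩ := l3 _ hφs (c.C.py x)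
  set i := c.C.pi x
  set z := c.C.py x
  set q : E n → ℝ := fun y => ‖(φ : Raw Γ I n V) (c.C.pg x) i y‖ ^ 2 with hq
  have e1 : gsX c.C c.G (ue c.C ε (φ : Raw Γ I n V)) x =
      gradSq (c.G i) (fun y => √(q y + ε ^ 2) - ε) z := by
    have : c.C.rep (ue c.C ε (φ : Raw Γ I n V)) (c.C.pg x) i =
        fun y => √(q y + ε ^ 2) - ε := by
      funext y
      unfold Cov.rep ue
      rw [φ.2.nm_chart]
    rw [← this]; rfl
  have hq0 : 0 ≤ q z := sq_nonneg _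
  have hpos : 0 < q z + ε ^ 2 := by positivity
  have hd : HasDerivAt (fun t : ℝ => √(t + ε ^ 2) - ε) (1 / (2 * √(q z + ε ^ 2))) (q z) := by
    have h1 : HasDerivAt (fun t : ℝ => t + ε ^ 2) 1 (q z) := (hasDerivAt_id _).add_const _
    exact (h1.sqrt hpos.ne').sub_const _
  have hqd : DifferentiableAt ℝ q z := ((hφs.norm_sq ℂ).differentiable (by simp)) z
  have e2 := Grad.gradSq_comp_real (G := c.G i) (φ := fun t : ℝ => √(t + ε ^ 2) - ε) (f := q) hd hqd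
  rw [e1, e2]
  set N := nsq c.K (c.G i) (c.S.β i) ((φ : Raw Γ I n V) (c.C.pg x) i) z
  calc (1 / (2 * √(q z + ε ^ 2))) ^ 2 * gradSq (c.G i) q z
      ≤ (1 / (2 * √(q z + ε ^ 2))) ^ 2 * (4 * q z * N) :=
        mul_le_mul_of_nonneg_left b3 (sq_nonneg _)
    _ = (q z / (q z + ε ^ 2)) * N := by
        rw [div_pow, mul_pow, Real.sq_sqrt hpos.le]
        field_simp
        ring
    _ ≤ 1 * N := mul_le_mul_of_nonneg_right ((div_le_one hpos).2 (by nlinarith [sq_nonneg ε])) b2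
    _ = N := one_mul _

/-- the Sobolev inequality for spinor fields -/
theorem sob_core (hL : SpecLocal) (c : Ctx n M X Γ I V H) (hn : 3 ≤ n) {y s₀ : ℝ}
    (hS : Sob c.C c.G c.μ y s₀) (hs : ∀ x, 0 ≤ scX c.C c.G x / 4 + s₀) (φ : Core c.S) :
    y * (∫ x, nm c.C (φ : Raw Γ I n V) x ^ (2 * (n : ℝ) / ((n : ℝ) - 2)) ∂c.μ) ^
        (((n : ℝ) - 2) / (n : ℝ)) ≤
      ‖c.E.e (c.S.DC φ)‖ ^ 2 + s₀ * ‖c.E.e φ‖ ^ 2 := by
  have hn3 : (3 : ℝ) ≤ n := by exact_mod_cast hn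
  set p : ℝ := 2 * (n : ℝ) / ((n : ℝ) - 2) with hp
  have hp0 : 0 < p := div_pos (by linarith) (by linarith)
  have hr0 : 0 < ((n : ℝ) - 2) / n := div_pos (by linarith) (by linarith)
  have hfin := finComp c.S.met c.vol
  have hcont : Continuous (nm c.C (φ : Raw Γ I n V)) := φ.2.continuous_nm
  have hsupp : HasCompactSupport (nm c.C (φ : Raw Γ I n V)) := φ.2.nm_supp
  have hint : Integrable (fun x => nm c.C (φ : Raw Γ I n V) x ^ p) c.μ := by
    refine (hcont.rpow_const fun x => Or.inr hp0.le).integrable_of_hasCompactSupport ?_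
    exact hsupp.comp_left (g := fun t : ℝ => t ^ p) (Real.zero_rpow hp0.ne')
  -- the inequality for `ue`
  have h1 : ∀ ε : ℝ, 0 < ε → y * (∫ x, |ue c.C ε (φ : Raw Γ I n V) x| ^ p ∂c.μ) ^
      (((n : ℝ) - 2) / (n : ℝ)) ≤ ‖c.E.e (c.S.DC φ)‖ ^ 2 + s₀ * ‖c.E.e φ‖ ^ 2 := by
    intro ε hε
    refine (hS _ (ue_smooth c hε φ) (ue_supp c hε φ)).trans ?_
    obtain ⟨i1, i2⟩ := lden_int hL c s₀ φ
    rw [← i2]
    refine integral_mono_of_nonneg (Filter.Eventually.of_forall fun x => ?_) i1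
      (Filter.Eventually.of_forall fun x => ?_)
    · exact add_nonneg (gsX_nonneg c.S.met _ x) (mul_nonneg (hs x) (sq_nonneg _))
    · simp only
      rw [lden_eq hL c s₀ φ x]
      refine add_le_add (gs_ue hL c hε φ x) (mul_le_mul_of_nonneg_left ?_ (hs x))
      exact pow_le_pow_left₀ (ue_nonneg c.C hε _ x) (ue_le c.C hε _ x) 2
  -- the limit
  have h2 : Filter.Tendsto (fun k : ℕ => ∫ x, |ue c.C (1 / ((k : ℝ) + 1)) (φ : Raw Γ I n V) x| ^ p
      ∂c.μ) Filter.atTop (𝓝 (∫ x, nm c.C (φ : Raw Γ I n V) x ^ p ∂c.μ)) := by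
    refine tendsto_integral_of_dominated_convergence
      (fun x => nm c.C (φ : Raw Γ I n V) x ^ p) (fun k => ?_) hint (fun k => ?_) ?_
    · have hc : Continuous (ue c.C (1 / ((k : ℝ) + 1)) (φ : Raw Γ I n V)) := by
        unfold ue
        exact (((hcont.pow 2).add continuous_const).sqrt).sub continuous_const
      exact ((hc.abs).rpow_const fun x => Or.inr hp0.le).aestronglyMeasurable
    · refine Filter.Eventually.of_forall fun x => ?_
      have hk : (0 : ℝ) < 1 / ((k : ℝ) + 1) := by positivity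
      rw [Real.norm_of_nonneg (Real.rpow_nonneg (abs_nonneg _) _),
        abs_of_nonneg (ue_nonneg c.C hk _ x)]
      exact Real.rpow_le_rpow (ue_nonneg c.C hk _ x) (ue_le c.C hk _ x) hp0.le
    · refine Filter.Eventually.of_forall fun x => ?_
      have h3 : Filter.Tendsto (fun k : ℕ => ue c.C (1 / ((k : ℝ) + 1)) (φ : Raw Γ I n V) x)
          Filter.atTop (𝓝 (nm c.C (φ : Raw Γ I n V) x)) := by
        refine tendsto_of_tendsto_of_tendsto_of_le_of_le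
          (g := fun k : ℕ => nm c.C (φ : Raw Γ I n V) x - 1 / ((k : ℝ) + 1))
          (h := fun _ => nm c.C (φ : Raw Γ I n V) x) ?_ tendsto_const_nhds
          (fun k => ue_ge c.C _ x) (fun k => ue_le c.C (by positivity) _ x)
        have := (tendsto_const_nhds (x := nm c.C (φ : Raw Γ I n V) x)).sub
          (tendsto_one_div_add_atTop_nhds_zero_nat (𝕜 := ℝ))
        rwa [sub_zero] at this
      have h4 := h3.abs
      have h5 : |nm c.C (φ : Raw Γ I n V) x| = nm c.C (φ : Raw Γ I n V) x :=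
        abs_of_nonneg (norm_nonneg _)
      rw [h5] at h4
      exact h4.rpow_const (Or.inr hp0.le)
  have h3 := (h2.rpow_const (p := ((n : ℝ) - 2) / n) (Or.inr hr0.le)).const_mul y
  exact le_of_tendsto' h3 fun k => h1 _ (by positivity)

end

end Vale.Agent.P223.H440
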