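import Vale.Agent.P223.H440.Yc
import Vale.Agent.P223.H440.KerX
import Vale.Agent.P223.H620.En

/-! The Sobolev inequality for the conformal metric `exp(2 F) G`, if `exp(((n-2)/2) F)` is a
supersolution. -/

namespace Vale.Agent.P223.H440

open scoped ContDiff InnerProductSpace Topology
open MeasureTheory Vale.Agent.P223.H Vale.Agent.P223.X Vale.Agent.P223.H566
open Vale.Agent.P223.H66 (scX ScGe Cc SobX)

section
variable {n : ℕ} {M X Γ I : Type} [TopologicalSpace M] [TopologicalSpace X]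
  [Group Γ] [MulAction Γ X] {C : Cov n M X Γ I} {G : I → E n → Matrix (Fin n) (Fin n) ℝ}

/-- The Sobolev inequality on `X` for the operator `Δ + V`. -/
def SobV [MeasurableSpace X] (C : Cov n M X Γ I) (G : I → E n → Matrix (Fin n) (Fin n) ℝ)
    (μ : Measure X) (V : X → ℝ) (y : ℝ) : Prop :=
  ∀ f, Cc C f → y * (∫ x, |f x| ^ (2 * (n : ℝ) / (n - 2)) ∂μ) ^ (((n : ℝ) - 2) / n) ≤
    ∫ x, (gsX C G f x + V x * f x ^ 2) ∂μ

theorem gsX_conf (hG : MetX C G) {F : X → ℝ} (hF : C.Ck ∞ F)
    (hFi : ∀ (γ : Γ) x, F (γ • x) = F x) (f : X → ℝ) (x : X) :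
    gsX C (fun i => confm (C.rep F 1 i) (G i)) f x = Real.exp (-(2 * F x)) * gsX C G f x := by
  obtain ⟨γ, i, y, -, rfl⟩ := C.cover x
  rw [gsX_eq (ConfX.confm_met hG hF hFi), gsX_eq hG, gradSq_confm (hG.pos i)]
  have : C.rep F 1 i y = F (γ • C.ψ i y) := by
    change F ((1 : Γ) • C.ψ i y) = _
    rw [hFi, hFi]
  rw [this]

theorem scX_conf (hG : MetX C G) {F : X → ℝ} (hF : C.Ck ∞ F)
    (hFi : ∀ (γ : Γ) x, F (γ • x) = F x) (x : X) :
    Real.exp (2 * F x) * scX C (fun i => confm (C.rep F 1 i) (G i)) x =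
      scX C G x - 2 * ((n : ℝ) - 1) * lapX C G F x - ((n : ℝ) - 1) * ((n : ℝ) - 2) *
        gsX C G F x := by
  obtain ⟨γ, i, y, -, rfl⟩ := C.cover x
  rw [scX_chart (ConfX.confm_met hG hF hFi), scX_chart hG, gsX_eq hG,
    lapX_eq hG (fun γ i => contDiff_infty.1 (hF γ i) 2)]
  have e1 : C.rep F γ i = C.rep F 1 i := by
    funext z
    change F (γ • C.ψ i z) = F ((1 : Γ) • C.ψ i z)
    rw [hFi, hFi]
  have e2 : F (γ • C.ψ i y) = C.rep F 1 i y := by rw [← e1]; rfl
  rw [e1, e2]
  exact ConfScal.main n (G i) (hG.smooth i) (hG.pos i) (C.rep F 1 i) (hF 1 i) y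

theorem scX_cont' (hG : MetX C G) : Continuous (scX C G) := by
  refine (Ck_zero_iff C).1 fun γ i => ?_
  have e : C.rep (scX C G) γ i = fun y => H.scal (G i) y := funext fun y => scX_chart hG γ i y
  rw [e]
  exact contDiff_zero.2 (Cor.continuous_scal (hG.smooth i) (hG.pos i))

theorem ck_cont {f : X → ℝ} (hf : C.Ck ∞ f) : Continuous f :=
  Ck_continuous C fun γ i => (hf γ i).of_le (by simp)

variable [Fintype I] [T2Space X] [MeasurableSpace X] [BorelSpace X] {μ μ' : Measure X}

theorem conf_norm (hn : 3 ≤ n) (hG : MetX C G) (hV : VolX C G μ) {F : X → ℝ} (hF : C.Ck ∞ F)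
    (hFi : ∀ (γ : Γ) x, F (γ • x) = F x)
    (hV' : VolX C (fun i => confm (C.rep F 1 i) (G i)) μ') {f : X → ℝ} (hf : C.Ck ∞ f)
    (hc : HasCompactSupport f) :
    ∫ x, |f x| ^ (2 * (n : ℝ) / (n - 2)) ∂μ' =
      ∫ x, |Real.exp (((n : ℝ) - 2) / 2 * F x) * f x| ^ (2 * (n : ℝ) / (n - 2)) ∂μ := by
  have hn3 : (3 : ℝ) ≤ n := by exact_mod_cast hn
  have hp : 0 < 2 * (n : ℝ) / (n - 2) := by
    apply div_pos <;> linarith
  rw [int_conf hG hV hF hFi hV' (F := fun x => |f x| ^ (2 * (n : ℝ) / (n - 2)))]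
  · refine integral_congr_ae (Filter.Eventually.of_forall fun x => ?_)
    simp only
    rw [abs_mul, Real.abs_exp, Real.mul_rpow (Real.exp_pos _).le (abs_nonneg _), ← Real.exp_mul]
    congr 2
    have : (n : ℝ) - 2 ≠ 0 := by linarith
    field_simp
  · exact (ck_cont hf).abs.rpow_const fun x => Or.inr hp.le
  · refine HasCompactSupport.intro hc.isCompact fun x hx => ?_
    rw [image_eq_zero_of_notMem_tsupport hx, abs_zero, Real.zero_rpow hp.ne']

/-- the energy with respect to the conformal metric -/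
theorem conf_en (hG : MetX C G) (hV : VolX C G μ) {F : X → ℝ} (hF : C.Ck ∞ F)
    (hFi : ∀ (γ : Γ) x, F (γ • x) = F x)
    (hV' : VolX C (fun i => confm (C.rep F 1 i) (G i)) μ') {f : X → ℝ} (hf : C.Ck ∞ f)
    (hc : HasCompactSupport f) {σ : ℝ} (hσ : 2 * σ = (n : ℝ) - 2) :
    ∫ x, gsX C (fun i => confm (C.rep F 1 i) (G i)) f x ∂μ' =
      ∫ x, (gsX C G (fun x => Real.exp (σ * F x) * f x) x + (σ * lapX C G F x +
        σ ^ 2 * gsX C G F x) * (Real.exp (σ * F x) * f x) ^ 2) ∂μ := by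
  have hM' := ConfX.confm_met hG hF hFi
  rw [int_conf hG hV hF hFi hV' (H620.gsX_cont hM' hf) (H620.gsX_supp hM' hc)]
  have hv : C.Ck ∞ (fun x => Real.exp (σ * F x) * f x) := fun γ i =>
    (contDiff_const.mul (hF γ i)).exp.mul (hf γ i)
  have hvc : HasCompactSupport (fun x => Real.exp (σ * F x) * f x) := hc.mul_left
  have h := H620.en_int hG hV hv hvc hF (-σ)
  simp only [neg_neg, neg_mul, mul_neg, neg_sq] at h
  rw [← h]
  refine integral_congr_ae (Filter.Eventually.of_forall fun x => ?_)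
  simp only
  rw [gsX_conf hG hF hFi]
  have e1 : (fun y => Real.exp (-(σ * F y)) * (Real.exp (σ * F y) * f y)) = f := by
    funext y
    rw [← mul_assoc, ← Real.exp_add]
    simp
  rw [e1, ← mul_assoc, ← Real.exp_add]
  congr 2
  rw [hσ]; ring

/-- The Sobolev inequality for `exp(2 F) G`. -/
theorem sob_conf (hn : 3 ≤ n) (hG : MetX C G) (hV : VolX C G μ) {F : X → ℝ} (hF : C.Ck ∞ F)
    (hFi : ∀ (γ : Γ) x, F (γ • x) = F x)
    (hV' : VolX C (fun i => confm (C.rep F 1 i) (G i)) μ') {S V : X → ℝ} (hS : Continuous S)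
    (hVc : Continuous V) {a σ s y : ℝ} (hσ : 2 * σ = (n : ℝ) - 2)
    (ha : a = ((n : ℝ) - 2) / (4 * (n - 1))) (hs0 : 0 ≤ s) (hs1 : s ≤ 1)
    (hSle : ∀ x, S x ≤ scX C G x) (hle : ∀ x, (1 - s) * a * S x + s * V x ≤ a * scX C G x)
    (hsup : ∀ x, σ * lapX C G F x + σ ^ 2 * gsX C G F x ≤ a * (S x + Real.exp (2 * F x)))
    (hsob : SobV C G μ V y) :
    ScGe (fun i => confm (C.rep F 1 i) (G i)) 1 ∧
      SobX C (fun i => confm (C.rep F 1 i) (G i)) μ' (1 / 4) (1 / 4) (s * y) := by
  have hn3 : (3 : ℝ) ≤ n := by exact_mod_cast hn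
  have hn1 : (n : ℝ) - 1 ≠ 0 := by linarith
  have ha0 : 0 < a := by rw [ha]; apply div_pos <;> linarith
  have ha4 : a ≤ 1 / 4 := by
    rw [ha, div_le_div_iff₀ (by linarith) (by norm_num)]; linarith
  have haσ : a * (2 * ((n : ℝ) - 1)) = σ := by
    have : σ = ((n : ℝ) - 2) / 2 := by linarith
    rw [ha, this]; field_simp; ring
  have haσ2 : a * (((n : ℝ) - 1) * ((n : ℝ) - 2)) = σ ^ 2 := by
    have : σ = ((n : ℝ) - 2) / 2 := by linarith
    rw [ha, this]; field_simp; ring
  set G' : I → E n → Matrix (Fin n) (Fin n) ℝ := fun i => confm (C.rep F 1 i) (G i) with hG'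
  have hM' : MetX C G' := ConfX.confm_met hG hF hFi
  -- scalar curvature
  have hsc : ∀ x, a * (Real.exp (2 * F x) * scX C G' x) =
      a * scX C G x - (σ * lapX C G F x + σ ^ 2 * gsX C G F x) := fun x => by
    rw [hG', scX_conf hG hF hFi]
    linear_combination (-lapX C G F x) * haσ - gsX C G F x * haσ2
  have hge : ∀ x, -1 ≤ scX C G' x := fun x => by
    have h1 := hsc x
    have h2 := hsup x
    have h3 := mul_le_mul_of_nonneg_left (hSle x) ha0.le
    have h4 : 0 < a * Real.exp (2 * F x) := mul_pos ha0 (Real.exp_pos _)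
    have h5 : 0 ≤ a * Real.exp (2 * F x) * (scX C G' x + 1) := by nlinarith
    have h6 := nonneg_of_mul_nonneg_right h5 h4
    linarith
  have hSc : ScGe G' 1 := fun i z => by
    have := hge ((1 : Γ) • C.ψ i z)
    rwa [scX_chart hM'] at this
  refine ⟨hSc, ?_⟩
  rintro f ⟨hf, hc⟩
  have hfin := finComp hG hV
  have hfin' := finComp hM' hV'
  set v : X → ℝ := fun x => Real.exp (σ * F x) * f x with hv
  have hvs : C.Ck ∞ v := fun γ i => (contDiff_const.mul (hF γ i)).exp.mul (hf γ i)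
  have hvc : HasCompactSupport v := hc.mul_left
  have hσ' : σ = ((n : ℝ) - 2) / 2 := by linarith
  have hnm : ∫ x, |f x| ^ (2 * (n : ℝ) / (n - 2)) ∂μ' =
      ∫ x, |v x| ^ (2 * (n : ℝ) / (n - 2)) ∂μ := by
    rw [hv, hσ']
    exact conf_norm hn hG hV hF hFi hV' hf hc
  have hen := conf_en hG hV hF hFi hV' hf hc hσ
  have hFc := ck_cont hF
  have hfc := ck_cont hf
  have hvc' := ck_cont hvs
  have g1 := H620.gsX_cont hM' hf
  have g2 := H620.gsX_supp hM' hc
  have k1 := H620.gsX_cont hG hvs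
  have k2 := H620.gsX_supp hG hvc
  have s1 := scX_cont' hM'
  have s2 := scX_cont' hG
  have hLF : Continuous (lapX C G F) := H620.lapX_cont hG hF
  have hgF : Continuous (gsX C G F) := H620.gsX_cont hG hF
  have hv2 : HasCompactSupport (fun x => v x ^ 2) :=
    hvc.comp_left (g := fun t : ℝ => t ^ 2) (by norm_num)
  have hf2 : HasCompactSupport (fun x => f x ^ 2) :=
    hc.comp_left (g := fun t : ℝ => t ^ 2) (by norm_num)
  have i0 : Integrable (gsX C G v) μ := k1.integrable_of_hasCompactSupport k2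
  have i0' : Integrable (gsX C G' f) μ' := g1.integrable_of_hasCompactSupport g2
  have iv : ∀ h : X → ℝ, Continuous h → Integrable (fun x => h x * v x ^ 2) μ := fun h hh =>
    (hh.mul (hvc'.pow 2)).integrable_of_hasCompactSupport hv2.mul_left
  have iff' : ∀ h : X → ℝ, Continuous h → Integrable (fun x => h x * f x ^ 2) μ' := fun h hh =>
    (hh.mul (hfc.pow 2)).integrable_of_hasCompactSupport hf2.mul_left
  have c1 : Continuous fun x => a * (scX C G' x + 1) := continuous_const.mul (s1.add continuous_const)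
  have c2 : Continuous fun x => a * (scX C G x + Real.exp (2 * F x)) :=
    continuous_const.mul (s2.add (Real.continuous_exp.comp (continuous_const.mul hFc)))
  have c3 : Continuous fun x => σ * lapX C G F x + σ ^ 2 * gsX C G F x :=
    (continuous_const.mul hLF).add (continuous_const.mul hgF)
  have c4 : Continuous fun x => a * (S x + Real.exp (2 * F x)) :=
    continuous_const.mul (hS.add (Real.continuous_exp.comp (continuous_const.mul hFc)))
  have c5 : Continuous fun x => 1 / 4 * scX C G' x + 1 / 4 :=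
    (continuous_const.mul s1).add continuous_const
  -- the form of the conformal metric
  have e1 : ∫ x, (gsX C G' f x + a * (scX C G' x + 1) * f x ^ 2) ∂μ' =
      ∫ x, (gsX C G v x + a * (scX C G x + Real.exp (2 * F x)) * v x ^ 2) ∂μ := by
    have c6 : Continuous fun x => a * (scX C G' x + 1) * f x ^ 2 := c1.mul (hfc.pow 2)
    have c7 : HasCompactSupport fun x => a * (scX C G' x + 1) * f x ^ 2 := hf2.mul_left
    rw [integral_add i0' (iff' _ c1), hen, int_conf hG hV hF hFi hV' c6 c7]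
    change ∫ x, (gsX C G v x + (σ * lapX C G F x + σ ^ 2 * gsX C G F x) * v x ^ 2) ∂μ + _ = _
    rw [integral_add i0 (iv _ c3), integral_add i0 (iv _ c2), add_assoc,
      ← integral_add (iv _ c3)]
    · congr 1
      refine integral_congr_ae (Filter.Eventually.of_forall fun x => ?_)
      have h1 := hsc x
      have h2 : Real.exp (n * F x) * f x ^ 2 = Real.exp (2 * F x) * v x ^ 2 := by
        rw [hv]
        simp only
        rw [mul_pow, ← Real.exp_nat_mul, ← mul_assoc, ← Real.exp_add]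
        congr 2
        push_cast
        linear_combination F x * (-hσ)
      have h3 : Real.exp (n * F x) * (a * (scX C G' x + 1) * f x ^ 2) =
          a * (scX C G' x + 1) * (Real.exp (2 * F x) * v x ^ 2) := by rw [← h2]; ring
      simp only
      rw [h3]
      linear_combination v x ^ 2 * h1
    · exact ((Real.continuous_exp.comp (continuous_const.mul hFc)).mul
        c6).integrable_of_hasCompactSupport c7.mul_left
  -- first step
  have e0 : ∫ x, (gsX C G' f x + a * (scX C G' x + 1) * f x ^ 2) ∂μ' ≤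
      ∫ x, (gsX C G' f x + (1 / 4 * scX C G' x + 1 / 4) * f x ^ 2) ∂μ' := by
    refine integral_mono (i0'.add (iff' _ c1)) (i0'.add (iff' _ c5)) fun x => ?_
    simp only
    have h1 := hge x
    have h2 : 0 ≤ (1 / 4 - a) * (scX C G' x + 1) := mul_nonneg (by linarith) (by linarith)
    have h3 : 0 ≤ f x ^ 2 := sq_nonneg _
    nlinarith
  -- the ground state
  have e2 : 0 ≤ ∫ x, (gsX C G v x + a * (S x + Real.exp (2 * F x)) * v x ^ 2) ∂μ := by
    have h1 : 0 ≤ ∫ x, gsX C G' f x ∂μ' := integral_nonneg fun x => gsX_nonneg hM' f x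
    rw [hen] at h1
    refine h1.trans (integral_mono (i0.add (iv _ c3)) (i0.add (iv _ c4)) fun x => ?_)
    simp only
    exact add_le_add le_rfl (mul_le_mul_of_nonneg_right (hsup x) (sq_nonneg _))
  have e3 := hsob v ⟨hvs, hvc⟩
  rw [hnm]
  refine le_trans ?_ e0
  rw [e1]
  have i1 : Integrable (fun x => gsX C G v x + a * (S x + Real.exp (2 * F x)) * v x ^ 2) μ :=
    i0.add (iv _ c4)
  have i2 : Integrable (fun x => gsX C G v x + V x * v x ^ 2) μ := i0.add (iv _ hVc)
  have e4 : ∫ x, ((1 - s) * (gsX C G v x + a * (S x + Real.exp (2 * F x)) * v x ^ 2) +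
      s * (gsX C G v x + V x * v x ^ 2)) ∂μ ≤
      ∫ x, (gsX C G v x + a * (scX C G x + Real.exp (2 * F x)) * v x ^ 2) ∂μ := by
    refine integral_mono ((i1.const_mul _).add (i2.const_mul _)) (i0.add (iv _ c2)) fun x => ?_
    simp only
    have h1 := mul_le_mul_of_nonneg_right (hle x) (sq_nonneg (v x))
    have h2 : 0 ≤ s * a * Real.exp (2 * F x) * v x ^ 2 :=
      mul_nonneg (mul_nonneg (mul_nonneg hs0 ha0.le) (Real.exp_pos _).le) (sq_nonneg _)
    nlinarith
  refine le_trans ?_ e4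
  rw [integral_add (i1.const_mul _) (i2.const_mul _), integral_const_mul, integral_const_mul,
    mul_assoc]
  have h1 := mul_le_mul_of_nonneg_left e3 hs0
  have h2 := mul_nonneg (sub_nonneg.2 hs1) e2
  linarith

end

end Vale.Agent.P223.H440
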