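import Vale.Agent.P223.H440.Ker
import Vale.Agent.P223.H566.SupA
import Vale.Agent.P223.X.ConfX

/-! Conformal invariance of the Yamabe inequality. -/

namespace Vale.Agent.P223.H440

open scoped ContDiff InnerProductSpace Topology
open MeasureTheory Vale.Agent.P223.H Vale.Agent.P223.X Vale.Agent.P223.H566
open Vale.Agent.P223.H66 (scX YamX ScGe Cc SpecYc)

/-! ### pointwise identity -/

section loc
variable {n : ℕ} {G : E n → Matrix (Fin n) (Fin n) ℝ}

theorem conf_pt (h2 : ∀ x, (G x).PosDef) {f w : E n → ℝ} (hf : ContDiff ℝ ∞ f)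
    (hw : ContDiff ℝ ∞ w) {s cn a b : ℝ} (ha : cn * a = s) (hb : cn * b = s ^ 2) (sc : ℝ) (x : E n) :
    Real.exp (2 * s * w x) * (gradSq G f x + cn * (sc - a * lap G w x - b * gradSq G w x) *
      f x ^ 2) = gradSq G (fun y => Real.exp (s * w y) * f y) x +
      cn * sc * (Real.exp (s * w x) * f x) ^ 2 - s / 2 *
      (lap G (fun y => (Real.exp (s * w y) * f y) ^ 2 * w y) x +
        (Real.exp (s * w x) * f x) ^ 2 * lap G w x -
        lap G (fun y => (Real.exp (s * w y) * f y) ^ 2) x * w x) := by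
  set φ : E n → ℝ := fun y => Real.exp (s * w y) with hφ
  have hφs : ContDiff ℝ ∞ φ := (contDiff_const.mul hw).exp
  set u : E n → ℝ := fun y => φ y * f y with hu
  have hus : ContDiff ℝ ∞ u := hφs.mul hf
  have hfd : DifferentiableAt ℝ f x := hf.differentiable (by simp) x
  have hwd : DifferentiableAt ℝ w x := hw.differentiable (by simp) x
  have hφd : DifferentiableAt ℝ φ x := hφs.differentiable (by simp) x
  have hud : DifferentiableAt ℝ u x := hus.differentiable (by simp) x
  have hder : HasDerivAt (fun t : ℝ => Real.exp (s * t)) (s * φ x) (w x) := by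
    have h1 : HasDerivAt (fun t : ℝ => s * t) s (w x) := by
      simpa using (hasDerivAt_id (w x)).const_mul s
    have h3 := h1.exp
    rwa [mul_comm] at h3
  have e1 : ∀ k : E n → ℝ, gradIp G k φ x = s * φ x * gradIp G k w x := fun k =>
    Grad.gradIp_comp_right (φ := fun t => Real.exp (s * t)) hder hwd
  have cm : ∀ k l : E n → ℝ, gradIp G k l x = gradIp G l k x := fun k l =>
    Grad.gradIp_comm (h2 x)
  have e2 : ∀ k : E n → ℝ, gradIp G k u x = f x * gradIp G k φ x + φ x * gradIp G k f x := fun k =>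
    Grad.gradIp_mul_right hφd hfd
  have e3 : ∀ k : E n → ℝ, gradIp G k (fun y => u y ^ 2) x = 2 * u x * gradIp G k u x := fun k => by
    have : (fun y => u y ^ 2) = fun y => u y * u y := by funext y; ring
    rw [this, Grad.gradIp_mul_right hud hud]; ring
  have e4 := lap_mul' h2 (hus.pow 2) hw x
  have e5 : gradSq G u x = gradIp G u u x := rfl
  have e6 : gradSq G w x = gradIp G w w x := rfl
  have e7 : gradSq G f x = gradIp G f f x := rfl
  have e8 : Real.exp (2 * s * w x) = φ x ^ 2 := by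
    rw [hφ]
    simp only
    rw [← Real.exp_nat_mul]; congr 1; push_cast; ring
  have e9 : u x = φ x * f x := rfl
  rw [e8]
  change φ x ^ 2 * (gradSq G f x + cn * (sc - a * lap G w x - b * gradSq G w x) * f x ^ 2) =
    gradSq G u x + cn * sc * (u x) ^ 2 - s / 2 * (lap G (fun y => u y ^ 2 * w y) x +
      u x ^ 2 * lap G w x - lap G (fun y => u y ^ 2) x * w x)
  have e4' : lap G (fun y => u y ^ 2 * w y) x = u x ^ 2 * lap G w x +
      w x * lap G (fun y => u y ^ 2) x + 2 * gradIp G (fun y => u y ^ 2) w x := e4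
  rw [e4', cm _ w, e3, e5, e2, e1, e2, cm u w, cm u f, e2, e2, e1, e1, cm w f, e6, e7, e9]
  linear_combination (-(φ x ^ 2 * lap G w x * f x ^ 2)) * ha -
    φ x ^ 2 * gradIp G w w x * f x ^ 2 * hb

theorem gradSq_confm (h2 : ∀ x, (G x).PosDef) (w f : E n → ℝ) (x : E n) :
    gradSq (confm w G) f x = Real.exp (-(2 * w x)) * gradSq G f x := by
  unfold gradSq gradIp
  simp only [ConfScal.confm_inv h2, Matrix.smul_apply, smul_eq_mul, Finset.mul_sum]
  exact Finset.sum_congr rfl fun i _ => Finset.sum_congr rfl fun j _ => by ring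

end loc

section glob
variable {n : ℕ} {M X Γ I : Type} [TopologicalSpace M] [TopologicalSpace X]
  [Group Γ] [MulAction Γ X] {C : Cov n M X Γ I} {G : I → E n → Matrix (Fin n) (Fin n) ℝ}

theorem scX_chart (hG : MetX C G) (γ : Γ) (i : I) (y : E n) :
    scX C G (γ • C.ψ i y) = H.scal (G i) y := ConfX.gl_scal hG γ i y

/-- integrals of functions with compact support -/
theorem int_dec [Fintype I] [T2Space X] [MeasurableSpace X] [BorelSpace X] {μ : Measure X}
    (hG : MetX C G) (hV : VolX C G μ) {χ : I → E n → ℝ} (hχ : Part C χ) {F : X → ℝ}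
    (hF : Continuous F) (hc : HasCompactSupport F) (S : Finset Γ)
    (hS : ∀ x ∈ tsupport F, ∑ i, ∑ γ ∈ S, IBPX.th C χ γ i x = 1) :
    ∫ x, F x ∂μ = ∑ i, ∑ γ ∈ S, ∫ y, χ i y * F (γ⁻¹ • C.ψ i y) * H.dens (G i) y := by
  have hfin := finComp hG hV
  have e : F = fun x => ∑ i, ∑ γ ∈ S, IBPX.th C χ γ i x * F x := by
    funext x
    simp only [← Finset.sum_mul]
    by_cases hx : x ∈ tsupport F
    · rw [hS x hx, one_mul]
    · rw [image_eq_zero_of_notMem_tsupport hx, mul_zero]
  have hth : ∀ γ i, Continuous (IBPX.th C χ γ i) := fun γ i =>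
    Ck_continuous C fun γ' j => (IBPX.Ck_th hχ γ i γ' j).of_le (by simp)
  have hint : ∀ i γ, Integrable (fun x => IBPX.th C χ γ i x * F x) μ := fun i γ =>
    ((hth γ i).mul hF).integrable_of_hasCompactSupport hc.mul_left
  conv_lhs => rw [e]
  rw [integral_finsetSum _ fun i _ => integrable_finsetSum _ fun γ _ => hint i γ]
  refine Finset.sum_congr rfl fun i _ => ?_
  rw [integral_finsetSum _ fun γ _ => hint i γ]
  refine Finset.sum_congr rfl fun γ _ => ?_
  rw [Int.integral_chart hG hV γ⁻¹ i]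
  · refine integral_congr_ae (Filter.Eventually.of_forall fun y => ?_)
    simp only
    unfold IBPX.th
    rw [smul_inv_smul, ex_ψ]
  · intro x hx
    by_cases h0 : IBPX.th C χ γ i x = 0
    · rw [h0, zero_mul]
    · exfalso
      obtain ⟨y, -, hy⟩ := IBPX.th_ne_zero hχ h0
      exact hx ⟨y, by simp only; rw [← hy, inv_smul_smul]⟩

theorem int_conf [Fintype I] [T2Space X] [MeasurableSpace X] [BorelSpace X] {μ μ' : Measure X}
    (hG : MetX C G) (hV : VolX C G μ) {w : X → ℝ} (hw : C.Ck ∞ w)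
    (hwi : ∀ (γ : Γ) x, w (γ • x) = w x)
    (hV' : VolX C (fun i => confm (C.rep w 1 i) (G i)) μ') {F : X → ℝ}
    (hF : Continuous F) (hc : HasCompactSupport F) :
    ∫ x, F x ∂μ' = ∫ x, Real.exp (n * w x) * F x ∂μ := by
  obtain ⟨χ, hχ⟩ := PartX.main n M X Γ I C
  obtain ⟨S, hS⟩ := exists_F (C := C) hχ hc.isCompact
  have hwc : Continuous w := Ck_continuous C fun γ i => (hw γ i).of_le (by simp)
  have hFc : Continuous fun x => Real.exp (n * w x) * F x :=
    (Real.continuous_exp.comp (continuous_const.mul hwc)).mul hF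
  have hsub : tsupport (fun x => Real.exp (n * w x) * F x) ⊆ tsupport F :=
    closure_mono fun x hx => by
      simp only [Function.mem_support] at hx ⊢
      exact right_ne_zero_of_mul hx
  rw [int_dec (ConfX.confm_met hG hw hwi) hV' hχ hF hc S hS,
    int_dec hG hV hχ hFc (hc.mul_left) S fun x hx => hS x (hsub hx)]
  refine Finset.sum_congr rfl fun i _ => Finset.sum_congr rfl fun γ _ => ?_
  refine integral_congr_ae (Filter.Eventually.of_forall fun y => ?_)
  have h1 : H.dens (confm (C.rep w 1 i) (G i)) y =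
      Real.exp (n * C.rep w 1 i y) * H.dens (G i) y := Conf.confm_dens _ _ y
  have h2 : C.rep w 1 i y = w (γ⁻¹ • C.ψ i y) := by
    change w ((1 : Γ) • C.ψ i y) = _
    rw [hwi, hwi]
  simp only
  rw [h1, h2]
  ring

end glob

theorem specYc : SpecYc := by
  intro n M X Γ I _ _ _ _ _ _ _ _ _ _ C G G' μ μ' w y hn hG hV hV' hw hwi hG' hY f hf
  have hn3 : (3 : ℝ) ≤ n := by exact_mod_cast hn
  obtain ⟨hf1, hf2⟩ := hf
  subst hG'
  have hM' := ConfX.confm_met hG hw hwi
  have hfin := finComp hG hV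
  have hn1 : (n : ℝ) - 1 ≠ 0 := by linarith
  set s : ℝ := ((n : ℝ) - 2) / 2 with hs
  set u : X → ℝ := fun x => Real.exp (s * w x) * f x with hu
  have hus : C.Ck ∞ u := fun γ i => (contDiff_const.mul (hw γ i)).exp.mul (hf1 γ i)
  have huc : HasCompactSupport u := hf2.mul_left
  have hcont : ∀ {g : X → ℝ}, C.Ck ∞ g → Continuous g := fun hg =>
    Ck_continuous C fun γ i => (hg γ i).of_le (by simp)
  have hk := hY u ⟨hus, huc⟩
  -- left-hand sides
  have hl : ∫ x, |f x| ^ (2 * (n : ℝ) / (n - 2)) ∂μ' = ∫ x, |u x| ^ (2 * (n : ℝ) / (n - 2)) ∂μ := by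
    have hp : 0 < 2 * (n : ℝ) / (n - 2) := by
      apply div_pos <;> linarith
    rw [int_conf hG hV hw hwi hV' (F := fun x => |f x| ^ (2 * (n : ℝ) / (n - 2)))]
    · refine integral_congr_ae (Filter.Eventually.of_forall fun x => ?_)
      simp only [hu]
      rw [abs_mul, Real.abs_exp, Real.mul_rpow (Real.exp_pos _).le (abs_nonneg _), ← Real.exp_mul]
      congr 2
      rw [hs]
      have : (n : ℝ) - 2 ≠ 0 := by linarith
      field_simp
    · exact (hcont hf1).abs.rpow_const fun x => Or.inr hp.le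
    · refine HasCompactSupport.intro hf2.isCompact fun x hx => ?_
      rw [image_eq_zero_of_notMem_tsupport hx, abs_zero, Real.zero_rpow hp.ne']
  rw [hl]
  refine hk.trans (le_of_eq ?_)
  symm
  -- right-hand sides
  obtain ⟨g1, g2⟩ := gsX_supp' hM' hf1 hf2
  obtain ⟨k1, k2⟩ := gsX_supp' hG hus huc
  have s1 := scX_cont hM'
  have s2 := scX_cont hG
  rw [int_conf hG hV hw hwi hV']
  rotate_left
  · exact g1.add ((continuous_const.mul s1).mul ((hcont hf1).pow 2))
  · refine HasCompactSupport.intro hf2.isCompact fun x hx => ?_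
    rw [image_eq_zero_of_notMem_tsupport hx, NormX.gsX_supp hM' hx]; simp
  set v : X → ℝ := fun x => u x ^ 2 with hv
  have hvs : C.Ck ∞ v := fun γ i => (hus γ i).pow 2
  have hvc : HasCompactSupport v := by
    refine HasCompactSupport.intro huc.isCompact fun x hx => ?_
    simp only [hv]
    rw [image_eq_zero_of_notMem_tsupport hx]; simp
  set vw : X → ℝ := fun x => v x * w x with hvw
  have hvws : C.Ck ∞ vw := fun γ i => (hvs γ i).mul (hw γ i)
  have hvwc : HasCompactSupport vw := hvc.mul_right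
  have hck2 : ∀ {g : X → ℝ}, C.Ck ∞ g → C.Ck 2 g := fun hg γ i => contDiff_infty.1 (hg γ i) 2
  have hcl : ∀ {g : X → ℝ}, C.Ck ∞ g → Continuous (lapX C G g) := fun {g} hg =>
    Ck_continuous C fun γ i => (Ck_lapX hG (fun γ i => contDiff_infty.1 (hg γ i) 4) γ i).of_le
      (by norm_num)
  have hsl : ∀ {g : X → ℝ}, C.Ck ∞ g → HasCompactSupport g → HasCompactSupport (lapX C G g) :=
    fun {g} hg hc => HasCompactSupport.intro hc.isCompact fun x hx => lapX_zero hG hg hx
  have hpt : ∀ x, Real.exp (n * w x) * (gsX C (fun i => confm (C.rep w 1 i) (G i)) f x +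
      ((n : ℝ) - 2) / (4 * (n - 1)) * scX C (fun i => confm (C.rep w 1 i) (G i)) x * f x ^ 2) =
      (gsX C G u x + ((n : ℝ) - 2) / (4 * (n - 1)) * scX C G x * u x ^ 2) -
      s / 2 * (lapX C G vw x + v x * lapX C G w x - lapX C G v x * w x) := by
    intro x
    obtain ⟨γ, i, y, -, rfl⟩ := C.cover x
    rw [gsX_eq hM', gsX_eq hG, scX_chart hM', scX_chart hG, lapX_eq hG (hck2 hvws),
      lapX_eq hG (hck2 hw), lapX_eq hG (hck2 hvs)]
    have hr : C.rep w γ i = C.rep w 1 i := by
      funext z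
      change w (γ • C.ψ i z) = w ((1 : Γ) • C.ψ i z)
      rw [hwi, hwi]
    have h1 := ConfScal.main n (G i) (hG.smooth i) (hG.pos i) (C.rep w 1 i) (hw 1 i) y
    have h3 := gradSq_confm (hG.pos i) (C.rep w 1 i) (C.rep f γ i) y
    have h4 := conf_pt (hG.pos i) (hf1 γ i) (hw 1 i) (s := s)
      (cn := ((n : ℝ) - 2) / (4 * (n - 1))) (a := 2 * ((n : ℝ) - 1))
      (b := ((n : ℝ) - 1) * ((n : ℝ) - 2)) (by rw [hs]; field_simp; ring)
      (by rw [hs]; field_simp; ring) (H.scal (G i) y) y
    rw [← h1] at h4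
    have e1 : w (γ • C.ψ i y) = C.rep w 1 i y := by rw [← hr]; rfl
    have e2 : f (γ • C.ψ i y) = C.rep f γ i y := rfl
    have e3 : C.rep u γ i = fun z => Real.exp (s * C.rep w 1 i z) * C.rep f γ i z := by
      rw [← hr]; rfl
    have e4 : C.rep v γ i = fun z => (Real.exp (s * C.rep w 1 i z) * C.rep f γ i z) ^ 2 := by
      rw [← hr]; rfl
    have e5 : C.rep vw γ i = fun z => (Real.exp (s * C.rep w 1 i z) * C.rep f γ i z) ^ 2 *
        C.rep w 1 i z := by
      rw [← hr]; rfl
    have e6 : u (γ • C.ψ i y) = Real.exp (s * C.rep w 1 i y) * C.rep f γ i y := by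
      rw [← hr]; rfl
    have e7 : v (γ • C.ψ i y) = (Real.exp (s * C.rep w 1 i y) * C.rep f γ i y) ^ 2 := by
      rw [← hr]; rfl
    rw [e1, e2, e3, e4, e5, e6, e7, hr, ← h4, h3]
    have e8 : Real.exp (n * C.rep w 1 i y) =
        Real.exp (2 * s * C.rep w 1 i y) * Real.exp (2 * C.rep w 1 i y) := by
      rw [← Real.exp_add]; congr 1; rw [hs]; ring
    have e9 : Real.exp (2 * C.rep w 1 i y) * Real.exp (-(2 * C.rep w 1 i y)) = 1 := by
      rw [← Real.exp_add]; simp
    rw [e8]
    linear_combination (Real.exp (2 * s * C.rep w 1 i y) * gradSq (G i) (C.rep f γ i) y) * e9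
  simp only [hpt]
  have i1 : Integrable (fun x => gsX C G u x + ((n : ℝ) - 2) / (4 * (n - 1)) * scX C G x *
      u x ^ 2) μ := by
    have hc : Continuous (fun x => gsX C G u x + ((n : ℝ) - 2) / (4 * (n - 1)) * scX C G x *
      u x ^ 2) := k1.add ((continuous_const.mul s2).mul ((hcont hus).pow 2))
    refine hc.integrable_of_hasCompactSupport
      (HasCompactSupport.intro huc.isCompact fun x hx => ?_)
    rw [image_eq_zero_of_notMem_tsupport hx, NormX.gsX_supp hG hx]; simp
  have i2 : Integrable (lapX C G vw) μ :=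
    (hcl hvws).integrable_of_hasCompactSupport (hsl hvws hvwc)
  have i3 : Integrable (fun x => v x * lapX C G w x) μ :=
    ((hcont hvs).mul (hcl hw)).integrable_of_hasCompactSupport hvc.mul_right
  have i4 : Integrable (fun x => lapX C G v x * w x) μ :=
    ((hcl hvs).mul (hcont hw)).integrable_of_hasCompactSupport (hsl hvs hvc).mul_right
  have z1 : ∫ x, lapX C G vw x ∂μ = 0 := by
    have h1 : C.Ck ∞ (fun _ : X => (1 : ℝ)) := fun _ _ => contDiff_const
    have h := greenX hG hV hvws h1 hvwc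
    have h0 : ∀ x, lapX C G (fun _ : X => (1 : ℝ)) x = 0 := fun x => by
      obtain ⟨γ, i, y, -, rfl⟩ := C.cover x
      rw [lapX_eq hG (hck2 h1)]
      change lap (G i) (fun _ => (1 : ℝ)) y = 0
      unfold lap
      simp [H.pd]
    simp only [h0, mul_zero, integral_zero, mul_one] at h
    exact h.symm
  have z2 := greenX hG hV hvs hw hvc
  have i5 : Integrable (fun x => lapX C G vw x + v x * lapX C G w x) μ := i2.add i3
  have i6 : Integrable (fun x => lapX C G vw x + v x * lapX C G w x - lapX C G v x * w x) μ :=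
    i5.sub i4
  rw [integral_sub i1 (i6.const_mul _), integral_const_mul, integral_sub i5 i4,
    integral_add i2 i3, z1, z2]
  ring

end Vale.Agent.P223.H440
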